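import Vale.Agent.P021.Defs

/-! Lattice points in weighted simplices. -/

namespace Vale.Agent.P021

open Nat

theorem finite_wt_le {ι : Type} [Finite ι] (ω : ι → ℕ) (hω : ∀ i, 0 < ω i) (u : ℕ) :
    {α : ι →₀ ℕ | Finsupp.weight ω α ≤ u}.Finite :=
  Finsupp.finite_of_nat_weight_le ω (fun i => (hω i).ne') u

theorem finite_wt_lt {ι : Type} [Finite ι] (ω : ι → ℕ) (hω : ∀ i, 0 < ω i) (u : ℕ) :
    {α : ι →₀ ℕ | Finsupp.weight ω α < u}.Finite :=
  (finite_wt_le ω hω u).subset fun α h => le_of_lt (show Finsupp.weight ω α < u from h)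

theorem weight_eq_sum {ι : Type} [Fintype ι] (ω : ι → ℕ) (α : ι →₀ ℕ) :
    Finsupp.weight ω α = ∑ i, ω i * α i := by
  rw [Finsupp.weight_apply, Finsupp.sum_fintype _ _ (by simp)]
  exact Finset.sum_congr rfl fun i _ => by rw [smul_eq_mul, mul_comm]

theorem cntLt_le_cntLe {ι : Type} [Finite ι] (ω : ι → ℕ) (hω : ∀ i, 0 < ω i) (u : ℕ) :
    cntLt ω u ≤ cntLe ω u :=
  Set.ncard_le_ncard (fun α h => le_of_lt (show Finsupp.weight ω α < u from h)) (finite_wt_le ω hω u)

theorem cntLe_eq_cntLt {ι : Type} (ω : ι → ℕ) (u : ℕ) : cntLe ω u = cntLt ω (u + 1) := by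
  simp only [cntLe, cntLt, Nat.lt_succ_iff]

theorem cntLt_zero {ι : Type} (ω : ι → ℕ) : cntLt ω 0 = 0 := by
  simp [cntLt]

theorem cntLt_equiv {ι κ : Type} [Fintype ι] [Fintype κ] (e : ι ≃ κ) (ω : κ → ℕ) (u : ℕ) :
    cntLt (fun i => ω (e i)) u = cntLt ω u := by
  unfold cntLt
  rw [← Set.ncard_image_of_injective _ (Finsupp.equivCongrLeft e).injective]
  congr 1
  ext β
  obtain ⟨α, rfl⟩ := (Finsupp.equivCongrLeft (M := ℕ) e).surjective β
  rw [(Finsupp.equivCongrLeft e).injective.mem_set_image]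
  simp only [Set.mem_ofPred_eq, weight_eq_sum]
  rw [← e.sum_comp]
  simp

theorem cntLt_succ {n : ℕ} (ω : Fin (n + 1) → ℕ) (hω : ∀ i, 0 < ω i) (u : ℕ) :
    cntLt ω u = cntLt (fun i : Fin n => ω i.succ) u + cntLt ω (u - ω 0) := by
  unfold cntLt
  have h1 : Function.Injective fun α : Fin n →₀ ℕ => Finsupp.cons 0 α := by
    intro α β h
    have := congrArg Finsupp.tail h
    simpa using this
  have h2 : Function.Injective fun α : Fin (n + 1) →₀ ℕ => α + Finsupp.single 0 1 :=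
    add_left_injective _
  rw [← Set.ncard_image_of_injective _ h1,
    ← Set.ncard_image_of_injective {α | Finsupp.weight ω α < u - ω 0} h2,
    ← Set.ncard_union_eq ?_ ((finite_wt_lt _ (fun i => hω _) u).image _)
      ((finite_wt_lt _ hω _).image _)]
  · congr 1
    ext α
    simp only [Set.mem_ofPred_eq, Set.mem_union, Set.mem_image, weight_eq_sum]
    constructor
    · intro h
      by_cases h0 : α 0 = 0
      · refine Or.inl ⟨α.tail, ?_, ?_⟩
        · simpa [Fin.sum_univ_succ, h0, Finsupp.tail_apply] using h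
        · rw [← h0, Finsupp.cons_tail]
      · have h3 : α - Finsupp.single 0 1 + Finsupp.single 0 1 = α := by
          refine tsub_add_cancel_of_le ?_
          rw [Finsupp.single_le_iff]
          omega
        refine Or.inr ⟨α - Finsupp.single 0 1, ?_, h3⟩
        rw [← h3, ← weight_eq_sum, map_add, Finsupp.weight_single, one_smul, weight_eq_sum] at h
        omega
    · rintro (⟨β, h, rfl⟩ | ⟨β, h, rfl⟩)
      · simpa [Fin.sum_univ_succ] using h
      · rw [← weight_eq_sum, map_add, Finsupp.weight_single, one_smul, weight_eq_sum]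
        omega
  · rw [Set.disjoint_left]
    rintro _ ⟨β, -, rfl⟩ ⟨γ, -, h⟩
    have := DFunLike.congr_fun h 0
    simp at this

theorem pow_add_le_aux (y w n : ℕ) : (y + w) ^ (n + 1) ≤ y ^ (n + 1) + (n + 1) * w * (y + w) ^ n := by
  induction n with
  | zero => simp
  | succ n ih =>
    have h1 : y ^ (n + 1) ≤ (y + w) ^ (n + 1) := Nat.pow_le_pow_left (Nat.le_add_right _ _) _
    calc (y + w) ^ (n + 1 + 1) = (y + w) ^ (n + 1) * (y + w) := pow_succ _ _
      _ ≤ (y ^ (n + 1) + (n + 1) * w * (y + w) ^ n) * (y + w) := Nat.mul_le_mul_right _ ih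
      _ = y ^ (n + 1 + 1) + (n + 1) * w * (y + w) ^ (n + 1) + w * y ^ (n + 1) := by ring
      _ ≤ y ^ (n + 1 + 1) + (n + 1) * w * (y + w) ^ (n + 1) + w * (y + w) ^ (n + 1) := by gcongr
      _ = _ := by ring

theorem le_pow_add_aux (y w n : ℕ) : y ^ (n + 1) + (n + 1) * w * y ^ n ≤ (y + w) ^ (n + 1) := by
  induction n with
  | zero => simp
  | succ n ih =>
    calc y ^ (n + 1 + 1) + (n + 1 + 1) * w * y ^ (n + 1)
        ≤ y ^ (n + 1 + 1) + (n + 1 + 1) * w * y ^ (n + 1) + (n + 1) * w * w * y ^ n :=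
          Nat.le_add_right _ _
      _ = (y ^ (n + 1) + (n + 1) * w * y ^ n) * (y + w) := by ring
      _ ≤ (y + w) ^ (n + 1) * (y + w) := Nat.mul_le_mul_right _ ih
      _ = _ := (pow_succ _ _).symm

theorem cntLt_fin_zero (ω : Fin 0 → ℕ) (u : ℕ) (hu : 0 < u) : cntLt ω u = 1 := by
  unfold cntLt
  rw [Set.ncard_eq_one]
  refine ⟨0, ?_⟩
  ext α
  have : α = 0 := Subsingleton.elim _ _
  simp [this, hu]

theorem cnt_lower_fin (n : ℕ) : ∀ (ω : Fin n → ℕ), (∀ i, 0 < ω i) → ∀ u : ℕ, 0 < u →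
    u ^ n ≤ n ! * (∏ i, ω i) * cntLt ω u := by
  induction n with
  | zero => intro ω _ u hu; simp [cntLt_fin_zero ω u hu]
  | succ n ih =>
    intro ω hω u hu
    clear hu
    induction u using Nat.strong_induction_on with
    | _ u ihu =>
    rcases Nat.eq_zero_or_pos u with rfl | hu
    · simp
    have h0 := hω 0
    have h1 := ih (fun i => ω i.succ) (fun i => hω _) u hu
    have h2 := ihu (u - ω 0) (by omega)
    have h3 : u ^ (n + 1) ≤ (u - ω 0) ^ (n + 1) + (n + 1) * ω 0 * u ^ n := by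
      rcases le_total u (ω 0) with h | h
      · calc u ^ (n + 1) = 1 * u * u ^ n := by ring
          _ ≤ (n + 1) * ω 0 * u ^ n := by gcongr; omega
          _ ≤ _ := Nat.le_add_left _ _
      · have := pow_add_le_aux (u - ω 0) (ω 0) n
        rwa [Nat.sub_add_cancel h] at this
    rw [cntLt_succ ω hω u, mul_add]
    refine h3.trans ?_
    rw [add_comm]
    refine Nat.add_le_add ?_ h2
    rw [Fin.prod_univ_succ, Nat.factorial_succ]
    calc (n + 1) * ω 0 * u ^ n
        ≤ (n + 1) * ω 0 * (n ! * (∏ i : Fin n, ω i.succ) * cntLt (fun i : Fin n => ω i.succ) u) :=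
          Nat.mul_le_mul_left _ h1
      _ = _ := by ring

theorem cnt_upper_fin (n : ℕ) : ∀ (ω : Fin n → ℕ), (∀ i, 0 < ω i) → ∀ u : ℕ,
    n ! * (∏ i, ω i) * cntLt ω (u + 1) ≤ (u + ∑ i, ω i) ^ n := by
  induction n with
  | zero => intro ω _ u; simp [cntLt_fin_zero ω (u + 1) (Nat.succ_pos u)]
  | succ n ih =>
    intro ω hω u
    induction u using Nat.strong_induction_on with
    | _ u ihu =>
    have h0 := hω 0
    have h1 := ih (fun i => ω i.succ) (fun i => hω _) u
    have h2 : (n + 1)! * (∏ i, ω i) * cntLt ω (u + 1 - ω 0) ≤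
        (u + ∑ i : Fin n, ω i.succ) ^ (n + 1) := by
      rcases Nat.lt_or_ge u (ω 0) with h | h
      · rw [show u + 1 - ω 0 = 0 by omega, cntLt_zero]
        simp
      · have := ihu (u - ω 0) (by omega)
        rw [Fin.sum_univ_succ, ← add_assoc, Nat.sub_add_cancel h] at this
        rwa [show u + 1 - ω 0 = u - ω 0 + 1 by omega]
    rw [cntLt_succ ω hω, mul_add, Fin.sum_univ_succ, add_comm (ω 0), ← add_assoc, add_comm]
    refine le_trans (Nat.add_le_add h2 ?_) (le_pow_add_aux _ _ _)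
    rw [Fin.prod_univ_succ, Nat.factorial_succ]
    calc (n + 1) * n ! * (ω 0 * ∏ i : Fin n, ω i.succ) * cntLt (fun i : Fin n => ω i.succ) (u + 1)
        = (n + 1) * ω 0 *
          (n ! * (∏ i : Fin n, ω i.succ) * cntLt (fun i : Fin n => ω i.succ) (u + 1)) := by ring
      _ ≤ _ := Nat.mul_le_mul_left _ h1

theorem cnt_lower {ι : Type} [Fintype ι] (ω : ι → ℕ) (hω : ∀ i, 0 < ω i) (u : ℕ) (hu : 0 < u) :
    u ^ Fintype.card ι ≤ (Fintype.card ι)! * (∏ i, ω i) * cntLt ω u := by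
  have e := (Fintype.equivFin ι).symm
  have := cnt_lower_fin _ (fun i => ω (e i)) (fun i => hω _) u hu
  rwa [cntLt_equiv e, e.prod_comp ω] at this

theorem cnt_upper {ι : Type} [Fintype ι] (ω : ι → ℕ) (hω : ∀ i, 0 < ω i) (u : ℕ) :
    (Fintype.card ι)! * (∏ i, ω i) * cntLe ω u ≤ (u + ∑ i, ω i) ^ Fintype.card ι := by
  have e := (Fintype.equivFin ι).symm
  have := cnt_upper_fin _ (fun i => ω (e i)) (fun i => hω _) u
  rwa [cntLt_equiv e, e.prod_comp ω, e.sum_comp ω, ← cntLe_eq_cntLt] at this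

theorem asym (a b r c : ℕ) (h : ∀ k : ℕ, 0 < k → a * k ^ r ≤ b * (k + c) ^ r) : a ≤ b := by
  have h1 : Filter.Tendsto (fun k : ℕ => (b : ℝ) * (1 + c / (k : ℝ)) ^ r) Filter.atTop
      (nhds ((b : ℝ) * (1 + 0) ^ r)) :=
    (((tendsto_const_div_atTop_nhds_zero_nat (c : ℝ)).const_add 1).pow r).const_mul _
  have h2 : (a : ℝ) ≤ (b : ℝ) * (1 + 0) ^ r := by
    refine ge_of_tendsto h1 ?_
    filter_upwards [Filter.eventually_gt_atTop 0] with k hk
    have hk' : (0 : ℝ) < k := by exact_mod_cast hk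
    have h3 : (a : ℝ) * k ^ r ≤ b * (k + c) ^ r := by exact_mod_cast h k hk
    rw [show (1 + c / (k : ℝ)) = (k + c) / k by field_simp, div_pow, ← mul_div_assoc,
      le_div_iff₀ (by positivity)]
    exact h3
  simpa using h2

end Vale.Agent.P021
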