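import Vale.Agent.P021.Defs

/-! Cauchy estimate for the coefficients of a polynomial in several variables. -/

namespace Vale.Agent.P021

open MvPolynomial

theorem coeff_le_of_circle (p : Polynomial ℂ) (r : ℝ) (hr : 0 < r) (M : ℝ)
    (h : ∀ z : ℂ, ‖z‖ = r → ‖p.eval z‖ ≤ M) (k : ℕ) : ‖p.coeff k‖ * r ^ k ≤ M := by
  have hM : 0 ≤ M := (norm_nonneg _).trans (h r (by simp [hr.le]))
  set q := p.comp (Polynomial.C (r : ℂ) * Polynomial.X) with hq
  have h1 : ‖q.coeff k‖ = ‖p.coeff k‖ * r ^ k := by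
    rw [hq, Polynomial.comp_C_mul_X_coeff, norm_mul, norm_pow, Complex.norm_real,
      Real.norm_of_nonneg hr.le]
  have h2 : ‖q.coeff k‖ ^ 2 ≤ ∑ i ∈ q.support, ‖q.coeff i‖ ^ 2 := by
    by_cases hk : k ∈ q.support
    · exact Finset.single_le_sum (f := fun i => ‖q.coeff i‖ ^ 2) (fun i _ => by positivity) hk
    · rw [Polynomial.notMem_support_iff.1 hk]
      simp only [norm_zero, ne_eq, OfNat.ofNat_ne_zero, not_false_eq_true, zero_pow]
      positivity
  have h3 : Real.circleAverage (fun θ => ‖q.eval θ‖ ^ 2) 0 1 ≤ M ^ 2 := by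
    refine Real.circleAverage_mono_on_of_le_circle ?_ fun x hx => ?_
    · exact (Continuous.continuousOn (by fun_prop)).circleIntegrable zero_le_one
    · have hx1 : ‖x‖ = 1 := by simpa using hx
      have : ‖q.eval x‖ ≤ M := by
        rw [hq, Polynomial.eval_comp]
        refine h _ ?_
        simp [hx1, hr.le]
      exact pow_le_pow_left₀ (norm_nonneg _) this 2
  rw [q.sum_sq_norm_coeff_eq_circleAverage] at h2
  rw [← h1]
  exact (pow_le_pow_iff_left₀ (norm_nonneg _) hM two_ne_zero).1 (h2.trans h3)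

theorem coeff_le_of_torus {n : ℕ} (p : MvPolynomial (Fin n) ℂ) (r : Fin n → ℝ)
    (hr : ∀ i, 0 < r i) (M : ℝ)
    (h : ∀ z : Fin n → ℂ, (∀ i, ‖z i‖ = r i) → ‖eval z p‖ ≤ M) (s : Fin n →₀ ℕ) :
    ‖coeff s p‖ * ∏ i, r i ^ s i ≤ M := by
  induction n generalizing M with
  | zero =>
    have h1 := h (fun i => i.elim0) (fun i => i.elim0)
    have h2 : s = 0 := Subsingleton.elim _ _
    rw [eq_C_of_isEmpty p] at h1
    simpa [h2] using h1
  | succ n ih =>
    have hp : 0 < r 0 ^ s 0 := pow_pos (hr 0) _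
    have h1 := ih ((finSuccEquiv ℂ n p).coeff (s 0)) (fun i => r i.succ) (fun i => hr _)
      (M / r 0 ^ s 0) (fun z hz => by
        rw [le_div_iff₀ hp, ← Polynomial.coeff_map]
        refine coeff_le_of_circle _ _ (hr 0) M (fun y hy => ?_) _
        rw [← eval_eq_eval_mv_eval']
        refine h _ fun i => ?_
        refine Fin.cases ?_ (fun j => ?_) i
        · simpa using hy
        · simpa using hz j) s.tail
    rw [finSuccEquiv_coeff_coeff, Finsupp.cons_tail, le_div_iff₀ hp] at h1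
    rw [Fin.prod_univ_succ]
    simp only [Finsupp.tail_apply] at h1
    linarith

end Vale.Agent.P021
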