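import Vale.Agent.P021.Link
import Vale.Agent.P021.Count
import Vale.Agent.P021.Torus

/-! Integrality, size bounds and the Siegel lemma step. -/

namespace Vale.Agent.P021

open MvPolynomial

variable {m : ℕ}

/-- polynomials with all coefficients in the subring `S` -/
def coefIn (m : ℕ) (S : Subring ℂ) : Subring (PR m) where
  carrier := {P | ∀ s, coeff s P ∈ S}
  mul_mem' := fun {P Q} hP hQ s => by
    rw [coeff_mul]
    exact S.sum_mem fun x _ => S.mul_mem (hP _) (hQ _)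
  one_mem' := fun s => by
    rw [coeff_one]
    split_ifs
    · exact S.one_mem
    · exact S.zero_mem
  add_mem' := fun {P Q} hP hQ s => by
    rw [coeff_add]
    exact S.add_mem (hP _) (hQ _)
  zero_mem' := fun s => by simp
  neg_mem' := fun {P} hP s => by
    rw [coeff_neg]
    exact S.neg_mem (hP _)

theorem C_mem_coefIn {S : Subring ℂ} {c : ℂ} (hc : c ∈ S) : (C c : PR m) ∈ coefIn m S := by
  intro s
  rw [coeff_C]
  split_ifs
  · exact hc
  · exact S.zero_mem

theorem X_mem_coefIn (S : Subring ℂ) (i : Fin (m + 1)) : (X i : PR m) ∈ coefIn m S := by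
  intro s
  rw [coeff_X]
  split_ifs
  · exact S.one_mem
  · exact S.zero_mem

theorem psi_mem_coefIn (S : Subring ℂ) (ρ : Fin m → ℕ) (q : Fin m → ℕ) (c : Fin m → ℂ)
    (hc : ∀ j, c j ∈ S) (P : PR m) (hP : ∀ s, ∃ n : ℤ, coeff s P = n) :
    psi ρ (fun j => (q j : ℂ) * (Nat.lcmUpto (ρ j) : ℂ)) c P ∈ coefIn m S := by
  rw [psi, aeval_def, eval₂_eq']
  refine Subring.sum_mem _ fun s _ => Subring.mul_mem _ ?_
    (Subring.prod_mem _ fun i _ => Subring.pow_mem _ ?_ _)
  · obtain ⟨n, hn⟩ := hP s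
    rw [hn, algebraMap_eq]
    exact C_mem_coefIn (intCast_mem S n)
  · refine Fin.cases ?_ (fun j => ?_) i
    · simpa using Subring.add_mem _ (Subring.one_mem _) (X_mem_coefIn S 0)
    · simp only [Fin.cons_succ]
      refine Subring.add_mem _ (Subring.add_mem _ (C_mem_coefIn (hc j)) ?_) (X_mem_coefIn S _)
      simp only [ell, map_sum, map_mul (Polynomial.aeval (X 0 : PR m)), map_pow, Polynomial.aeval_X,
        Polynomial.aeval_C, algebraMap_eq, Finset.mul_sum, ← mul_assoc, ← C_mul]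
      refine Subring.sum_mem _ fun i hi => Subring.mul_mem _ (C_mem_coefIn ?_)
        (Subring.pow_mem _ (X_mem_coefIn S 0) _)
      rcases Nat.eq_zero_or_pos i with rfl | hi0
      · simp
      · have hd : i ∣ Nat.lcmUpto (ρ j) :=
          Finset.dvd_lcm (f := id) (Finset.mem_Icc.2 ⟨hi0, by simpa [Nat.lt_succ_iff] using hi⟩)
        obtain ⟨k, hk⟩ := hd
        have hi' : (i : ℂ) ≠ 0 := Nat.cast_ne_zero.2 hi0.ne'
        have : (q j : ℂ) * (Nat.lcmUpto (ρ j) : ℂ) * ((-1) ^ (i + 1) / (i : ℂ)) =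
            (q j : ℂ) * k * (-1) ^ (i + 1) := by
          rw [hk]; push_cast; field_simp
        rw [this]
        exact S.mul_mem (S.mul_mem (natCast_mem S _) (natCast_mem S _))
          (S.pow_mem (S.neg_mem S.one_mem) _)

theorem psi_coeff_gauss (ρ : Fin m → ℕ) (q : Fin m → ℕ) (c : Fin m → GaussianInt) (P : PR m)
    (hP : ∀ s, ∃ n : ℤ, coeff s P = n) (s : Fin (m + 1) →₀ ℕ) :
    ∃ g : GaussianInt, coeff s (psi ρ (fun j => (q j : ℂ) * (Nat.lcmUpto (ρ j) : ℂ))
      (fun j => GaussianInt.toComplex (c j)) P) = GaussianInt.toComplex g := by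
  obtain ⟨g, hg⟩ := psi_mem_coefIn GaussianInt.toComplex.range ρ q _ (fun j => ⟨c j, rfl⟩) P hP s
  exact ⟨g, hg.symm⟩

theorem psi_coeff_int (ρ : Fin m → ℕ) (q : Fin m → ℕ) (P : PR m)
    (hP : ∀ s, ∃ n : ℤ, coeff s P = n) (s : Fin (m + 1) →₀ ℕ) :
    ∃ n : ℤ, coeff s (psi ρ (fun j => (q j : ℂ) * (Nat.lcmUpto (ρ j) : ℂ)) 0 P) = n := by
  obtain ⟨g, hg⟩ := psi_mem_coefIn (Int.castRingHom ℂ).range ρ q 0
    (fun _ => Subring.zero_mem _) P hP s
  exact ⟨g, hg.symm⟩

/-- the admissible exponents -/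
noncomputable def expo (lam : Fin m → ℕ) (hlam : ∀ j, 0 < lam j) (D Y : ℕ) :
    Finset (ℕ × (Fin m →₀ ℕ)) :=
  Finset.range (D + 1) ×ˢ (finite_wt_le lam hlam Y).toFinset

theorem card_expo (lam : Fin m → ℕ) (hlam : ∀ j, 0 < lam j) (D Y : ℕ) :
    (expo lam hlam D Y).card = (D + 1) * cntLe lam Y := by
  rw [expo, Finset.card_product, Finset.card_range, cntLe,
    Set.ncard_eq_toFinset_card _ (finite_wt_le lam hlam Y)]

theorem mem_expo {lam : Fin m → ℕ} {hlam : ∀ j, 0 < lam j} {D Y : ℕ} {u : ℕ × (Fin m →₀ ℕ)} :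
    u ∈ expo lam hlam D Y ↔ u.1 ≤ D ∧ ∑ j, lam j * u.2 j ≤ Y := by
  simp [expo, weight_eq_sum]

theorem monomial_bound (lam : Fin m → ℕ) (D Y : ℕ) (s : Fin (m + 1) →₀ ℕ) (h0 : s 0 ≤ D)
    (h1 : ∑ j : Fin m, lam j * s j.succ ≤ Y) (a b : ℝ) (ha : 1 ≤ a)
    (hb : 0 ≤ b) (x : ℂ) (y : Fin m → ℂ) (hx : ‖x‖ ≤ a)
    (hy : ∀ j, ‖y j‖ ≤ Real.exp (b * lam j)) :
    ‖∏ i, (Fin.cons x y : Fin (m + 1) → ℂ) i ^ s i‖ ≤ a ^ D * Real.exp (b * Y) := by
  rw [Fin.prod_univ_succ, norm_mul, norm_prod]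
  simp only [Fin.cons_zero, Fin.cons_succ, norm_pow]
  refine mul_le_mul ((pow_le_pow_left₀ (norm_nonneg _) hx _).trans (pow_le_pow_right₀ ha h0)) ?_
    (by positivity) (by positivity)
  calc ∏ j : Fin m, ‖y j‖ ^ s j.succ ≤ ∏ j : Fin m, Real.exp (b * lam j) ^ s j.succ :=
        Finset.prod_le_prod (fun j _ => by positivity)
          fun j _ => pow_le_pow_left₀ (norm_nonneg _) (hy j) _
    _ = Real.exp (b * ((∑ j : Fin m, lam j * s j.succ : ℕ) : ℝ)) := by
        simp only [← Real.exp_nat_mul, ← Real.exp_sum]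
        push_cast
        rw [Finset.mul_sum]
        congr 1
        exact Finset.sum_congr rfl fun j _ => by ring
    _ ≤ _ := by
        refine Real.exp_le_exp.2 (mul_le_mul_of_nonneg_left ?_ hb)
        exact_mod_cast h1

theorem norm_logTaylor_le (ρ : ℕ) (t : ℂ) (ht : ‖t‖ = 1) : ‖Complex.logTaylor (ρ + 1) t‖ ≤ ρ := by
  induction ρ with
  | zero => simp [Complex.logTaylor]
  | succ n ih =>
    rw [Complex.logTaylor_succ]
    refine (norm_add_le _ _).trans ?_
    push_cast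
    refine add_le_add ih ?_
    simp only [norm_div, norm_mul, norm_pow, norm_neg, norm_one, one_pow, ht, mul_one]
    rw [div_le_one (by exact_mod_cast (norm_pos_iff.2 (Nat.cast_add_one_ne_zero (R := ℂ) n)))]
    exact_mod_cast Nat.succ_le_succ (Nat.zero_le n)

theorem card_support_le (lam : Fin m → ℕ) (hlam : ∀ j, 0 < lam j) (D Y : ℕ) (P : PR m)
    (hdeg : DegLe lam D Y P) : P.support.card ≤ (D + 1) * cntLe lam Y := by
  rw [← card_expo lam hlam]
  refine Finset.card_le_card_of_injOn (fun s => (s 0, s.tail)) (fun s hs => ?_) ?_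
  · exact mem_expo.2 (hdeg s hs)
  · intro s _ s' _ h
    simp only [Prod.mk.injEq] at h
    rw [← Finsupp.cons_tail s, ← Finsupp.cons_tail s', h.1, h.2]

theorem eval_bound (lam : Fin m → ℕ) (hlam : ∀ j, 0 < lam j) (D Y : ℕ) (P : PR m)
    (hdeg : DegLe lam D Y P) (H : ℝ) (hH : ∀ s, ‖coeff s P‖ ≤ H) (a b : ℝ) (ha : 1 ≤ a)
    (hb : 0 ≤ b) (x : ℂ) (y : Fin m → ℂ) (hx : ‖x‖ ≤ a)
    (hy : ∀ j, ‖y j‖ ≤ Real.exp (b * lam j)) :
    ‖eval (Fin.cons x y : Fin (m + 1) → ℂ) P‖ ≤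
      (((D + 1) * cntLe lam Y : ℕ) : ℝ) * H * a ^ D * Real.exp (b * Y) := by
  have hH0 : 0 ≤ H := (norm_nonneg _).trans (hH 0)
  rw [eval_eq']
  refine (norm_sum_le _ _).trans ?_
  refine (Finset.sum_le_card_nsmul _ _ (H * (a ^ D * Real.exp (b * Y))) fun s hs => ?_).trans ?_
  · rw [norm_mul]
    exact mul_le_mul (hH s) (monomial_bound lam D Y s (hdeg s hs).1 (hdeg s hs).2 a b ha hb x y hx hy)
      (norm_nonneg _) hH0
  · rw [nsmul_eq_mul, mul_assoc, mul_assoc]
    refine mul_le_mul_of_nonneg_right ?_ (by positivity)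
    exact_mod_cast card_support_le lam hlam D Y P hdeg

attribute [local instance] Matrix.seminormedAddCommGroup in
theorem siegel_step (ρ : Fin m → ℕ) (q : Fin m → ℕ) (lam : Fin m → ℕ) (hlam : ∀ j, 0 < lam j)
    (ω : Fin (m + 1) → ℕ) (hω : ∀ i, 0 < ω i) (D Y σ : ℕ) (hσ : 0 < σ) (b η : ℝ) (hb : 0 ≤ b)
    (hη : 0 < η) (hη1 : η ≤ 1)
    (hQ : ∀ j, (q j : ℝ) * (Nat.lcmUpto (ρ j) : ℝ) * (ρ j : ℝ) + 1 ≤ Real.exp (b * lam j))
    (hcount : 2 * (cntLt ω σ : ℝ) ≤ η * (((D + 1) * cntLe lam Y : ℕ) : ℝ)) :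
    ∃ P : PR m, P ≠ 0 ∧ DegLe lam D Y P ∧ (∀ s, ∃ n : ℤ, coeff s P = n) ∧
      OrdGe ω σ (psi ρ (fun j => (q j : ℂ) * (Nat.lcmUpto (ρ j) : ℂ)) 0 P) ∧
      ∀ s, ‖coeff s P‖ ≤
        ((((D + 1) * cntLe lam Y : ℕ) : ℝ) * 2 ^ D * Real.exp (b * Y)) ^ η := by
  classical
  set Q : Fin m → ℂ := fun j => (q j : ℂ) * (Nat.lcmUpto (ρ j) : ℂ) with hQdef
  let U := expo lam hlam D Y
  let W := (finite_wt_lt ω hω σ).toFinset
  let ex : U → Fin (m + 1) →₀ ℕ := fun u => Finsupp.cons u.1.1 u.1.2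
  have hex : Function.Injective ex := by
    intro u v h
    have h1 := DFunLike.congr_fun h 0
    have h2 := congrArg Finsupp.tail h
    simp only [ex, Finsupp.cons_zero, Finsupp.tail_cons] at h1 h2
    exact Subtype.ext (Prod.ext h1 h2)
  have hint : ∀ (a : W) (u : U), ∃ n : ℤ, coeff a.1 (psi ρ Q 0 (monomial (ex u) 1)) = n := by
    intro a u
    refine psi_coeff_int ρ q _ (fun s => ?_) _
    rw [coeff_monomial]
    split_ifs
    · exact ⟨1, by simp⟩
    · exact ⟨0, by simp⟩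
  choose A hA using hint
  set n : ℕ := (D + 1) * cntLe lam Y with hn
  have cU : Fintype.card U = n := by rw [Fintype.card_coe, card_expo]
  have cW : Fintype.card W = cntLt ω σ := by
    rw [Fintype.card_coe, cntLt, Set.ncard_eq_toFinset_card _ (finite_wt_lt ω hω σ)]
  have hW0 : 0 < Fintype.card W := by
    rw [Fintype.card_coe, Finset.card_pos]
    exact ⟨0, by simpa [W] using hσ⟩
  have hm0 : (0 : ℝ) < cntLt ω σ := by rw [← cW]; exact_mod_cast hW0
  have hn0 : (0 : ℝ) ≤ n := Nat.cast_nonneg _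
  have h2 : 2 * (cntLt ω σ : ℝ) ≤ n := hcount.trans (mul_le_of_le_one_left hn0 hη1)
  have hlt : Fintype.card W < Fintype.card U := by
    rw [cU, cW]
    exact_mod_cast (show (cntLt ω σ : ℝ) < n by linarith)
  obtain ⟨t, ht0, htA, htn⟩ := Int.Matrix.exists_ne_zero_int_vec_norm_le (Matrix.of A) hlt hW0
  have hBd : (1 : ℝ) ≤ 2 ^ D * Real.exp (b * Y) :=
    one_le_mul_of_one_le_of_one_le (one_le_pow₀ one_le_two) (Real.one_le_exp (by positivity))
  have hAn : ‖Matrix.of A‖ ≤ 2 ^ D * Real.exp (b * Y) := by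
    rw [Matrix.norm_le_iff (by positivity)]
    intro a u
    have h3 := coeff_le_of_torus (psi ρ Q 0 (monomial (ex u) 1)) (fun _ => 1) (fun _ => one_pos)
      (2 ^ D * Real.exp (b * Y)) (fun z hz => by
        rw [← Fin.cons_self_tail z, eval_psi, eval_monomial, one_mul,
          Finsupp.prod_fintype _ _ (by simp)]
        refine monomial_bound lam D Y (ex u) (mem_expo.1 u.2).1 (by simpa [ex] using (mem_expo.1 u.2).2)
          2 b one_le_two hb _ _ ?_ fun j => ?_
        · refine (norm_add_le _ _).trans ?_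
          rw [norm_one, hz 0]
          norm_num
        · refine le_trans ?_ (hQ j)
          refine (norm_add_le _ _).trans (add_le_add ?_ (hz j.succ).le)
          simp only [Pi.zero_apply, zero_add, norm_mul, hQdef, Complex.norm_natCast]
          exact mul_le_mul_of_nonneg_left (norm_logTaylor_le _ _ (hz 0)) (by positivity)) a.1
    simpa [hA, Int.norm_eq_abs] using h3
  have htn' : ‖t‖ ≤ ((n : ℝ) * 2 ^ D * Real.exp (b * Y)) ^ η := by
    rw [cU, cW] at htn
    have hn1 : (1 : ℝ) ≤ n := by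
      have : (1 : ℝ) ≤ cntLt ω σ := by rw [← cW]; exact_mod_cast hW0
      linarith
    refine htn.trans ((Real.rpow_le_rpow (by positivity) (mul_le_mul_of_nonneg_left
      (max_le hBd hAn) hn0) (div_nonneg hm0.le (by linarith))).trans ?_)
    rw [← mul_assoc]
    refine Real.rpow_le_rpow_of_exponent_le ?_ ?_
    · rw [mul_assoc]
      exact one_le_mul_of_one_le_of_one_le hn1 hBd
    · rw [div_le_iff₀ (by linarith)]
      nlinarith
  let P : PR m := ∑ u : U, monomial (ex u) (t u : ℂ)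
  have hc1 : ∀ u : U, coeff (ex u) P = t u := by
    intro u
    simp only [P, coeff_sum, coeff_monomial, hex.eq_iff]
    simp
  have hc2 : ∀ s, (∀ u, ex u ≠ s) → coeff s P = 0 := by
    intro s hs
    simp only [P, coeff_sum, coeff_monomial]
    exact Finset.sum_eq_zero fun u _ => if_neg (hs u)
  refine ⟨P, fun hP => ht0 ?_, fun s hs => ?_, fun s => ?_, fun s hs => ?_, fun s => ?_⟩
  · ext u
    have := hc1 u
    rw [hP, coeff_zero] at this
    exact_mod_cast this.symm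
  · by_contra hc
    refine mem_support_iff.1 hs (hc2 s fun u hu => hc ?_)
    rw [← hu]
    simpa [ex] using mem_expo.1 u.2
  · by_cases hs : ∃ u, ex u = s
    · obtain ⟨u, rfl⟩ := hs
      exact ⟨t u, hc1 u⟩
    · exact ⟨0, by simpa using hc2 s (by simpa using hs)⟩
  · by_contra hc
    have hsW : s ∈ W := by simpa [W, weight_eq_sum] using hc
    refine mem_support_iff.1 hs ?_
    have h4 := congrFun htA ⟨s, hsW⟩
    simp only [Matrix.mulVec, dotProduct, Matrix.of_apply, Pi.zero_apply] at h4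
    have h5 : ∀ u : U, (monomial (ex u) (t u : ℂ) : PR m) = (t u : ℂ) • monomial (ex u) 1 := by
      intro u; simp [smul_monomial]
    simp only [P, h5, map_sum, map_smul, coeff_sum, coeff_smul, smul_eq_mul]
    have h6 := congrArg (Int.cast : ℤ → ℂ) h4
    push_cast at h6
    rw [← h6]
    exact Finset.sum_congr rfl fun u _ => by rw [hA ⟨s, hsW⟩ u, mul_comm]
  · by_cases hs : ∃ u, ex u = s
    · obtain ⟨u, rfl⟩ := hs
      rw [hc1]
      refine le_trans ?_ htn'
      simpa [Int.norm_eq_abs] using norm_le_pi_norm t u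
    · rw [hc2 s (by simpa using hs), norm_zero]
      positivity

end Vale.Agent.P021
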