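import Vale.Agent.P021.Defs

/-! The derivations, the local coordinates and the substitution `psi`. -/

namespace Vale.Agent.P021

open MvPolynomial

variable {m : ℕ}

theorem derivation_sum_apply {A : Type*} [CommRing A] [Algebra ℂ A] {α : Type*} (s : Finset α)
    (d : α → Derivation ℂ A A) (f : A) : (∑ a ∈ s, d a) f = ∑ a ∈ s, d a f := by
  classical
  induction s using Finset.induction_on with
  | empty => simp
  | insert a s ha ih => simp [Finset.sum_insert ha, ih]

theorem dd_zero (κ : Fin m → ℂ) (f : PR m) :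
    dd κ 0 f = X 0 * pderiv 0 f + ∑ j : Fin m, C (κ j) * pderiv j.succ f := by
  simp [dd, derivation_sum_apply]

theorem dd_succ (κ : Fin m → ℂ) (j : Fin m) (f : PR m) : dd κ j.succ f = pderiv j.succ f := by
  simp [dd]

theorem mem_ptIdeal (c : Fin m → ℂ) (f : PR m) :
    f ∈ ptIdeal c ↔ eval (Fin.cons 1 c : Fin (m + 1) → ℂ) f = 0 := by
  simp [ptIdeal, RingHom.mem_ker]

theorem ptIdeal_isMaximal (c : Fin m → ℂ) : (ptIdeal c).IsMaximal := by
  refine RingHom.ker_isMaximal_of_surjective _ ?_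
  intro z
  exact ⟨C z, by simp⟩

theorem eval_ell (ρ : ℕ) (t : ℂ) : (ell ρ).eval t = Complex.logTaylor (ρ + 1) t := by
  simp only [ell, Complex.logTaylor, Polynomial.eval_finsetSum, Polynomial.eval_mul,
    Polynomial.eval_C, Polynomial.eval_pow, Polynomial.eval_X]
  refine Finset.sum_congr rfl fun i _ => ?_
  ring

theorem eval_aeval_poly {n : ℕ} (z : Fin n → ℂ) (a : MvPolynomial (Fin n) ℂ) (p : Polynomial ℂ) :
    eval z (Polynomial.aeval a p) = p.eval (eval z a) := by
  induction p using Polynomial.induction_on' with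
  | add p q hp hq => simp [hp, hq]
  | monomial n c => simp [Polynomial.aeval_monomial]

theorem eval_psi (ρ : Fin m → ℕ) (Q c : Fin m → ℂ) (P : PR m) (t : ℂ) (W : Fin m → ℂ) :
    eval (Fin.cons t W : Fin (m + 1) → ℂ) (psi ρ Q c P) =
      eval (Fin.cons (1 + t) (fun j => c j + Q j * Complex.logTaylor (ρ j + 1) t + W j) :
        Fin (m + 1) → ℂ) P := by
  induction P using MvPolynomial.induction_on with
  | C a => simp [psi]
  | add p q hp hq => simp only [map_add, hp, hq]
  | mul_X p i hp =>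
    simp only [map_mul, hp, eval_X]
    congr 1
    refine Fin.cases ?_ (fun j => ?_) i
    · simp [psi]
    · simp [psi, eval_aeval_poly, eval_ell]

theorem dd_zero_X_zero (κ : Fin m → ℂ) : dd κ 0 (X 0 : PR m) = X 0 := by
  rw [dd_zero]
  simp [pderiv_X, Fin.succ_ne_zero]

theorem dd_zero_X_succ (κ : Fin m → ℂ) (j : Fin m) : dd κ 0 (X j.succ : PR m) = C (κ j) := by
  rw [dd_zero]
  simp [pderiv_X, Pi.single_apply, Fin.succ_ne_zero]

theorem dd_succ_X_zero (κ : Fin m → ℂ) (j : Fin m) : dd κ j.succ (X 0 : PR m) = 0 := by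
  rw [dd_succ]
  simp [pderiv_X, (Fin.succ_ne_zero j).symm]

theorem dd_succ_X_succ (κ : Fin m → ℂ) (i j : Fin m) :
    dd κ i.succ (X j.succ : PR m) = if j = i then 1 else 0 := by
  rw [dd_succ]
  simp [pderiv_X, Pi.single_apply]

theorem dd_C (κ : Fin m → ℂ) (i : Fin (m + 1)) (a : ℂ) : dd κ i (C a : PR m) = 0 :=
  (dd κ i).map_algebraMap a

theorem t_mem_dfil (Q c : Fin m → ℂ) (ω : Fin (m + 1) → ℕ) :
    (X 0 - 1 : PR m) ∈ dfil (dd Q) ω (ptIdeal c) (ω 0) := by
  refine mem_dfil_of_deriv (by simp [mem_ptIdeal]) fun i => ?_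
  refine Fin.cases ?_ (fun j => ?_) i
  · simp [dfil_zero]
  · simp [dd_succ_X_zero]

theorem derivative_ell (ρ : ℕ) :
    (1 + Polynomial.X) * Polynomial.derivative (ell ρ) = 1 - (-Polynomial.X) ^ ρ := by
  induction ρ with
  | zero => simp [ell]
  | succ n ih =>
    have h : ell (n + 1) = ell n +
        Polynomial.C ((-1) ^ (n + 1 + 1) / ((n + 1 : ℕ) : ℂ)) * Polynomial.X ^ (n + 1) := by
      simp only [ell]
      rw [Finset.sum_range_succ]
    have hn : ((n + 1 : ℕ) : ℂ) ≠ 0 := Nat.cast_ne_zero.2 (Nat.succ_ne_zero n)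
    have h2 : Polynomial.derivative
        (Polynomial.C ((-1) ^ (n + 1 + 1) / ((n + 1 : ℕ) : ℂ)) * Polynomial.X ^ (n + 1)) =
        (-Polynomial.X) ^ n := by
      rw [Polynomial.derivative_C_mul_X_pow, div_mul_cancel₀ _ hn, neg_pow (Polynomial.X : Polynomial ℂ)]
      simp [pow_succ]
    rw [h, Polynomial.derivative_add, mul_add, ih, h2]
    ring

theorem ell_eval_zero (ρ : ℕ) : (ell ρ).eval 0 = 0 := by
  rw [eval_ell, Complex.logTaylor_at_zero]

theorem u_mem_dfil (Q c : Fin m → ℂ) (ω : Fin (m + 1) → ℕ) (j : Fin m) (ρ : ℕ)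
    (hρ : ω j.succ ≤ (ρ + 1) * ω 0) :
    (X j.succ - C (c j) - C (Q j) * Polynomial.aeval (X 0 - 1 : PR m) (ell ρ) : PR m) ∈
      dfil (dd Q) ω (ptIdeal c) (ω j.succ) := by
  refine mem_dfil_of_deriv (by simp [mem_ptIdeal, eval_aeval_poly, ell_eval_zero]) fun i => ?_
  refine Fin.cases ?_ (fun i => ?_) i
  · have h1 : dd Q 0 (X j.succ - C (c j) - C (Q j) * Polynomial.aeval (X 0 - 1 : PR m) (ell ρ)) =
        (C (Q j) * (-1) ^ ρ) * (X 0 - 1) ^ ρ := by
      have h2 := congrArg (Polynomial.aeval (X 0 - 1 : PR m)) (derivative_ell ρ)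
      simp only [map_mul, map_add, map_one, Polynomial.aeval_X, map_sub, map_pow, map_neg] at h2
      rw [map_sub, map_sub, dd_zero_X_succ, dd_C, Derivation.leibniz, dd_C,
        Derivation.comp_aeval_eq, map_sub, dd_zero_X_zero, Derivation.map_one_eq_zero]
      simp only [smul_eq_mul, mul_zero, add_zero, sub_zero]
      rw [neg_pow] at h2
      linear_combination (-C (Q j)) * h2
    rw [h1]
    refine Ideal.mul_mem_left _ _ (dfil_anti ?_ (pow_mem_dfil (t_mem_dfil Q c ω) ρ))
    rw [add_mul, one_mul] at hρ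
    omega
  · have h1 : dd Q i.succ
        (X j.succ - C (c j) - C (Q j) * Polynomial.aeval (X 0 - 1 : PR m) (ell ρ)) =
        if j = i then 1 else 0 := by
      rw [map_sub, map_sub, dd_succ_X_succ, dd_C, Derivation.leibniz, dd_C,
        Derivation.comp_aeval_eq, map_sub, dd_succ_X_zero, Derivation.map_one_eq_zero]
      simp
    rw [h1]
    split_ifs with h
    · subst h
      simp [dfil_zero]
    · exact Ideal.zero_mem _

theorem aeval_aeval_poly {n : ℕ} {B : Type*} [CommRing B] [Algebra ℂ B] (z : Fin n → B)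
    (a : MvPolynomial (Fin n) ℂ) (p : Polynomial ℂ) :
    aeval z (Polynomial.aeval a p) = Polynomial.aeval (aeval z a) p := by
  rw [← Polynomial.aeval_algHom_apply]

theorem link (ρ : Fin m → ℕ) (Q c : Fin m → ℂ) (ω : Fin (m + 1) → ℕ)
    (hρ : ∀ j : Fin m, ω j.succ ≤ (ρ j + 1) * ω 0) (P : PR m) (V : ℕ)
    (h : OrdGe ω V (psi ρ Q c P)) : P ∈ dfil (dd Q) ω (ptIdeal c) V := by
  set u : Fin (m + 1) → PR m := Fin.cons (X 0 - 1) fun j =>
    X j.succ - C (c j) - C (Q j) * Polynomial.aeval (X 0 - 1 : PR m) (ell (ρ j)) with hu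
  have hinv : ∀ f : PR m, aeval u (psi ρ Q c f) = f := by
    intro f
    have : (aeval u).comp (psi ρ Q c) = AlgHom.id ℂ (PR m) := by
      refine MvPolynomial.algHom_ext fun i => ?_
      refine Fin.cases ?_ (fun j => ?_) i
      · simp [psi, hu]
      · have h0 : u 0 = X 0 - 1 := by simp [hu]
        have h1 : u j.succ = X j.succ - C (c j) -
            C (Q j) * Polynomial.aeval (X 0 - 1 : PR m) (ell (ρ j)) := by simp [hu]
        simp only [psi, AlgHom.comp_apply, aeval_X, Fin.cons_succ, map_add, map_mul,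
          aeval_aeval_poly, aeval_C, algebraMap_eq, h0, h1, AlgHom.id_apply]
        ring
    exact DFunLike.congr_fun this f
  have hum : ∀ i, u i ∈ dfil (dd Q) ω (ptIdeal c) (ω i) := by
    intro i
    refine Fin.cases ?_ (fun j => ?_) i
    · simpa [hu] using t_mem_dfil Q c ω
    · simpa [hu] using u_mem_dfil Q c ω j (ρ j) (hρ j)
  rw [← hinv P, aeval_def, eval₂_eq']
  refine Ideal.sum_mem _ fun s hs => Ideal.mul_mem_left _ _ ?_
  refine dfil_anti (h s hs) ?_
  refine prod_mem_dfil _ _ _ fun i _ => ?_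
  rw [mul_comm]
  exact pow_mem_dfil (hum i) _

end Vale.Agent.P021
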