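import Vale.Agent.P021.Count

/-! Lower bound for the corank of the differential filtration. -/

namespace Vale.Agent.P021

section

variable {A : Type} [CommRing A] [Algebra ℂ A] {ι : Type} [Fintype ι]

/-- the product `∏ f j ^ γ j` -/
def monF (f : ι → A) (γ : ι →₀ ℕ) : A := ∏ j, f j ^ γ j

lemma deriv_prod (D : Derivation ℂ A A) {α : Type*} [DecidableEq α] (s : Finset α) (g : α → A) :
    D (∏ a ∈ s, g a) = ∑ a ∈ s, D (g a) * ∏ b ∈ s.erase a, g b := by
  induction s using Finset.induction_on with
  | empty => simp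
  | insert a s ha ih =>
    rw [Finset.prod_insert ha, Finset.sum_insert ha, Derivation.leibniz, ih,
      Finset.erase_insert ha, smul_eq_mul, smul_eq_mul, Finset.mul_sum, add_comm, mul_comm]
    congr 1
    refine Finset.sum_congr rfl fun b hb => ?_
    have hab : a ≠ b := fun h => ha (h ▸ hb)
    rw [Finset.erase_insert_of_ne hab, Finset.prod_insert (fun h => ha (Finset.mem_of_mem_erase h))]
    ring

lemma deriv_monF (D : Derivation ℂ A A) (f : ι → A) (γ : ι →₀ ℕ) :
    D (monF f γ) = ∑ j, ((γ j : A) * D (f j)) * monF f (γ - Finsupp.single j 1) := by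
  classical
  unfold monF
  rw [deriv_prod]
  refine Finset.sum_congr rfl fun j _ => ?_
  rw [Derivation.leibniz_pow, ← Finset.mul_prod_erase Finset.univ _ (Finset.mem_univ j)]
  have : ∏ x ∈ Finset.univ.erase j, f x ^ (γ - Finsupp.single j 1 : ι →₀ ℕ) x =
      ∏ x ∈ Finset.univ.erase j, f x ^ γ x := by
    refine Finset.prod_congr rfl fun x hx => ?_
    have := Finset.ne_of_mem_erase hx
    simp [this.symm]
  rw [this]
  simp
  ring

/-- the exponent vector recording how often each index occurs in a word -/
noncomputable def content (w : List ι) : ι →₀ ℕ := (w.map fun i => Finsupp.single i 1).sum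

omit [Fintype ι] in
@[simp] lemma content_nil : content ([] : List ι) = 0 := rfl

omit [Fintype ι] in
@[simp] lemma content_cons (i : ι) (w : List ι) :
    content (i :: w) = Finsupp.single i 1 + content w := by
  simp [content]

omit [Fintype ι] in
lemma exists_content (γ : ι →₀ ℕ) : ∃ w : List ι, content w = γ := by
  induction γ using Finsupp.induction_linear with
  | zero => exact ⟨[], rfl⟩
  | add f g hf hg =>
    obtain ⟨a, rfl⟩ := hf
    obtain ⟨b, rfl⟩ := hg
    exact ⟨a ++ b, by simp [content]⟩
  | single a n =>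
    exact ⟨List.replicate n a, by simp [content]⟩

omit [Fintype ι] in
lemma weight_content (ω : ι → ℕ) (w : List ι) : Finsupp.weight ω (content w) = wt ω w := by
  induction w with
  | nil => simp
  | cons i w ih => simp [ih, Finsupp.weight_single]

omit [Fintype ι] in
lemma degree_content (w : List ι) : (content w).degree = w.length := by
  induction w with
  | nil => simp
  | cons i w ih => simp [ih, add_comm]

omit [Fintype ι] in
lemma degree_sub_single (γ : ι →₀ ℕ) (j : ι) (h : γ j ≠ 0) :
    (γ - Finsupp.single j 1).degree + 1 = γ.degree := by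
  have h1 : γ - Finsupp.single j 1 + Finsupp.single j 1 = γ := by
    refine tsub_add_cancel_of_le ?_
    rw [Finsupp.single_le_iff]
    omega
  conv_rhs => rw [← h1]
  simp

lemma word_monF (d : ι → Derivation ℂ A A) (q : Ideal A) (hq : q.IsPrime)
    (f : ι → A) (hf : ∀ j, f j ∈ q) (hoff : ∀ i j, i ≠ j → d i (f j) ∈ q)
    (hdiag : ∀ j, d j (f j) ∉ q) (w : List ι) :
    ∀ (c : A) (γ : ι →₀ ℕ), w.length ≤ γ.degree →
      ((γ ≠ content w ∨ c ∈ q → word d w (c * monF f γ) ∈ q) ∧
       (γ = content w → c ∉ q → word d w (c * monF f γ) ∉ q)) := by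
  classical
  induction w with
  | nil =>
    intro c γ _
    refine ⟨?_, ?_⟩
    · rintro (h | h)
      · obtain ⟨j, hj⟩ : ∃ j, γ j ≠ 0 := by
          by_contra hcon
          push Not at hcon
          exact h (Finsupp.ext hcon)
        refine q.mul_mem_left _ ?_
        unfold monF
        rw [← Finset.mul_prod_erase Finset.univ _ (Finset.mem_univ j)]
        exact q.mul_mem_right _ (q.pow_mem_of_mem (hf j) _ (Nat.pos_of_ne_zero hj))
      · exact q.mul_mem_right _ h
    · intro h hc
      subst h
      simpa [monF] using hc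
  | cons i w ih =>
    intro c γ hlen
    rw [List.length_cons] at hlen
    have hexp : word d (i :: w) (c * monF f γ) = word d w (d i c * monF f γ) +
        ∑ j, word d w ((c * ((γ j : A) * d i (f j))) * monF f (γ - Finsupp.single j 1)) := by
      rw [word_cons, Derivation.leibniz, deriv_monF, ← word_sum, ← word_add]
      congr 1
      simp only [smul_eq_mul, Finset.mul_sum]
      rw [add_comm, mul_comm]
      congr 1
      exact Finset.sum_congr rfl fun j _ => by ring
    have h1 : word d w (d i c * monF f γ) ∈ q := by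
      refine (ih _ _ (by omega)).1 (Or.inl fun h => ?_)
      have := degree_content w
      rw [← h] at this
      omega
    have h2 : ∀ j, (j ≠ i ∨ c ∈ q ∨ γ ≠ content (i :: w)) →
        word d w ((c * ((γ j : A) * d i (f j))) * monF f (γ - Finsupp.single j 1)) ∈ q := by
      intro j hj
      by_cases h0 : γ j = 0
      · simp [h0]
      have hdeg := degree_sub_single γ j h0
      refine (ih _ _ (by omega)).1 ?_
      rcases hj with hj | hj | hj
      · exact Or.inr (q.mul_mem_left _ (q.mul_mem_left _ (hoff i j hj.symm)))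
      · exact Or.inr (q.mul_mem_right _ hj)
      · by_cases hji : j = i
        · subst hji
          refine Or.inl fun h => hj ?_
          rw [content_cons, ← h, add_comm]
          refine (tsub_add_cancel_of_le ?_).symm
          rw [Finsupp.single_le_iff]
          omega
        · exact Or.inr (q.mul_mem_left _ (q.mul_mem_left _ (hoff i j (Ne.symm hji))))
    rw [hexp]
    refine ⟨fun h => q.add_mem h1 (q.sum_mem fun j _ => h2 j (Or.inr h.symm)), ?_⟩
    intro hγ hc hmem
    have h3 := (q.add_mem_iff_right h1).1 hmem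
    rw [← Finset.add_sum_erase Finset.univ _ (Finset.mem_univ i)] at h3
    have h4 := (q.add_mem_iff_left (q.sum_mem fun j hj =>
      h2 j (Or.inl (Finset.ne_of_mem_erase hj)))).1 h3
    have h0 : γ i ≠ 0 := by simp [hγ]
    have hdeg := degree_sub_single γ i h0
    refine (ih _ _ (by omega)).2 (by simp [hγ]) ?_ h4
    intro hm
    rcases hq.mem_or_mem hm with h5 | h5
    · exact hc h5
    rcases hq.mem_or_mem h5 with h6 | h6
    · have hu : IsUnit ((γ i : ℕ) : A) := by
        have : IsUnit ((γ i : ℕ) : ℂ) := IsUnit.mk0 _ (Nat.cast_ne_zero.2 h0)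
        simpa using this.map (algebraMap ℂ A)
      exact hq.ne_top (q.eq_top_of_isUnit_mem h6 hu)
    · exact hdiag i h6

end

theorem transversal {R A : Type} [CommRing R] [IsDomain R] [CommRing A] [Algebra ℂ A] [Algebra R A]
    {ι : Type} [Fintype ι] (d : ι → Derivation ℂ A A) (ω : ι → ℕ) (hω : ∀ i, 0 < ω i)
    (q : Ideal A) (hq : q.IsPrime) (hR : ∀ ρ : R, algebraMap R A ρ ∈ q → ρ = 0)
    (f : ι → A) (hf : ∀ j, f j ∈ q) (hoff : ∀ i j, i ≠ j → d i (f j) ∈ q)
    (hdiag : ∀ j, d j (f j) ∉ q) (σ : ℕ) :
    (cntLt ω σ : Cardinal) ≤ Module.rank R (A ⧸ dfil d ω q σ) := by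
  classical
  have hfin := finite_wt_lt ω hω σ
  set S := {α : ι →₀ ℕ | Finsupp.weight ω α < σ} with hS
  have hli : LinearIndependent R
      (fun γ : S => Ideal.Quotient.mk (dfil d ω q σ) (monF f γ.1)) := by
    rw [linearIndependent_iff']
    intro s g hsum
    by_contra hcon
    push Not at hcon
    obtain ⟨γ1, hγ1, hg1⟩ := hcon
    obtain ⟨γ0, hγ0, hmin⟩ := (s.filter fun γ => g γ ≠ 0).exists_min_image
      (fun γ => γ.1.degree) ⟨γ1, by simp [hγ1, hg1]⟩
    rw [Finset.mem_filter] at hγ0
    obtain ⟨w, hw⟩ := exists_content γ0.1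
    have hmem : ∑ γ ∈ s, algebraMap R A (g γ) * monF f γ.1 ∈ dfil d ω q σ := by
      rw [← Ideal.Quotient.eq_zero_iff_mem, map_sum, ← hsum]
      refine Finset.sum_congr rfl fun γ _ => ?_
      rw [← Algebra.smul_def]
      rfl
    have hwt : wt ω w < σ := by
      rw [← weight_content, hw]
      exact γ0.2
    have h1 := hmem w hwt
    rw [word_sum, ← Finset.add_sum_erase s _ hγ0.1] at h1
    have hlen : w.length = γ0.1.degree := by rw [← hw, degree_content]
    have h2 : ∑ γ ∈ s.erase γ0, word d w (algebraMap R A (g γ) * monF f γ.1) ∈ q := by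
      refine q.sum_mem fun γ hγ => ?_
      by_cases hg : g γ = 0
      · simp [hg]
      have h3 := hmin γ (by simp [Finset.mem_of_mem_erase hγ, hg])
      refine (word_monF d q hq f hf hoff hdiag w _ _ (by omega)).1 (Or.inl fun h => ?_)
      exact Finset.ne_of_mem_erase hγ (Subtype.ext (h.trans hw))
    have h3 := (q.add_mem_iff_left h2).1 h1
    exact (word_monF d q hq f hf hoff hdiag w _ _ (by omega)).2 hw.symm
      (fun h => hγ0.2 (hR _ h)) h3
  have h := hli.cardinal_le_rank
  rwa [cntLt, ← hS, Set.cast_ncard hfin]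

end Vale.Agent.P021
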