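import Vale.Agent.P021.LemmaK
import Vale.Agent.P021.Transversal
import Vale.Agent.P021.Link

/-! A Bezout type multiplicity bound obtained from `lemmaK`. -/

namespace Vale.Agent.P021

open MvPolynomial Nat

theorem rank_lt_aleph0_of_algebraic {R B : Type} [CommRing R] [IsDomain R] [CommRing B]
    [Algebra R B] {σ : Type} [Finite σ] (x : σ → B) (hx : Algebra.adjoin R (Set.range x) = ⊤)
    (halg : ∀ i, IsAlgebraic R (x i)) : Module.rank R B < Cardinal.aleph0 := by
  classical
  have := Fintype.ofFinite σ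
  choose r hr hint using fun i => (halg i).exists_integral_multiple
  set M : Subalgebra R B := Algebra.adjoin R (Set.range fun i => r i • x i) with hM
  have hfg : (Subalgebra.toSubmodule M).FG :=
    fg_adjoin_of_finite (Set.finite_range _) (by rintro _ ⟨i, rfl⟩; exact hint i)
  have htors : ∀ b : B, ∃ a : R, a ≠ 0 ∧ a • b ∈ M := by
    intro b
    have hb : b ∈ Algebra.adjoin R (Set.range x) := hx ▸ Algebra.mem_top
    induction hb using Algebra.adjoin_induction with
    | mem y hy =>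
      obtain ⟨i, rfl⟩ := hy
      exact ⟨r i, hr i, Algebra.subset_adjoin ⟨i, rfl⟩⟩
    | algebraMap a => exact ⟨1, one_ne_zero, by simp⟩
    | add y z _ _ hy hz =>
      obtain ⟨a, ha, hay⟩ := hy
      obtain ⟨b, hb, hbz⟩ := hz
      refine ⟨a * b, mul_ne_zero ha hb, ?_⟩
      rw [smul_add]
      refine M.add_mem ?_ ?_
      · rw [mul_comm, mul_smul]; exact M.smul_mem hay _
      · rw [mul_smul]; exact M.smul_mem hbz _
    | mul y z _ _ hy hz =>
      obtain ⟨a, ha, hay⟩ := hy
      obtain ⟨b, hb, hbz⟩ := hz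
      refine ⟨a * b, mul_ne_zero ha hb, ?_⟩
      have := M.mul_mem hay hbz
      rwa [smul_mul_smul_comm] at this
  have h0 : Module.rank R (B ⧸ Subalgebra.toSubmodule M) = 0 := by
    rw [rank_eq_zero_iff]
    intro y
    obtain ⟨b, rfl⟩ := Submodule.Quotient.mk_surjective _ y
    obtain ⟨a, ha, hab⟩ := htors b
    refine ⟨a, ha, ?_⟩
    rw [← Submodule.Quotient.mk_smul, Submodule.Quotient.mk_eq_zero]
    exact hab
  have h1 := Submodule.rank_quotient_add_rank (Subalgebra.toSubmodule M)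
  rw [h0, zero_add] at h1
  rw [← h1]
  have : Module.Finite R (Subalgebra.toSubmodule M) := Module.Finite.iff_fg.2 hfg
  exact Module.rank_lt_aleph0 _ _

variable {n : ℕ}

lemma mem_supported_iff {S : Set (Fin n)} {g : MvPolynomial (Fin n) ℂ} :
    g ∈ supported ℂ S ↔ ∀ s ∈ g.support, ∀ i, s i ≠ 0 → i ∈ S := by
  rw [mem_supported]
  constructor
  · intro h s hs i hi
    exact h (Finset.mem_coe.2 ((mem_vars_iff_mem_support i).2 ⟨s, hs, Finsupp.mem_support_iff.2 hi⟩))
  · intro h i hi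
    obtain ⟨s, hs, hi'⟩ := (mem_vars_iff_mem_support i).1 (Finset.mem_coe.1 hi)
    exact h s hs i (Finsupp.mem_support_iff.1 hi')

/-- the coordinates with index in `S` are algebraically independent modulo `q` -/
def Indep (q : Ideal (MvPolynomial (Fin n) ℂ)) (S : Set (Fin n)) : Prop :=
  ∀ f ∈ q, f ∈ supported ℂ S → f = 0

lemma Indep.mono {q : Ideal (MvPolynomial (Fin n) ℂ)} {S S' : Set (Fin n)} (h : Indep q S')
    (hS : S ⊆ S') : Indep q S := fun f hf hf' => h f hf (supported_mono hS hf')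

lemma isAlgebraic_X {q : Ideal (MvPolynomial (Fin n) ℂ)} {I : Set (Fin n)}
    (hmax : ∀ i, i ∉ I → ¬ Indep q (insert i I)) (i : Fin n) :
    IsAlgebraic (supported ℂ I) (Ideal.Quotient.mk q (X i)) := by
  by_cases hi : i ∈ I
  · exact isAlgebraic_algebraMap (R := supported ℂ I) (A := MvPolynomial (Fin n) ℂ ⧸ q)
      ⟨X i, X_mem_supported.2 hi⟩
  have h := hmax i hi
  unfold Indep at h
  push Not at h
  obtain ⟨g, hgq, hgs, hg0⟩ := h
  have hmem : g ∈ Algebra.adjoin (supported ℂ I) {(X i : MvPolynomial (Fin n) ℂ)} := by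
    rw [supported_eq_adjoin_X] at hgs
    clear hgq hg0
    induction hgs using Algebra.adjoin_induction with
    | mem y hy =>
      obtain ⟨j, hj, rfl⟩ := hy
      rcases hj with rfl | hj
      · exact Algebra.subset_adjoin rfl
      · exact Subalgebra.algebraMap_mem _ (⟨X j, X_mem_supported.2 hj⟩ : supported ℂ I)
    | algebraMap a =>
      exact Subalgebra.algebraMap_mem _ (algebraMap ℂ (supported ℂ I) a)
    | add y z _ _ hy hz => exact Subalgebra.add_mem _ hy hz
    | mul y z _ _ hy hz => exact Subalgebra.mul_mem _ hy hz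
  rw [Algebra.adjoin_singleton_eq_range_aeval] at hmem
  obtain ⟨p, hp⟩ := hmem
  refine ⟨p, ?_, ?_⟩
  · rintro rfl
    exact hg0 (by simpa using hp.symm)
  · have : Polynomial.aeval (Ideal.Quotient.mkₐ (supported ℂ I) q (X i)) p =
        Ideal.Quotient.mkₐ (supported ℂ I) q (Polynomial.aeval (X i) p) :=
      Polynomial.aeval_algHom_apply _ _ _
    rw [Ideal.Quotient.mkₐ_eq_mk] at this
    rw [this, Ideal.Quotient.eq_zero_iff_mem]
    have hp' : Polynomial.aeval (X i) p = g := hp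
    rwa [hp']

lemma adjoin_X_quot (q : Ideal (MvPolynomial (Fin n) ℂ)) (I : Set (Fin n)) :
    Algebra.adjoin (supported ℂ I) (Set.range fun i => Ideal.Quotient.mk q (X i)) = ⊤ := by
  rw [eq_top_iff]
  rintro y -
  obtain ⟨f, rfl⟩ := Ideal.Quotient.mk_surjective y
  induction f using MvPolynomial.induction_on with
  | C a => exact Subalgebra.algebraMap_mem _ (algebraMap ℂ (supported ℂ I) a)
  | add p q hp hq => rw [map_add]; exact Subalgebra.add_mem _ hp hq
  | mul_X p i hp =>
    rw [map_mul]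
    exact Subalgebra.mul_mem _ hp (Algebra.subset_adjoin ⟨i, rfl⟩)

lemma isAlgebraic_quot {q : Ideal (MvPolynomial (Fin n) ℂ)} {I : Set (Fin n)}
    (hmax : ∀ i, i ∉ I → ¬ Indep q (insert i I)) (f : MvPolynomial (Fin n) ℂ) :
    IsAlgebraic (supported ℂ I) (Ideal.Quotient.mk q f) := by
  induction f using MvPolynomial.induction_on with
  | C a =>
    exact isAlgebraic_algebraMap (R := supported ℂ I) (A := MvPolynomial (Fin n) ℂ ⧸ q)
      (algebraMap ℂ (supported ℂ I) a)
  | add p q hp hq => rw [map_add]; exact hp.add hq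
  | mul_X p i hp => rw [map_mul]; exact hp.mul (isAlgebraic_X hmax i)

/-- polynomials with degree at most `k * T i` in the variables outside `I` -/
def boxF (I : Set (Fin n)) (T : Fin n → ℕ) (k : ℕ) :
    Submodule (supported ℂ I) (MvPolynomial (Fin n) ℂ) where
  carrier := {f | ∀ i, i ∉ I → degreeOf i f ≤ k * T i}
  add_mem' := fun {f g} hf hg i hi =>
    (degreeOf_add_le i f g).trans (max_le (hf i hi) (hg i hi))
  zero_mem' := fun i _ => by simp
  smul_mem' := fun ρ f hf i hi => by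
    have h0 : degreeOf i (ρ : MvPolynomial (Fin n) ℂ) = 0 := by
      by_contra h
      exact hi (mem_supported.1 ρ.2 (Finset.mem_coe.2 (mem_vars_iff_degreeOf_ne_zero.2 h)))
    have h1 := degreeOf_mul_le i (ρ : MvPolynomial (Fin n) ℂ) f
    rw [h0, zero_add] at h1
    exact h1.trans (hf i hi)

noncomputable instance boxFModule (I : Set (Fin n)) (T : Fin n → ℕ) (k : ℕ) :
    Module (supported ℂ I) (boxF I T k) := Submodule.module _

lemma rank_boxF_le (I : Set (Fin n)) [Fintype {i // i ∉ I}] (T : Fin n → ℕ) (k : ℕ) :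
    Module.rank (supported ℂ I) (boxF I T k) ≤ ((∏ i : {i // i ∉ I}, (k * T i + 1) : ℕ) : Cardinal) := by
  classical
  let v : (∀ i : {i // i ∉ I}, Fin (k * T i + 1)) → MvPolynomial (Fin n) ℂ :=
    fun a => ∏ i : {i // i ∉ I}, X i.1 ^ (a i : ℕ)
  have hle : boxF I T k ≤ Submodule.span (supported ℂ I) (Set.range v) := by
    intro f hf
    rw [f.as_sum]
    refine Submodule.sum_mem _ fun s hs => ?_
    have hsi : ∀ i : {i // i ∉ I}, s i.1 < k * T i + 1 := fun i =>
      Nat.lt_succ_of_le ((monomial_le_degreeOf i.1 hs).trans (hf i.1 i.2))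
    have hρ : (C (coeff s f) * ∏ i : {i // i ∈ I}, X i.1 ^ s i.1 : MvPolynomial (Fin n) ℂ) ∈
        supported ℂ I := by
      refine Subalgebra.mul_mem _ (Subalgebra.algebraMap_mem _ _) ?_
      exact Subalgebra.prod_mem _ fun i _ => Subalgebra.pow_mem _ (X_mem_supported.2 i.2) _
    have : monomial s (coeff s f) = (⟨_, hρ⟩ : supported ℂ I) • v (fun i => ⟨s i.1, hsi i⟩) := by
      rw [monomial_eq, Finsupp.prod_fintype _ _ (by simp),
        ← Fintype.prod_subtype_mul_prod_subtype (fun i => i ∈ I), ← mul_assoc]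
      simp only [v, Subalgebra.smul_def, smul_eq_mul]
      refine congrArg₂ (· * ·) (congrArg _ ?_) ?_
      · exact Finset.prod_congr (Finset.ext fun x => by simp) fun _ _ => rfl
      · exact Finset.prod_congr (Finset.ext fun x => by simp) fun _ _ => rfl
    rw [this]
    exact Submodule.smul_mem _ _ (Submodule.subset_span ⟨_, rfl⟩)
  refine (Submodule.rank_mono hle).trans ((rank_span_le _).trans (Cardinal.mk_range_le.trans ?_))
  simp

lemma dfil_le_comp {A : Type*} [CommRing A] [Algebra ℂ A] {ι ι' : Type*}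
    (d : ι → Derivation ℂ A A) (ω : ι → ℕ) (q : Ideal A) (e : ι' → ι) (σ : ℕ) :
    dfil d ω q σ ≤ dfil (d ∘ e) (ω ∘ e) q σ := by
  intro f hf w hw
  have h1 : ∀ (w : List ι') (f : A), word (d ∘ e) w f = word d (w.map e) f := by
    intro w
    induction w with
    | nil => intro f; rfl
    | cons j w ih => intro f; simp [ih]
  have h2 : wt (ω ∘ e) w = wt ω (w.map e) := by simp [wt]
  rw [h1]
  exact hf _ (h2 ▸ hw)

theorem bezout (d : Fin n → Derivation ℂ (MvPolynomial (Fin n) ℂ) (MvPolynomial (Fin n) ℂ))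
    (ω : Fin n → ℕ) (hω : ∀ i, 0 < ω i) (q : Ideal (MvPolynomial (Fin n) ℂ)) (hq : q.IsPrime)
    (I : Set (Fin n)) [Fintype {i // i ∉ I}] (hI : Indep q I)
    (hmax : ∀ i, i ∉ I → ¬ Indep q (insert i I))
    (T : Fin n → ℕ) (hT : ∀ i, 0 < T i) (E : ℕ) (hE : 0 < E) (G : Set (MvPolynomial (Fin n) ℂ))
    (hGdeg : ∀ g ∈ G, ∀ i, degreeOf i g ≤ T i) (hGvan : ∀ g ∈ G, g ∈ dfil d ω q E)
    (hmin : ∀ p : Ideal (MvPolynomial (Fin n) ℂ), p.IsPrime → p < q → ∃ g ∈ G, g ∉ p)
    (e : {i // i ∉ I} → Fin n) (f : {i // i ∉ I} → MvPolynomial (Fin n) ℂ) (hf : ∀ j, f j ∈ q)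
    (hoff : ∀ i j, i ≠ j → d (e i) (f j) ∈ q) (hdiag : ∀ j, d (e j) (f j) ∉ q) :
    E ^ Fintype.card {i // i ∉ I} ≤
      (Fintype.card {i // i ∉ I})! * (∏ j, ω (e j)) * ∏ i : {i // i ∉ I}, T i := by
  have hωe : ∀ i, 0 < (ω ∘ e) i := fun i => hω _
  have hR : ∀ ρ : supported ℂ I, algebraMap (supported ℂ I) (MvPolynomial (Fin n) ℂ) ρ ∈ q →
      ρ = 0 := fun ρ h => Subtype.ext (hI _ h ρ.2)
  obtain ⟨c, hc⟩ := lemmaK (R := supported ℂ I) (boxF I T)
    (fun k => dfil (d ∘ e) (ω ∘ e) q (k * E))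
    (fun a b hab g hg i hi => (hg i hi).trans (Nat.mul_le_mul_right _ hab))
    (fun a b g h hg hh i hi => (degreeOf_mul_le i g h).trans
      (by rw [add_mul]; exact Nat.add_le_add (hg i hi) (hh i hi)))
    (fun g => ⟨g.totalDegree, fun i _ => (degreeOf_le_totalDegree g i).trans
      (Nat.le_mul_of_pos_right _ (hT i))⟩)
    (by simp [dfil_zero])
    (fun a b hab => dfil_anti (Nat.mul_le_mul_right _ hab))
    (fun a b g h hg hh => by rw [add_mul]; exact mul_mem_dfil hg hh)
    (by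
      intro p hp
      by_cases hpq : p ≤ q
      · rcases hpq.eq_or_lt with rfl | hlt
        · exact Or.inr (Or.inl (rank_lt_aleph0_of_algebraic _ (adjoin_X_quot p I)
            (isAlgebraic_X hmax)))
        · obtain ⟨g, hg, hgp⟩ := hmin p hp hlt
          refine Or.inr (Or.inr ⟨1, one_pos, g, fun i _ => by simpa using hGdeg g hg i, ?_, hgp⟩)
          refine Ideal.mem_sup_left ?_
          simpa using dfil_le_comp d ω q e E (hGvan g hg)
      · left
        intro k
        obtain ⟨a, hap, haq⟩ := SetLike.not_le_iff_exists.1 hpq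
        have hne : Ideal.Quotient.mk q a ≠ 0 := fun h => haq (Ideal.Quotient.eq_zero_iff_mem.1 h)
        obtain ⟨ρ, hρ, b, hb⟩ := (isAlgebraic_quot hmax a).exists_nonzero_dvd
          (mem_nonZeroDivisors_of_ne_zero hne)
        obtain ⟨b, rfl⟩ := Ideal.Quotient.mk_surjective b
        have h1 : (ρ : MvPolynomial (Fin n) ℂ) - a * b ∈ q := by
          rw [← Ideal.Quotient.eq, map_mul, ← hb]
          rfl
        refine ⟨ρ ^ (k * E), pow_ne_zero _ hρ, ?_⟩
        have h2 := pow_mem_dfil_of_mem (d := d ∘ e) hωe h1 (k * E)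
        have h3 : (ρ : MvPolynomial (Fin n) ℂ) ^ (k * E) - (ρ - a * b) ^ (k * E) ∈ p := by
          obtain ⟨t, ht⟩ := sub_dvd_pow_sub_pow (ρ : MvPolynomial (Fin n) ℂ) (ρ - a * b) (k * E)
          rw [ht, sub_sub_cancel]
          exact p.mul_mem_right _ (p.mul_mem_right _ hap)
        have h4 := Ideal.add_mem _ (Ideal.mem_sup_left (T := dfil (d ∘ e) (ω ∘ e) q (k * E)) h3)
          (Ideal.mem_sup_right (S := p) h2)
        rw [sub_add_cancel] at h4
        simpa using h4)
  refine asym _ _ (Fintype.card {i // i ∉ I}) (c + 1) fun k hk => ?_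
  have h1 := (transversal (d ∘ e) (ω ∘ e) hωe q hq hR f hf hoff hdiag (k * E)).trans
    ((hc k).trans (rank_boxF_le I T (k + c)))
  have h2 : cntLt (ω ∘ e) (k * E) ≤ ∏ i : {i // i ∉ I}, ((k + c) * T i + 1) := by
    exact_mod_cast h1
  have h3 := cnt_lower (ω ∘ e) hωe (k * E) (Nat.mul_pos hk hE)
  have h4 : ∏ i : {i // i ∉ I}, ((k + c) * T i + 1) ≤
      (∏ i : {i // i ∉ I}, T i) * (k + (c + 1)) ^ Fintype.card {i // i ∉ I} := by
    rw [← Finset.card_univ, ← Finset.prod_const, ← Finset.prod_mul_distrib]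
    refine Finset.prod_le_prod' fun i _ => ?_
    have := hT i
    nlinarith
  rw [← mul_pow, mul_comm E k]
  refine h3.trans ?_
  rw [mul_assoc _ (∏ i : {i // i ∉ I}, T i)]
  exact Nat.mul_le_mul_left _ (h2.trans h4)

end Vale.Agent.P021
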