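import Vale.Agent.P021.Link

/-! The Schwarz lemma step. -/

namespace Vale.Agent.P021

open MvPolynomial

open Asymptotics Filter Topology in
theorem isBigO_pow_of_le {a b : ℕ} (h : a ≤ b) :
    (fun τ : ℂ => τ ^ b) =O[𝓝 0] fun τ => τ ^ a := by
  refine IsBigO.of_bound 1 ?_
  filter_upwards [Metric.closedBall_mem_nhds (0 : ℂ) one_pos] with τ hτ
  rw [one_mul, norm_pow, norm_pow]
  exact pow_le_pow_of_le_one (norm_nonneg _) (by simpa using hτ) h

open Asymptotics Filter Topology in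
theorem eval_isBigO {m : ℕ} (ω : Fin (m + 1) → ℕ) (σ : ℕ) (G : PR m) (h : OrdGe ω σ G)
    (x : ℂ → Fin (m + 1) → ℂ) (hx : ∀ i, (fun τ => x τ i) =O[𝓝 0] fun τ : ℂ => τ ^ ω i) :
    (fun τ => eval (x τ) G) =O[𝓝 0] fun τ : ℂ => τ ^ σ := by
  simp only [eval_eq']
  refine IsBigO.fun_sum fun s hs => IsBigO.const_mul_left ?_ _
  refine IsBigO.trans ?_ (isBigO_pow_of_le (h s hs))
  have := IsBigO.finsetProd (s := Finset.univ) fun i _ => (hx i).pow (s i)
  refine this.congr_right fun τ => ?_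
  simp only [← pow_mul, Finset.prod_pow_eq_pow_sum]

open Asymptotics Filter Topology in
theorem schwarz_step {m : ℕ} (ρ : Fin m → ℕ) (Q : Fin m → ℂ) (ω : Fin (m + 1) → ℕ)
    (hω : ∀ i, 0 < ω i) (hρ : ∀ j : Fin m, ω j.succ ≤ (ρ j + 1) * ω 0)
    (P : PR m) (σ : ℕ) (h : OrdGe ω σ (psi ρ Q 0 P)) (T R0 K M : ℝ) (hT : 1 < T)
    (hM : ∀ (z : ℂ) (w : Fin m → ℂ), ‖z‖ ≤ R0 * T ^ ω 0 → (∀ j, ‖w j‖ ≤ K) →
      ‖eval (Fin.cons (Complex.exp z) (fun j => Q j * (z + w j)) : Fin (m + 1) → ℂ) P‖ ≤ M)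
    (z : ℂ) (w : Fin m → ℂ) (hz : ‖z‖ ≤ R0) (hw : ∀ j : Fin m, ‖w j‖ * T ^ ω j.succ ≤ K) :
    ‖eval (Fin.cons (Complex.exp z) (fun j => Q j * (z + w j)) : Fin (m + 1) → ℂ) P‖ ≤
      M / T ^ σ := by
  let f : ℂ → ℂ := fun τ => eval (Fin.cons (Complex.exp (τ ^ ω 0 * z))
    (fun j => Q j * (τ ^ ω 0 * z + τ ^ ω j.succ * w j)) : Fin (m + 1) → ℂ) P
  have hT0 : 0 < T := by linarith
  have hf1 : f 1 = eval (Fin.cons (Complex.exp z) (fun j => Q j * (z + w j)) :
      Fin (m + 1) → ℂ) P := by simp [f]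
  have hb : ∀ τ ∈ Metric.ball (0 : ℂ) T, ‖f τ‖ ≤ M := by
    intro τ hτ
    have hτ' : ‖τ‖ ≤ T := le_of_lt (by simpa using hτ)
    refine hM _ _ ?_ fun j => ?_
    · rw [norm_mul, norm_pow, mul_comm]
      gcongr
      exact (norm_nonneg _).trans hz
    · rw [norm_mul, norm_pow, mul_comm]
      refine le_trans ?_ (hw j)
      gcongr
  have h1T : (1 : ℂ) ∈ Metric.ball (0 : ℂ) T := by simpa using hT
  rw [← hf1]
  rcases σ with _ | n
  · simpa using hb 1 h1T
  have hd : Differentiable ℂ f := by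
    simp only [f, eval_eq']
    refine Differentiable.fun_sum fun s _ => Differentiable.const_mul ?_ _
    refine Differentiable.fun_finsetProd fun i _ => Differentiable.pow ?_ _
    refine Fin.cases ?_ (fun j => ?_) i
    · simp only [Fin.cons_zero]; fun_prop
    · simp only [Fin.cons_succ]; fun_prop
  have hζ : Tendsto (fun τ : ℂ => τ ^ ω 0 * z) (𝓝 0) (𝓝 0) := by
    have : Continuous fun τ : ℂ => τ ^ ω 0 * z := by fun_prop
    simpa [(hω 0).ne'] using this.tendsto 0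
  have hζO : (fun τ : ℂ => τ ^ ω 0 * z) =O[𝓝 0] fun τ => τ ^ ω 0 := by
    simpa only [mul_comm] using (isBigO_refl (fun τ : ℂ => τ ^ ω 0) (𝓝 0)).const_mul_left z
  have ht : (fun τ : ℂ => Complex.exp (τ ^ ω 0 * z) - 1) =O[𝓝 0] fun τ => τ ^ ω 0 := by
    have := ((Complex.hasDerivAt_exp 0).isBigO_sub.comp_tendsto hζ)
    simp only [Function.comp_def, Complex.exp_zero, sub_zero] at this
    exact this.trans hζO
  have ht0 : Tendsto (fun τ : ℂ => Complex.exp (τ ^ ω 0 * z) - 1) (𝓝 0) (𝓝 0) := by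
    have := ((Complex.continuous_exp.tendsto 0).comp hζ).sub_const 1
    simpa using this
  have hlog : ∀ᶠ τ : ℂ in 𝓝 0,
      Complex.log (1 + (Complex.exp (τ ^ ω 0 * z) - 1)) = τ ^ ω 0 * z := by
    filter_upwards [hζ.eventually (Metric.ball_mem_nhds (0 : ℂ) Real.pi_pos)] with τ hτ
    have h2 : ‖τ ^ ω 0 * z‖ < Real.pi := by simpa using hτ
    have h3 := abs_lt.1 ((Complex.abs_im_le_norm _).trans_lt h2)
    rw [add_sub_cancel, Complex.log_exp h3.1 h3.2.le]
  have hO : f =O[𝓝 0] fun τ : ℂ => τ ^ (n + 1) := by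
    have key := eval_isBigO ω (n + 1) _ h (fun τ => Fin.cons (Complex.exp (τ ^ ω 0 * z) - 1)
      fun j => Q j * (τ ^ ω 0 * z - Complex.logTaylor (ρ j + 1) (Complex.exp (τ ^ ω 0 * z) - 1) +
        τ ^ ω j.succ * w j)) (fun i => by
      refine Fin.cases ?_ (fun j => ?_) i
      · simpa only [Fin.cons_zero] using ht
      · simp only [Fin.cons_succ]
        refine IsBigO.const_mul_left (IsBigO.add ?_ ?_) _
        · have a1 := (Complex.log_sub_logTaylor_isBigO (ρ j)).comp_tendsto ht0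
          have a2 := (a1.trans (ht.pow (ρ j + 1)))
          have a3 : (fun τ : ℂ => (τ ^ ω 0) ^ (ρ j + 1)) =O[𝓝 0] fun τ => τ ^ ω j.succ := by
            simp only [← pow_mul]
            exact isBigO_pow_of_le (by rw [mul_comm]; exact hρ j)
          refine (a2.trans a3).congr' ?_ EventuallyEq.rfl
          filter_upwards [hlog] with τ hτ
          simp only [Function.comp_apply, hτ]
        · simpa only [mul_comm] using
            (isBigO_refl (fun τ : ℂ => τ ^ ω j.succ) (𝓝 0)).const_mul_left (w j))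
    refine key.congr_left fun τ => ?_
    rw [eval_psi]
    simp only [f]
    congr 3
    · ring
    · ext j
      simp only [Pi.zero_apply]
      ring
  have hf0 : f 0 = 0 := by
    obtain ⟨c, hc⟩ := hO.bound
    simpa using hc.self_of_nhds
  have hlo : (f · - f 0) =o[𝓝 0] fun τ : ℂ => ‖τ - 0‖ ^ n := by
    simp only [hf0, sub_zero, ← norm_pow, isLittleO_norm_right]
    exact hO.trans_isLittleO (isLittleO_pow_pow (Nat.lt_succ_self n))
  have := Complex.dist_le_mul_div_pow_of_mapsTo_ball_of_isLittleO (R₂ := M) hd.differentiableOn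
    (fun τ hτ => by simpa [hf0] using hb τ hτ) hlo h1T
  simpa [hf0, div_eq_mul_inv] using this

end Vale.Agent.P021
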