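import Vale.Agent.P021.ZeroEst
import Vale.Agent.P021.Schwarz
import Vale.Agent.P021.Arith

/-! Auxiliary polynomial, extrapolation and zero estimate put together. -/

namespace Vale.Agent.P021

open MvPolynomial Nat

theorem count_aux {m : ℕ} (δ : ℝ) (hδ : 0 < δ) (l0 : ℕ) (hl0 : 0 < l0) (lam : Fin m → ℕ)
    (hlam : ∀ j, 0 < lam j) (Y D σ : ℕ) (hY : 0 < Y)
    (h4 : 8 * ((σ + l0 + ∑ j, lam j : ℕ) : ℝ) ^ (m + 1) ≤ δ * D * Y ^ m) :
    2 * (cntLt (Fin.cons l0 lam : Fin (m + 1) → ℕ) σ : ℝ) ≤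
      δ / 4 * (((D + 1) * cntLe lam Y : ℕ) : ℝ) := by
  have hω : ∀ i, 0 < (Fin.cons l0 lam : Fin (m + 1) → ℕ) i := fun i =>
    Fin.cases (by simpa using hl0) (fun j => by simpa using hlam j) i
  have a1 := cnt_upper _ hω σ
  have a2 := cnt_lower lam hlam Y hY
  have a3 := cntLt_le_cntLe _ hω σ
  have a4 := cntLt_le_cntLe lam hlam Y
  simp only [Fintype.card_fin, Fin.prod_univ_succ, Fin.sum_univ_succ, Fin.cons_zero,
    Fin.cons_succ, ← add_assoc] at a1 a2
  set A := cntLt (Fin.cons l0 lam : Fin (m + 1) → ℕ) σ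
  set B := cntLe lam Y
  set F := m ! * ∏ j, lam j with hF
  have hF0 : 0 < F := Nat.mul_pos (Nat.factorial_pos m) (Finset.prod_pos fun j _ => hlam j)
  have b1 : F * A ≤ (σ + l0 + ∑ j, lam j) ^ (m + 1) := by
    refine le_trans ?_ a1
    refine Nat.mul_le_mul ?_ a3
    exact Nat.mul_le_mul (Nat.factorial_le (Nat.le_succ m)) (Nat.le_mul_of_pos_left _ hl0)
  have b2 : Y ^ m ≤ F * B := a2.trans (Nat.mul_le_mul_left _ a4)
  have c1 : (F : ℝ) * A ≤ ((σ + l0 + ∑ j, lam j : ℕ) : ℝ) ^ (m + 1) := by exact_mod_cast b1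
  have c2 : (Y : ℝ) ^ m ≤ F * B := by exact_mod_cast b2
  have c0 : (0 : ℝ) < F := by exact_mod_cast hF0
  have c3 : (F : ℝ) * (8 * A) ≤ F * (δ * D * B) := by
    have := mul_le_mul_of_nonneg_left c2 (show 0 ≤ δ * D by positivity)
    nlinarith
  have c4 := le_of_mul_le_mul_left c3 c0
  push_cast
  nlinarith [mul_nonneg hδ.le (Nat.cast_nonneg (α := ℝ) B)]

theorem one_le_norm_gauss {g : GaussianInt} (hg : GaussianInt.toComplex g ≠ 0) :
    1 ≤ ‖GaussianInt.toComplex g‖ := by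
  have h0 : g ≠ 0 := by rintro rfl; simp at hg
  have h1 : (1 : ℝ) ≤ (g.norm : ℝ) := by exact_mod_cast GaussianInt.norm_pos.2 h0
  rw [GaussianInt.intCast_real_norm, Complex.normSq_eq_norm_sq] at h1
  nlinarith [norm_nonneg (GaussianInt.toComplex g)]

theorem w_bound (N k : ℕ) (hk : k < N) (ν : ℝ) (hν : 2 ≤ ν) (l0 lam ρ : ℕ)
    (hρ : lam ≤ (ρ + 1) * l0) (p : ℤ) (q L : ℕ) (hq : 0 < q) (hL : 0 < L)
    (happ : |Real.pi - p / q| ≤ Real.exp (-(ν * lam))) (t W : ℂ)
    (ht : ‖t‖ = Real.exp (-(ν * l0))) (ht2 : ‖t‖ ≤ 1 / 2)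
    (hW : ‖W‖ = (q : ℝ) * L * Real.exp (-(ν * lam))) :
    ‖((k : ℂ) * (2 * Complex.I * p * L) + (q : ℂ) * L * Complex.logTaylor (ρ + 1) t + W) /
      ((q : ℂ) * L) - (2 * Real.pi * Complex.I * k + Complex.log (1 + t))‖ *
        Real.exp ν ^ lam ≤ 2 * N + 3 := by
  have hq' : (q : ℂ) ≠ 0 := Nat.cast_ne_zero.2 hq.ne'
  have hL' : (L : ℂ) ≠ 0 := Nat.cast_ne_zero.2 hL.ne'
  have hqL : (0 : ℝ) < (q : ℝ) * L := by positivity
  set ε := Real.exp (-(ν * lam)) with hε
  have hε0 : 0 < ε := Real.exp_pos _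
  have e1 : ((k : ℂ) * (2 * Complex.I * p * L) + (q : ℂ) * L * Complex.logTaylor (ρ + 1) t + W) /
      ((q : ℂ) * L) - (2 * Real.pi * Complex.I * k + Complex.log (1 + t)) =
      -(2 * Complex.I * k * ((Real.pi - p / q : ℝ) : ℂ)) -
        (Complex.log (1 + t) - Complex.logTaylor (ρ + 1) t) + W / ((q : ℂ) * L) := by
    push_cast
    field_simp
    ring
  have b1 : ‖-(2 * Complex.I * k * ((Real.pi - p / q : ℝ) : ℂ))‖ ≤ 2 * N * ε := by
    rw [norm_neg, norm_mul, norm_mul, norm_mul, Complex.norm_real, Real.norm_eq_abs]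
    simp only [Complex.norm_ofNat, Complex.norm_I, mul_one, Complex.norm_natCast]
    gcongr
  have b2 : ‖Complex.log (1 + t) - Complex.logTaylor (ρ + 1) t‖ ≤ 2 * ε := by
    refine (Complex.norm_log_sub_logTaylor_le ρ (by linarith)).trans ?_
    have c1 : ‖t‖ ^ (ρ + 1) ≤ ε := by
      rw [ht, ← Real.exp_nat_mul, hε, Real.exp_le_exp]
      have : (lam : ℝ) ≤ ((ρ + 1 : ℕ) : ℝ) * l0 := by exact_mod_cast hρ
      nlinarith
    have c2 : (1 - ‖t‖)⁻¹ ≤ 2 := by
      rw [inv_le_comm₀ (by linarith) two_pos]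
      linarith
    have c3 : 0 ≤ (1 - ‖t‖)⁻¹ := inv_nonneg.2 (by linarith)
    refine (_root_.div_le_self (by positivity) (by simp)).trans ?_
    rw [mul_comm]
    gcongr
  have b3 : ‖W / ((q : ℂ) * L)‖ = ε := by
    rw [norm_div, hW, norm_mul, Complex.norm_natCast, Complex.norm_natCast]
    field_simp
  have b4 : ε * Real.exp ν ^ lam = 1 := by
    rw [hε, ← Real.exp_nat_mul, ← Real.exp_add]
    simp [mul_comm]
  rw [e1]
  calc _ ≤ ((2 * N + 3) * ε) * Real.exp ν ^ lam := by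
        gcongr
        refine (norm_add_le _ _).trans ?_
        have := norm_sub_le (-(2 * Complex.I * k * ((Real.pi - p / q : ℝ) : ℂ)))
          (Complex.log (1 + t) - Complex.logTaylor (ρ + 1) t)
        linarith
    _ = _ := by rw [mul_assoc, b4, mul_one]

theorem core {m : ℕ} (N : ℕ) (ν δ : ℝ) (hν : 2 ≤ ν) (hδ : 0 < δ) (hδ1 : δ ≤ 1) (hN : 0 < N)
    (l0 : ℕ) (hl0 : 0 < l0) (p : Fin m → ℤ) (q lam : Fin m → ℕ) (hp : ∀ j, p j ≠ 0)
    (hlam : ∀ j, 0 < lam j) (hq : ∀ j, Real.exp (lam j) ≤ q j)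
    (happ : ∀ j, |Real.pi - p j / q j| ≤ Real.exp (-(ν * lam j)))
    (hB : ∀ j, (q j : ℝ) * (Nat.lcmUpto (lam j / l0) : ℝ) *
      (8 * N * Real.exp (ν * l0) + (2 * N + 3) + (lam j / l0 : ℕ) + 1) ≤
        Real.exp ((1 + δ) * lam j))
    (Y D σ V Θ E : ℕ) (hσ : 0 < σ) (hY : 0 < Y)
    (h1 : (ν - 1) * V + (1 + 4 * δ) * Y ≤ ν * σ)
    (h2 : (((D + 1) * cntLe lam Y : ℕ) : ℝ) ≤ Real.exp (δ * Y))
    (h3 : D * (8 * N * Real.exp (ν * l0)) ≤ δ * Y)
    (h4 : 8 * ((σ + l0 + ∑ j, lam j : ℕ) : ℝ) ^ (m + 1) ≤ δ * D * Y ^ m)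
    (hD : 0 < D) (hl0Y : 2 * l0 ≤ Y) (hlamY : ∀ j, lam j ≤ Y) (hEY : E ≤ Y)
    (hDE : 2 * l0 * D < E)
    (hgap0 : ∀ j, (m + 1)! * Y ^ (m + 1) * (2 * l0) < E ^ (m + 1) * lam j)
    (hgap : ∀ l i, l < i → (m + 1)! * Y ^ (m + 1) * lam l < E ^ (m + 1) * lam i)
    (hΘY : Θ ≤ Y) (hV : Θ + (m + 1) * E ≤ V) :
    N * Θ ^ (m + 1) ≤ (m + 1) * (2 * l0) * D * Y ^ m := by
  have hN1 : (1 : ℝ) ≤ N := by exact_mod_cast hN
  have hl1 : (1 : ℝ) ≤ l0 := by exact_mod_cast hl0
  have hY0 : (0 : ℝ) ≤ Y := Nat.cast_nonneg _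
  have hq0 : ∀ j, 0 < q j := fun j => by
    have := (Real.exp_pos _).trans_le (hq j)
    exact_mod_cast this
  set ρ : Fin m → ℕ := fun j => lam j / l0 with hρdef
  have hL0 : ∀ j, 0 < Nat.lcmUpto (ρ j) := fun j => Nat.lcmUpto_pos _
  have hqL : ∀ j, (1 : ℝ) ≤ (q j : ℝ) * (Nat.lcmUpto (ρ j) : ℝ) := fun j => by
    exact_mod_cast Nat.mul_pos (hq0 j) (hL0 j)
  have hρ : ∀ j, lam j ≤ (ρ j + 1) * l0 := fun j => by
    rw [mul_comm]
    exact (Nat.lt_mul_div_succ (lam j) hl0).le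
  set Q : Fin m → ℂ := fun j => (q j : ℂ) * (Nat.lcmUpto (ρ j) : ℂ) with hQdef
  have hQn : ∀ j, ‖Q j‖ = (q j : ℝ) * (Nat.lcmUpto (ρ j) : ℝ) := fun j => by simp [hQdef]
  have hQ0 : ∀ j, Q j ≠ 0 := fun j => by
    rw [← norm_pos_iff, hQn]; linarith [hqL j]
  have hω : ∀ i, 0 < (Fin.cons l0 lam : Fin (m + 1) → ℕ) i := fun i =>
    Fin.cases (by simpa using hl0) (fun j => by simpa using hlam j) i
  set R : ℝ := 8 * N * Real.exp (ν * l0) with hR
  have hR1 : 1 ≤ R := by
    have : 1 ≤ Real.exp (ν * l0) := Real.one_le_exp (by positivity)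
    nlinarith
  obtain ⟨P, hP0, hdeg, hint, hord, hH⟩ := siegel_step ρ q lam hlam (Fin.cons l0 lam) hω D Y σ hσ
    (1 + δ) (δ / 4) (by linarith) (by linarith) (by linarith) (fun j => by
      refine le_trans ?_ (hB j)
      have := hqL j
      change _ ≤ _ * (R + (2 * N + 3) + (ρ j : ℝ) + 1)
      nlinarith) (count_aux δ hδ l0 hl0 lam hlam Y D σ hY h4)
  have hH' : ∀ s, ‖coeff s P‖ ≤ Real.exp (δ * Y) := by
    intro s
    refine (hH s).trans ?_
    have a1 : (2 : ℝ) ^ D ≤ Real.exp (δ * Y) := by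
      calc (2 : ℝ) ^ D ≤ Real.exp 1 ^ D := by
            gcongr
            linarith [Real.add_one_le_exp 1]
        _ = Real.exp D := by rw [← Real.exp_nat_mul, mul_one]
        _ ≤ _ := Real.exp_le_exp.2 (by nlinarith [Nat.cast_nonneg (α := ℝ) D])
    calc _ ≤ (Real.exp (δ * Y) * Real.exp (δ * Y) * Real.exp ((1 + δ) * Y)) ^ (δ / 4) := by
          gcongr
      _ = Real.exp ((1 + 3 * δ) * Y * (δ / 4)) := by
          rw [← Real.exp_add, ← Real.exp_add, ← Real.exp_mul]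
          congr 1
          ring
      _ ≤ _ := Real.exp_le_exp.2 (by nlinarith [mul_nonneg hδ.le hY0])
  have hT : Real.exp ν ^ l0 = Real.exp (ν * l0) := by rw [← Real.exp_nat_mul, mul_comm]
  have hsch := schwarz_step ρ Q (Fin.cons l0 lam) hω (fun j => by simpa using hρ j) P σ hord
    (Real.exp ν) (8 * N) (2 * N + 3) (Real.exp ((1 + 4 * δ) * Y))
    (Real.one_lt_exp_iff.2 (by linarith)) (fun z w hz hw => by
      simp only [Fin.cons_zero, hT] at hz
      refine (eval_bound lam hlam D Y P hdeg _ hH' (Real.exp R) (1 + δ)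
        (Real.one_le_exp (by linarith)) (by linarith) _ _ ?_ fun j => ?_).trans ?_
      · exact (Complex.norm_exp_le_exp_norm z).trans (Real.exp_le_exp.2 hz)
      · refine le_trans ?_ (hB j)
        rw [norm_mul, hQn]
        refine mul_le_mul_of_nonneg_left ?_ (by positivity)
        have := norm_add_le z (w j)
        have h5 := hw j
        have h6 : (0 : ℝ) ≤ (lam j / l0 : ℕ) := Nat.cast_nonneg _
        linarith
      · calc _ ≤ Real.exp (δ * Y) * Real.exp (δ * Y) * Real.exp (δ * Y) *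
              Real.exp ((1 + δ) * Y) := by
              gcongr
              rw [← Real.exp_nat_mul]
              exact Real.exp_le_exp.2 h3
          _ = _ := by
              rw [← Real.exp_add, ← Real.exp_add, ← Real.exp_add]
              congr 1
              ring)
  let c : Fin m → ℂ := fun j => 2 * Complex.I * p j * Nat.lcmUpto (ρ j)
  have key := zero_estimate N Q c hQ0 (fun j => by
      have := (hL0 j).ne'
      simp [c, hp j, this]) (Fin.cons (2 * l0) lam)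
    (fun i => Fin.cases (by simpa using hl0) (fun j => by simpa using hlam j) i) Y D E Θ V hD
    (fun i => Fin.cases (by simpa using hl0Y) (fun j => by simpa using hlamY j) i) hEY
    (by simpa using hDE) (fun l i hli => by
      induction i using Fin.cases with
      | zero => exact absurd hli (Fin.not_lt_zero _)
      | succ i =>
        induction l using Fin.cases with
        | zero => simpa using hgap0 i
        | succ l => simpa using hgap l i (Fin.succ_lt_succ_iff.1 hli)) hΘY hV P hP0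
    (by simpa using hdeg) (fun k hk => ?_)
  · simpa using key
  refine link ρ Q _ _ (fun j => ?_) P V fun s hs => ?_
  · simp only [Fin.cons_succ, Fin.cons_zero]
    exact (hρ j).trans (Nat.mul_le_mul_left _ (by omega))
  obtain ⟨g, hg⟩ := psi_coeff_gauss ρ q
    (fun j => ⟨0, 2 * k * p j * Nat.lcmUpto (ρ j)⟩) P hint s
  have hc : (fun j => GaussianInt.toComplex (⟨0, 2 * k * p j * Nat.lcmUpto (ρ j)⟩ : GaussianInt)) =
      fun j => (k : ℂ) * c j := by
    ext j
    rw [GaussianInt.toComplex_def']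
    simp only [c]
    push_cast
    ring
  rw [hc] at hg
  have hg1 : 1 ≤ ‖coeff s (psi ρ Q (fun j => (k : ℂ) * c j) P)‖ := by
    have := mem_support_iff.1 hs
    rw [hg] at this ⊢
    exact one_le_norm_gauss this
  have htor := coeff_le_of_torus (psi ρ Q (fun j => (k : ℂ) * c j) P)
    (Fin.cons (Real.exp (-(ν * l0)))
      fun j => (q j : ℝ) * (Nat.lcmUpto (ρ j) : ℝ) * Real.exp (-(ν * lam j)))
    (fun i => Fin.cases (by simpa using Real.exp_pos _) (fun j => by
      simp only [Fin.cons_succ]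
      exact mul_pos (by linarith [hqL j]) (Real.exp_pos _)) i)
    (Real.exp ((1 + 4 * δ) * Y) / Real.exp ν ^ σ) (fun x hx => by
      have hx0 : ‖x 0‖ = Real.exp (-(ν * l0)) := by simpa using hx 0
      have hx1 : ‖x 0‖ ≤ 1 / 2 := by
        rw [hx0, Real.exp_neg, one_div]
        refine inv_anti₀ two_pos ?_
        nlinarith [Real.add_one_le_exp (ν * l0)]
      have hne : 1 + x 0 ≠ 0 := by
        intro h
        rw [eq_neg_of_add_eq_zero_right h] at hx1
        norm_num at hx1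
      have h7 := hsch (2 * Real.pi * Complex.I * k + Complex.log (1 + x 0))
        (fun j => ((k : ℂ) * c j + Q j * Complex.logTaylor (ρ j + 1) (x 0) + x j.succ) / Q j -
          (2 * Real.pi * Complex.I * k + Complex.log (1 + x 0))) (by
          refine (norm_add_le _ _).trans ?_
          have a1 := Complex.norm_log_one_add_half_le_self hx1
          have a2 : ‖(2 * Real.pi * Complex.I * k : ℂ)‖ = 2 * Real.pi * k := by
            simp [abs_of_pos Real.pi_pos]
          have a3 : (k : ℝ) + 1 ≤ N := by exact_mod_cast hk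
          have a4 := Real.pi_le_four
          rw [a2]
          nlinarith [Nat.cast_nonneg (α := ℝ) k]) (fun j => by
          simp only [Fin.cons_succ]
          exact w_bound N k hk ν hν l0 (lam j) (ρ j) (hρ j) (p j) (q j) _ (hq0 j) (hL0 j) (happ j)
            (x 0) (x j.succ) hx0 hx1 (by simpa using hx j.succ))
      rw [← Fin.cons_self_tail x, eval_psi]
      convert h7 using 5
      · rw [Complex.exp_add, Complex.exp_log hne, mul_comm _ (k : ℂ),
          Complex.exp_nat_mul_two_pi_mul_I, one_mul]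
      · ext j
        rw [add_sub_cancel, mul_div_cancel₀ _ (hQ0 j)]
        rfl) s
  have hprod : Real.exp (-(ν * l0 * s 0 + (ν - 1) * ∑ j : Fin m, (lam j : ℝ) * s j.succ)) ≤
      ∏ i, (Fin.cons (Real.exp (-(ν * l0)))
        (fun j => (q j : ℝ) * (Nat.lcmUpto (ρ j) : ℝ) * Real.exp (-(ν * lam j))) :
          Fin (m + 1) → ℝ) i ^ s i := by
    rw [Fin.prod_univ_succ, neg_add, Real.exp_add, Finset.mul_sum, ← Finset.sum_neg_distrib,
      Real.exp_sum]
    simp only [Fin.cons_zero, Fin.cons_succ]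
    refine mul_le_mul (le_of_eq ?_) (Finset.prod_le_prod (fun j _ => (Real.exp_pos _).le)
      fun j _ => ?_) (by positivity) (by positivity)
    · rw [← Real.exp_nat_mul]; congr 1; ring
    · calc _ = (Real.exp (lam j) * 1 * Real.exp (-(ν * lam j))) ^ s j.succ := by
            rw [mul_one, ← Real.exp_add, ← Real.exp_nat_mul]; congr 1; ring
        _ ≤ _ := by
            gcongr
            · exact hq j
            · exact_mod_cast hL0 j
  have hfin := (hprod.trans (le_mul_of_one_le_left ((Real.exp_pos _).le.trans hprod) hg1)).trans htor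
  rw [← Real.exp_nat_mul, ← Real.exp_sub, Real.exp_le_exp] at hfin
  have h8 : (ν - 1) * V ≤
      (ν - 1) * (2 * l0 * s 0 + ∑ j : Fin m, (lam j : ℝ) * s j.succ) := by
    have : (0 : ℝ) ≤ (l0 : ℝ) * s 0 := by positivity
    nlinarith
  have h9 := le_of_mul_le_mul_left h8 (by linarith)
  rw [Fin.sum_univ_succ]
  simp only [Fin.cons_zero, Fin.cons_succ]
  exact_mod_cast h9

end Vale.Agent.P021
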