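import Mathlib

/-!
Internal definitions for the proof that the irrationality exponent of pi is 2.
None of them occurs in the final statement.
-/

namespace Vale.Agent.P021

open MvPolynomial

section Filtration

variable {A : Type*} [CommRing A] [Algebra ℂ A] {ι : Type*}

/-- apply a word of derivations, the head of the list first -/
def word (d : ι → Derivation ℂ A A) : List ι → A → A
  | [], f => f
  | j :: w, f => word d w (d j f)

/-- total weight of a word -/
def wt (ω : ι → ℕ) (w : List ι) : ℕ := (w.map ω).sum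

@[simp] lemma word_nil (d : ι → Derivation ℂ A A) (f : A) : word d [] f = f := rfl

@[simp] lemma word_cons (d : ι → Derivation ℂ A A) (j : ι) (w : List ι) (f : A) :
    word d (j :: w) f = word d w (d j f) := rfl

@[simp] lemma wt_nil (ω : ι → ℕ) : wt ω [] = 0 := rfl

@[simp] lemma wt_cons (ω : ι → ℕ) (j : ι) (w : List ι) : wt ω (j :: w) = ω j + wt ω w := by
  simp [wt]

lemma wt_append (ω : ι → ℕ) (w w' : List ι) : wt ω (w ++ w') = wt ω w + wt ω w' := by
  simp [wt]

lemma word_append (d : ι → Derivation ℂ A A) (w w' : List ι) (f : A) :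
    word d (w ++ w') f = word d w' (word d w f) := by
  induction w generalizing f with
  | nil => rfl
  | cons j w ih => simp [ih]

lemma word_add (d : ι → Derivation ℂ A A) (w : List ι) (f g : A) :
    word d w (f + g) = word d w f + word d w g := by
  induction w generalizing f g with
  | nil => rfl
  | cons j w ih => simp [ih]

@[simp] lemma word_zero (d : ι → Derivation ℂ A A) (w : List ι) : word d w 0 = 0 := by
  induction w with
  | nil => rfl
  | cons j w ih => simp [ih]

lemma word_sum (d : ι → Derivation ℂ A A) (w : List ι) {α : Type*} (s : Finset α) (f : α → A) :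
    word d w (∑ a ∈ s, f a) = ∑ a ∈ s, word d w (f a) := by
  classical
  induction s using Finset.induction_on with
  | empty => simp
  | insert a s ha ih => simp [Finset.sum_insert ha, word_add, ih]

lemma word_mul_aux (d : ι → Derivation ℂ A A) (ω : ι → ℕ) (q : Ideal A) (w : List ι) :
    ∀ (σ τ : ℕ) (f g : A), (∀ u, wt ω u < σ → word d u f ∈ q) →
      (∀ u, wt ω u < τ → word d u g ∈ q) → wt ω w < σ + τ → word d w (f * g) ∈ q := by
  induction w with
  | nil =>
    intro σ τ f g hf hg h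
    rcases Nat.eq_zero_or_pos σ with h0 | h0
    · exact q.mul_mem_left _ (hg [] (by simpa [h0] using h))
    · exact q.mul_mem_right _ (hf [] (by simpa using h0))
  | cons j w ih =>
    intro σ τ f g hf hg h
    rw [word_cons, Derivation.leibniz, word_add, smul_eq_mul, smul_eq_mul]
    rw [wt_cons] at h
    refine q.add_mem ?_ ?_
    · refine ih σ (τ - ω j) f _ hf (fun u hu => hg (j :: u) ?_) (by omega)
      rw [wt_cons]; omega
    · refine ih τ (σ - ω j) g _ hg (fun u hu => hf (j :: u) ?_) (by omega)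
      rw [wt_cons]; omega

/-- the ideal of elements all of whose derivatives of weight `< σ` lie in `q` -/
def dfil (d : ι → Derivation ℂ A A) (ω : ι → ℕ) (q : Ideal A) (σ : ℕ) : Ideal A where
  carrier := {f | ∀ w, wt ω w < σ → word d w f ∈ q}
  add_mem' := fun {f g} hf hg w hw => by
    rw [word_add]; exact q.add_mem (hf w hw) (hg w hw)
  zero_mem' := fun w _ => by simp
  smul_mem' := fun c f hf w hw =>
    word_mul_aux d ω q w 0 σ c f (fun u hu => absurd hu (Nat.not_lt_zero _)) hf (by simpa using hw)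

variable {d : ι → Derivation ℂ A A} {ω : ι → ℕ} {q : Ideal A}

lemma mem_dfil {σ : ℕ} {f : A} :
    f ∈ dfil d ω q σ ↔ ∀ w, wt ω w < σ → word d w f ∈ q := Iff.rfl

lemma dfil_zero : dfil d ω q 0 = ⊤ :=
  eq_top_iff.2 fun _ _ _ hw => absurd hw (Nat.not_lt_zero _)

lemma dfil_anti {σ τ : ℕ} (h : σ ≤ τ) : dfil d ω q τ ≤ dfil d ω q σ :=
  fun _ hf w hw => hf w (lt_of_lt_of_le hw h)

lemma mul_mem_dfil {σ τ : ℕ} {f g : A} (hf : f ∈ dfil d ω q σ) (hg : g ∈ dfil d ω q τ) :
    f * g ∈ dfil d ω q (σ + τ) :=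
  fun w hw => word_mul_aux d ω q w σ τ f g hf hg hw

lemma pow_mem_dfil {σ : ℕ} {f : A} (hf : f ∈ dfil d ω q σ) (n : ℕ) :
    f ^ n ∈ dfil d ω q (n * σ) := by
  induction n with
  | zero => simp [dfil_zero]
  | succ n ih =>
    rw [pow_succ, add_mul, one_mul]
    exact mul_mem_dfil ih hf

lemma prod_mem_dfil {α : Type*} (s : Finset α) (f : α → A) (σ : α → ℕ)
    (h : ∀ a ∈ s, f a ∈ dfil d ω q (σ a)) : ∏ a ∈ s, f a ∈ dfil d ω q (∑ a ∈ s, σ a) := by
  classical
  induction s using Finset.induction_on with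
  | empty => simp [dfil_zero]
  | insert a s ha ih =>
    rw [Finset.prod_insert ha, Finset.sum_insert ha]
    exact mul_mem_dfil (h a (by simp)) (ih fun b hb => h b (by simp [hb]))

lemma word_mem_dfil {σ τ : ℕ} {f : A} (hf : f ∈ dfil d ω q σ) (w : List ι)
    (h : τ + wt ω w ≤ σ) : word d w f ∈ dfil d ω q τ := by
  intro u hu
  rw [← word_append]
  exact hf _ (by rw [wt_append]; omega)

lemma mem_dfil_of_deriv {σ : ℕ} {f : A} (hf : f ∈ q)
    (h : ∀ j, d j f ∈ dfil d ω q (σ - ω j)) : f ∈ dfil d ω q σ := by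
  intro w hw
  cases w with
  | nil => exact hf
  | cons j w =>
    rw [wt_cons] at hw
    exact h j w (by omega)

lemma le_dfil_one (hω : ∀ i, 0 < ω i) : q ≤ dfil d ω q 1 := by
  intro f hf
  refine mem_dfil_of_deriv hf fun j => ?_
  have := hω j
  rw [show 1 - ω j = 0 by omega, dfil_zero]
  trivial

lemma pow_mem_dfil_of_mem (hω : ∀ i, 0 < ω i) {f : A} (hf : f ∈ q) (σ : ℕ) :
    f ^ σ ∈ dfil d ω q σ := by
  simpa using pow_mem_dfil (le_dfil_one (d := d) hω hf) σ

lemma dfil_le {σ : ℕ} (hσ : 0 < σ) : dfil d ω q σ ≤ q :=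
  fun _ hf => hf [] (by simpa using hσ)

end Filtration

/-- polynomial ring in `x = X 0` and `Y_j = X j.succ` -/
abbrev PR (m : ℕ) := MvPolynomial (Fin (m + 1)) ℂ

/-- the derivations `x ∂ₓ + ∑ κ_j ∂_{Y_j}` (index `0`) and `∂_{Y_j}` (index `j.succ`) -/
noncomputable def dd {m : ℕ} (κ : Fin m → ℂ) : Fin (m + 1) → Derivation ℂ (PR m) (PR m) :=
  Fin.cons ((X 0 : PR m) • pderiv 0 + ∑ j : Fin m, (C (κ j) : PR m) • pderiv j.succ)
    (fun j => pderiv j.succ)

/-- the maximal ideal of the point `(1, c)` -/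
noncomputable def ptIdeal {m : ℕ} (c : Fin m → ℂ) : Ideal (PR m) :=
  RingHom.ker (MvPolynomial.eval (Fin.cons 1 c : Fin (m + 1) → ℂ))

/-- Taylor polynomial of `log (1 + t)` of degree `ρ` -/
noncomputable def ell (ρ : ℕ) : Polynomial ℂ :=
  ∑ i ∈ Finset.range (ρ + 1), Polynomial.C ((-1) ^ (i + 1) / (i : ℂ)) * Polynomial.X ^ i

/-- the substitution `x = 1 + t`, `Y_j = c_j + Q_j ell_j (t) + W_j` -/
noncomputable def psi {m : ℕ} (ρ : Fin m → ℕ) (Q c : Fin m → ℂ) : PR m →ₐ[ℂ] PR m :=
  aeval (Fin.cons (1 + X 0)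
    (fun j => C (c j) + C (Q j) * Polynomial.aeval (X 0 : PR m) (ell (ρ j)) + X j.succ) :
      Fin (m + 1) → PR m)

/-- number of exponent vectors of weight `< u` -/
noncomputable def cntLt {ι : Type*} (ω : ι → ℕ) (u : ℕ) : ℕ :=
  Set.ncard {α : ι →₀ ℕ | Finsupp.weight ω α < u}

/-- number of exponent vectors of weight `≤ u` -/
noncomputable def cntLe {ι : Type*} (ω : ι → ℕ) (u : ℕ) : ℕ :=
  Set.ncard {α : ι →₀ ℕ | Finsupp.weight ω α ≤ u}

/-- `P` has degree at most `D` in `x` and weighted degree at most `X` in the `Y_j` -/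
def DegLe {m : ℕ} (lam : Fin m → ℕ) (D X : ℕ) (P : PR m) : Prop :=
  ∀ s ∈ P.support, s 0 ≤ D ∧ ∑ j : Fin m, lam j * s j.succ ≤ X

/-- every monomial of `G` has weight at least `σ` -/
def OrdGe {m : ℕ} (ω : Fin (m + 1) → ℕ) (σ : ℕ) (G : PR m) : Prop :=
  ∀ s ∈ G.support, σ ≤ ∑ i, ω i * s i

end Vale.Agent.P021
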