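import Vale.Agent.P021.Count

/-! The set of admissible exponent vectors. -/

namespace Vale.Agent.P021

open MvPolynomial

variable {m : ℕ}

/-- admissible exponent vectors -/
def degSet (lam : Fin m → ℕ) (D Y : ℕ) : Set (Fin (m + 1) →₀ ℕ) :=
  {s | s 0 ≤ D ∧ ∑ j : Fin m, lam j * s j.succ ≤ Y}

lemma degSet_eq_image (lam : Fin m → ℕ) (D Y : ℕ) :
    degSet lam D Y = (fun p : ℕ × (Fin m →₀ ℕ) => Finsupp.cons p.1 p.2) ''
      (Set.Iic D ×ˢ {b : Fin m →₀ ℕ | Finsupp.weight lam b ≤ Y}) := by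
  ext s
  constructor
  · intro hs
    refine ⟨(s 0, Finsupp.tail s), ⟨hs.1, ?_⟩, Finsupp.cons_tail s⟩
    simpa [weight_eq_sum, Finsupp.tail_apply] using hs.2
  · rintro ⟨⟨a, b⟩, ⟨h1, h2⟩, rfl⟩
    refine ⟨by simpa using h1, ?_⟩
    simpa [weight_eq_sum] using h2

lemma degSet_finite (lam : Fin m → ℕ) (hlam : ∀ j, 0 < lam j) (D Y : ℕ) :
    (degSet lam D Y).Finite := by
  rw [degSet_eq_image]
  exact ((Set.finite_Iic D).prod (finite_wt_le lam hlam Y)).image _

lemma ncard_degSet (lam : Fin m → ℕ) (D Y : ℕ) :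
    (degSet lam D Y).ncard = (D + 1) * cntLe lam Y := by
  rw [degSet_eq_image, Set.ncard_image_of_injective _ (fun p q h =>
    Prod.ext (Finsupp.cons_injective2 h).1 (Finsupp.cons_injective2 h).2), Set.ncard_prod, cntLe]
  congr 1
  rw [← Finset.coe_Iic, Set.ncard_coe_finset]
  simp

end Vale.Agent.P021
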