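import Vale.Agent.P021.Defs

/-! Hilbert function comparison by Noetherian induction. -/

namespace Vale.Agent.P021

section RankAux

variable {R : Type} [CommRing R] [IsDomain R]

omit [IsDomain R] in
lemma rank_range_le_of_ker_le {M N N' : Type} [AddCommGroup M] [Module R M] [AddCommGroup N]
    [Module R N] [AddCommGroup N'] [Module R N'] (u : M →ₗ[R] N) (v : M →ₗ[R] N')
    (h : LinearMap.ker u ≤ LinearMap.ker v) :
    Module.rank R (LinearMap.range v) ≤ Module.rank R (LinearMap.range u) := by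
  rw [← u.quotKerEquivRange.rank_eq, ← v.quotKerEquivRange.rank_eq]
  exact LinearMap.rank_le_of_surjective (Submodule.factor h) (Submodule.factor_surjective h)

lemma rank_three {M M' N N' : Type} [AddCommGroup M] [Module R M] [AddCommGroup N]
    [Module R N] [AddCommGroup N'] [Module R N'] [AddCommGroup M'] [Module R M']
    (u : M →ₗ[R] N) (π : N →ₗ[R] N') (w : M' →ₗ[R] N)
    (h1 : LinearMap.range w ≤ LinearMap.range u) (h2 : LinearMap.range w ≤ LinearMap.ker π) :
    Module.rank R (LinearMap.range w) + Module.rank R (LinearMap.range (π ∘ₗ u)) ≤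
      Module.rank R (LinearMap.range u) := by
  have h := (π.domRestrict (LinearMap.range u)).rank_range_add_rank_ker
  rw [← h, add_comm]
  have e1 : LinearMap.range (π.domRestrict (LinearMap.range u)) = LinearMap.range (π ∘ₗ u) := by
    rw [LinearMap.range_domRestrict, LinearMap.range_comp]
  rw [e1]
  refine add_le_add le_rfl ?_
  let ι : LinearMap.range w →ₗ[R] LinearMap.ker (π.domRestrict (LinearMap.range u)) :=
    LinearMap.codRestrict _ (Submodule.inclusion h1) (fun x => by
      simpa [LinearMap.mem_ker] using h2 x.2)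
  refine LinearMap.rank_le_of_injective ι ?_
  intro x y hxy
  have := congrArg (fun z => ((z : LinearMap.ker (π.domRestrict (LinearMap.range u))).1 : N)) hxy
  exact Subtype.ext this

end RankAux

section Main

variable {R A : Type} [CommRing R] [IsDomain R] [CommRing A] [Algebra R A]

/-- the quotient map as a linear map -/
def qmk (R : Type) {A : Type} [CommRing R] [CommRing A] [Algebra R A] (a : Ideal A) :
    A →ₗ[R] A ⧸ a := (Ideal.Quotient.mkₐ R a).toLinearMap

omit [IsDomain R] in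
lemma qmk_eq_zero {a : Ideal A} {x : A} : qmk R a x = 0 ↔ x ∈ a :=
  Ideal.Quotient.eq_zero_iff_mem

omit [IsDomain R] in
lemma qmk_surj (a : Ideal A) : Function.Surjective (qmk R a) := Ideal.Quotient.mk_surjective

/-- the factor map as a linear map -/
def qfac (R : Type) {A : Type} [CommRing R] [CommRing A] [Algebra R A] {a b : Ideal A}
    (h : a ≤ b) : (A ⧸ a) →ₗ[R] A ⧸ b := (Ideal.Quotient.factorₐ R h).toLinearMap

omit [IsDomain R] in
lemma qfac_qmk {a b : Ideal A} (h : a ≤ b) (x : A) : qfac R h (qmk R a x) = qmk R b x := rfl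

/-- Hilbert function of the filtration in the quotient -/
noncomputable def HH (F : ℕ → Submodule R A) (a : Ideal A) (k : ℕ) : Cardinal :=
  Module.rank R (LinearMap.range (qmk R a ∘ₗ (F k).subtype))

/-- colength function -/
noncomputable def JJ (R : Type) {A : Type} [CommRing R] [CommRing A] [Algebra R A]
    (I : ℕ → Ideal A) (a : Ideal A) (k : ℕ) : Cardinal :=
  Module.rank R (A ⧸ (a ⊔ I k))

omit [IsDomain R] in
lemma HH_mono {F : ℕ → Submodule R A} (hF : Monotone F) (a : Ideal A) {k l : ℕ} (h : k ≤ l) :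
    HH F a k ≤ HH F a l := by
  unfold HH
  apply Submodule.rank_mono
  rw [LinearMap.range_comp, LinearMap.range_comp, Submodule.range_subtype, Submodule.range_subtype]
  exact Submodule.map_mono (hF h)

lemma HH_step {F : ℕ → Submodule R A}
    (hFmul : ∀ a b f g, f ∈ F a → g ∈ F b → f * g ∈ F (a + b))
    (a b : Ideal A) {f : A} {n : ℕ} (hf : f ∈ F n) (hb : ∀ g, g ∈ b ↔ f * g ∈ a) (k : ℕ) :
    HH F b k + HH F (a ⊔ Ideal.span {f}) (k + n) ≤ HH F a (k + n) := by
  let w : F k →ₗ[R] A ⧸ a := qmk R a ∘ₗ LinearMap.mulLeft R f ∘ₗ (F k).subtype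
  have h := rank_three (qmk R a ∘ₗ (F (k + n)).subtype)
    (qfac R (le_sup_left : a ≤ a ⊔ Ideal.span {f})) w
    (by
      rintro _ ⟨g, rfl⟩
      refine ⟨⟨f * g, ?_⟩, rfl⟩
      rw [add_comm]
      exact hFmul _ _ _ _ hf g.2)
    (by
      rintro _ ⟨g, rfl⟩
      rw [LinearMap.mem_ker]
      change qfac R _ (qmk R a (f * g)) = 0
      rw [qfac_qmk, qmk_eq_zero]
      exact Ideal.mem_sup_right (Ideal.mul_mem_right _ _ (Ideal.mem_span_singleton_self f)))
  refine le_trans (add_le_add ?_ le_rfl) h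
  apply rank_range_le_of_ker_le
  intro g hg
  rw [LinearMap.mem_ker] at hg ⊢
  change qmk R a (f * g) = 0 at hg
  change qmk R b g = 0
  rw [qmk_eq_zero] at hg ⊢
  exact (hb _).mpr hg

lemma JJ_step {I : ℕ → Ideal A} (hIanti : Antitone I)
    (hImul : ∀ a b f g, f ∈ I a → g ∈ I b → f * g ∈ I (a + b))
    (a b : Ideal A) {f : A} {n : ℕ} (hf : f ∈ I n ⊔ a) (hb : ∀ g, g ∈ b ↔ f * g ∈ a) (k : ℕ) :
    JJ R I a k ≤ JJ R I b (k - n) + JJ R I (a ⊔ Ideal.span {f}) k := by
  have hle : a ⊔ I k ≤ (a ⊔ Ideal.span {f}) ⊔ I k := sup_le_sup_right le_sup_left _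
  have h := (qfac R hle).rank_range_add_rank_ker
  unfold JJ
  rw [← h, add_comm]
  refine add_le_add ?_ (Submodule.rank_le _)
  let w : A →ₗ[R] A ⧸ (a ⊔ I k) := qmk R _ ∘ₗ LinearMap.mulLeft R f
  have h1 : LinearMap.ker (qfac R hle) ≤ LinearMap.range w := by
    intro x hx
    obtain ⟨y, rfl⟩ := qmk_surj (R := R) _ x
    rw [LinearMap.mem_ker, qfac_qmk, qmk_eq_zero, sup_right_comm] at hx
    obtain ⟨u, hu, v, hv, rfl⟩ := Submodule.mem_sup.mp hx
    obtain ⟨g, rfl⟩ := Ideal.mem_span_singleton'.mp hv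
    refine ⟨g, ?_⟩
    change qmk R _ (f * g) = _
    rw [map_add, qmk_eq_zero.mpr hu, zero_add, mul_comm]
  refine (Submodule.rank_mono h1).trans ?_
  refine le_trans (rank_range_le_of_ker_le (qmk R (b ⊔ I (k - n))) w ?_) (Submodule.rank_le _)
  intro g hg
  rw [LinearMap.mem_ker] at hg ⊢
  change qmk R _ (f * g) = 0
  rw [qmk_eq_zero] at hg ⊢
  obtain ⟨g1, hg1, g2, hg2, rfl⟩ := Submodule.mem_sup.mp hg
  obtain ⟨f1, hf1, f2, hf2, hff⟩ := Submodule.mem_sup.mp hf
  rw [mul_add]
  refine Ideal.add_mem _ (Ideal.mem_sup_left ((hb _).mp hg1)) ?_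
  rw [← hff, add_mul]
  refine Ideal.add_mem _ (Ideal.mem_sup_right ?_)
    (Ideal.mem_sup_left (Ideal.mul_mem_right _ _ hf2))
  exact hIanti (by omega) (hImul _ _ _ _ hf1 hg2)

omit [IsDomain R] in
lemma JJ_eq_zero [Nontrivial R] {I : ℕ → Ideal A} {a : Ideal A} {k : ℕ} (h : a ⊔ I k = ⊤) :
    JJ R I a k = 0 := by
  unfold JJ
  rw [h]
  have : Subsingleton (A ⧸ (⊤ : Ideal A)) := Ideal.Quotient.subsingleton_iff.mpr rfl
  exact rank_subsingleton' R _

end Main

theorem lemmaK {R A : Type} [CommRing R] [IsDomain R] [CommRing A] [Algebra R A]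
    [IsNoetherianRing A] (F : ℕ → Submodule R A) (I : ℕ → Ideal A)
    (hFmono : Monotone F) (hFmul : ∀ a b f g, f ∈ F a → g ∈ F b → f * g ∈ F (a + b))
    (hFex : ∀ f, ∃ n, f ∈ F n)
    (hI0 : I 0 = ⊤) (hIanti : Antitone I)
    (hImul : ∀ a b f g, f ∈ I a → g ∈ I b → f * g ∈ I (a + b))
    (hp : ∀ p : Ideal A, p.IsPrime →
      (∀ k, ∃ ρ : R, ρ ≠ 0 ∧ algebraMap R A ρ ∈ p ⊔ I k) ∨
      Module.rank R (A ⧸ p) < Cardinal.aleph0 ∨
      ∃ n, 0 < n ∧ ∃ s ∈ F n, s ∈ I n ⊔ p ∧ s ∉ p) :
    ∃ c, ∀ k, Module.rank R (A ⧸ I k) ≤ Module.rank R (F (k + c)) := by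
  have main : ∀ a : Ideal A, ∃ c, ∀ k, JJ R I a k ≤ HH F a (k + c) := by
    intro a
    induction a using WellFoundedGT.induction with
    | ind a ih =>
    have hlt : ∀ f, f ∉ a → a < a ⊔ Ideal.span {f} := fun f hf =>
      lt_of_le_of_ne le_sup_left (fun h => hf (h ▸ Ideal.mem_sup_right
        (Ideal.mem_span_singleton_self f)))
    by_cases htop : a = ⊤
    · refine ⟨0, fun k => ?_⟩
      rw [JJ_eq_zero (by simp [htop])]
      exact zero_le
    by_cases hpr : a.IsPrime
    · rcases hp a hpr with h | h | ⟨n, hn, s, hs1, hs2, hs3⟩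
      · refine ⟨0, fun k => ?_⟩
        obtain ⟨ρ, h1, h2⟩ := h k
        have : JJ R I a k = 0 := by
          unfold JJ
          rw [rank_eq_zero_iff]
          intro x
          refine ⟨ρ, h1, ?_⟩
          obtain ⟨y, rfl⟩ := qmk_surj (R := R) _ x
          rw [← map_smul, qmk_eq_zero, Algebra.smul_def]
          exact Ideal.mul_mem_right _ _ h2
        rw [this]
        exact zero_le
      · obtain ⟨r, hr⟩ := Cardinal.lt_aleph0.mp h
        obtain ⟨v, hv⟩ := exists_linearIndependent_of_le_rank (R := R) (M := A ⧸ a) (n := r) hr.ge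
        choose y hy using fun i => qmk_surj (R := R) a (v i)
        choose d hd using fun i => hFex (y i)
        refine ⟨Finset.univ.sup d, fun k => ?_⟩
        have h1 : JJ R I a k ≤ r := by
          rw [← hr]
          refine LinearMap.rank_le_of_surjective (qfac R (le_sup_left : a ≤ a ⊔ I k)) ?_
          intro x
          obtain ⟨z, rfl⟩ := qmk_surj (R := R) _ x
          exact ⟨qmk R a z, rfl⟩
        refine h1.trans ?_
        have hmem : ∀ i, v i ∈
            LinearMap.range (qmk R a ∘ₗ (F (k + Finset.univ.sup d)).subtype) := fun i =>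
          ⟨⟨y i, hFmono ((Finset.le_sup (f := d) (Finset.mem_univ i)).trans (Nat.le_add_left _ _))
            (hd i)⟩, hy i⟩
        have h2 : LinearIndependent R (fun i => (⟨v i, hmem i⟩ :
            LinearMap.range (qmk R a ∘ₗ (F (k + Finset.univ.sup d)).subtype))) :=
          LinearIndependent.of_comp (Submodule.subtype _) hv
        have h3 := h2.cardinal_le_rank
        rw [Cardinal.mk_fin] at h3
        exact h3
      · obtain ⟨c, hc⟩ := ih _ (hlt s hs3)
        have hb : ∀ g, g ∈ a ↔ s * g ∈ a := fun g =>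
          ⟨fun h => Ideal.mul_mem_left _ _ h, fun h => (hpr.mem_or_mem h).resolve_left hs3⟩
        refine ⟨c + n, fun k => ?_⟩
        induction k using Nat.strong_induction_on with
        | _ k ihk =>
        refine (JJ_step hIanti hImul a a hs2 hb k).trans ?_
        rw [← add_assoc]
        refine le_trans (add_le_add ?_ ((hc k).trans (HH_mono hFmono _ (Nat.le_add_right _ _))))
          (HH_step hFmul a a hs1 hb (k + c))
        by_cases hk : k ≤ n
        · rw [JJ_eq_zero (by simp [Nat.sub_eq_zero_of_le hk, hI0])]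
          exact zero_le
        · exact (ihk (k - n) (by omega)).trans (HH_mono hFmono _ (by omega))
    · obtain ⟨f, hf, g, hg, hfg⟩ : ∃ f, f ∉ a ∧ ∃ g, g ∉ a ∧ f * g ∈ a := by
        rcases Ideal.not_isPrime_iff.mp hpr with h | ⟨f, hf, g, hg, hfg⟩
        · exact absurd h htop
        · exact ⟨f, hf, g, hg, hfg⟩
      let b : Ideal A := Submodule.comap (LinearMap.mulLeft A f) a
      have hb : ∀ x, x ∈ b ↔ f * x ∈ a := fun x => Iff.rfl
      have hab : a < b := lt_of_le_of_ne (fun x hx => (hb x).mpr (Ideal.mul_mem_left _ _ hx))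
        (fun h => hg (h ▸ (hb g).mpr hfg))
      obtain ⟨c1, hc1⟩ := ih _ hab
      obtain ⟨c2, hc2⟩ := ih _ (hlt f hf)
      obtain ⟨n, hn⟩ := hFex f
      refine ⟨c1 + c2 + n, fun k => ?_⟩
      refine (JJ_step (n := 0) hIanti hImul a b (f := f) (by simp [hI0]) hb k).trans ?_
      rw [← add_assoc]
      refine le_trans (add_le_add ?_ ?_) (HH_step hFmul a b hn hb (k + (c1 + c2)))
      · exact (hc1 _).trans (HH_mono hFmono _ (by omega))
      · exact (hc2 _).trans (HH_mono hFmono _ (by omega))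
  obtain ⟨c, hc⟩ := main ⊥
  refine ⟨c, fun k => ?_⟩
  have := hc k
  unfold JJ HH at this
  rw [bot_sup_eq] at this
  exact this.trans (rank_range_le _)

end Vale.Agent.P021
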