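import Vale.Agent.P021.Params

/-! The irrationality exponent of pi is 2. -/

namespace Vale.Agent.P021

lemma finite_bdd (B : ℕ) :
    {pq : ℤ × ℤ | 0 < pq.2 ∧ pq.2 ≤ B ∧ |Real.pi - (pq.1 : ℝ) / (pq.2 : ℝ)| < 1}.Finite := by
  refine ((Set.finite_Icc (0 : ℤ) (5 * B)).prod (Set.finite_Icc (0 : ℤ) B)).subset ?_
  rintro ⟨p, q⟩ ⟨h1, h2, h3⟩
  simp only at h1 h2 h3
  have hq : (0 : ℝ) < q := by exact_mod_cast h1
  have hB : (q : ℝ) ≤ B := by exact_mod_cast h2
  rw [abs_lt] at h3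
  have a := Real.pi_gt_three
  have b := Real.pi_lt_four
  have c1 : (0 : ℝ) < p / q := by linarith
  have c2 : (p : ℝ) / q < 5 := by linarith
  rw [div_lt_iff₀ hq] at c2
  have c3 : (0 : ℝ) < p := by
    have := mul_pos c1 hq
    rwa [div_mul_cancel₀ _ hq.ne'] at this
  refine ⟨⟨?_, ?_⟩, h1.le, h2⟩
  · exact_mod_cast c3.le
  · have : (p : ℝ) ≤ 5 * B := by linarith
    exact_mod_cast this

theorem main :
    IsGreatest {ν : ℝ | 0 < ν ∧ {pq : ℤ × ℤ | IsCoprime pq.1 pq.2 ∧ 2 ≤ pq.2 ∧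
        0 < |Real.pi - (pq.1 : ℝ) / (pq.2 : ℝ)| ∧
        |Real.pi - (pq.1 : ℝ) / (pq.2 : ℝ)| < (pq.2 : ℝ) ^ (-ν)}.Infinite} 2 := by
  constructor
  · refine ⟨two_pos, ?_⟩
    have hinf := Real.infinite_rat_abs_sub_lt_one_div_den_sq_of_irrational irrational_pi
    have hinj : Function.Injective (fun r : ℚ => (r.num, (r.den : ℤ))) := by
      intro r r' h
      simp only [Prod.mk.injEq, Nat.cast_inj] at h
      exact Rat.ext h.1 h.2
    refine (((hinf.image hinj.injOn).sdiff (finite_bdd 1))).mono ?_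
    rintro _ ⟨⟨r, hr, rfl⟩, hn⟩
    have hden : (0 : ℝ) < r.den := by exact_mod_cast r.den_pos
    have hcast : ((r.num : ℝ)) / (((r.den : ℤ) : ℝ)) = r := by
      rw [Rat.cast_def]; simp
    simp only [Set.mem_ofPred_eq, not_and, not_lt] at hr hn ⊢
    rw [hcast] at hn ⊢
    refine ⟨?_, ?_, ?_, ?_⟩
    · rw [Int.isCoprime_iff_gcd_eq_one]
      exact r.reduced
    · by_contra hc
      have h1 : r.den = 1 := by have := r.den_pos; omega
      have := hn (by exact_mod_cast r.den_pos) (by simp [h1])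
      rw [h1] at hr
      simp at hr
      linarith
    · exact abs_pos.mpr (sub_ne_zero.mpr (irrational_pi.ne_rat r))
    · refine hr.trans_le (le_of_eq ?_)
      rw [Real.rpow_neg (by positivity), one_div]
      norm_num
  · rintro ν ⟨hν0, hinf⟩
    by_contra hc
    push Not at hc
    apply no_good_approx ν hc
    intro B
    obtain ⟨⟨p, q⟩, ⟨-, h2, -, h4⟩, hn⟩ := (hinf.sdiff (finite_bdd B)).nonempty
    simp only [Set.mem_ofPred_eq, not_and, not_lt] at h2 h4 hn
    have hq1 : (1 : ℝ) ≤ q := by exact_mod_cast (show (1 : ℤ) ≤ q by omega)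
    have hle : (q : ℝ) ^ (-ν) ≤ 1 := Real.rpow_le_one_of_one_le_of_nonpos hq1 (by linarith)
    have hB : (B : ℤ) < q := by
      by_contra hB
      have := hn (by omega) (by omega)
      linarith
    lift q to ℕ using (by omega)
    exact ⟨p, q, by exact_mod_cast hB, by simpa using h4⟩

end Vale.Agent.P021
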