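import Vale.Agent.P021.Core

/-! Choice of the parameters. -/

namespace Vale.Agent.P021

open Nat Filter

lemma params_exist (ν : ℝ) (hν : 2 < ν) : ∃ s s1 θ v δ : ℝ, 0 < s ∧ s < s1 ∧ s1 < 1 ∧
    s1 ^ 2 < θ ∧ θ < v ∧ v < 1 ∧ 0 < δ ∧ δ ≤ 1 ∧ (ν - 1) * v + (1 + 4 * δ) ≤ ν * s := by
  have h1 : 0 < ν - 1 := by linarith
  have h0 : 0 < ν := by linarith
  set s := 2 / ν with hs
  set g := 1 / (ν - 1) - s ^ 2 with hg
  have hs0 : 0 < s := by positivity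
  have hνs : ν * s = 2 := by rw [hs]; field_simp
  have hg0 : 0 < g := by
    rw [hg, hs, div_pow, sub_pos, div_lt_div_iff₀ (by positivity) h1]
    nlinarith [sq_pos_of_pos (show 0 < ν - 2 by linarith)]
  have hlt : 1 / (ν - 1) < 1 := by rw [div_lt_one h1]; linarith
  have hsg : (ν - 1) * (s ^ 2 + g) = 1 := by rw [hg]; field_simp; ring
  have hsq : (√(s ^ 2 + g / 4)) ^ 2 = s ^ 2 + g / 4 := Real.sq_sqrt (by positivity)
  refine ⟨s, √(s ^ 2 + g / 4), s ^ 2 + g / 2, s ^ 2 + 3 * g / 4, min 1 ((ν - 1) * g / 16),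
    hs0, ?_, ?_, by rw [hsq]; linarith, by linarith, by linarith, by positivity, min_le_left _ _, ?_⟩
  · rw [Real.lt_sqrt hs0.le]; linarith
  · rw [Real.sqrt_lt' one_pos]; linarith
  · have := min_le_right 1 ((ν - 1) * g / 16)
    nlinarith

lemma ev_small {r c : ℝ} (h0 : 0 ≤ r) (h1 : r < 1) (hc : 0 < c) :
    ∀ᶠ m : ℕ in atTop, ((m : ℝ) + 1) * r ^ m < c := by
  have a := tendsto_self_mul_const_pow_of_lt_one h0 h1
  have b := tendsto_pow_atTop_nhds_zero_of_lt_one h0 h1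
  have := a.add b
  rw [add_zero] at this
  filter_upwards [this.eventually (gt_mem_nhds hc)] with m hm
  linarith

lemma approx_step (ν : ℝ) (hν : 2 < ν)
    (h : ∀ B : ℕ, ∃ (p : ℤ) (q : ℕ), B < q ∧ |Real.pi - p / q| < (q : ℝ) ^ (-ν)) (L : ℝ) :
    ∃ (p : ℤ) (q lam : ℕ), p ≠ 0 ∧ 0 < lam ∧ Real.exp lam ≤ q ∧ (q : ℝ) ≤ Real.exp (lam + 1) ∧
      |Real.pi - p / q| ≤ Real.exp (-(ν * lam)) ∧ L < lam := by
  obtain ⟨p, q, hq, hpq⟩ := h ⌈Real.exp (max L 1 + 1)⌉₊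
  have hq1 : Real.exp (max L 1 + 1) < q := Nat.lt_of_ceil_lt hq
  have hq0 : (0 : ℝ) < q := (Real.exp_pos _).trans hq1
  have hlog : max L 1 + 1 < Real.log q := (Real.lt_log_iff_exp_lt hq0).mpr hq1
  have hL := le_max_left L 1
  have hL1 := le_max_right L 1
  have f1 : (⌊Real.log q⌋₊ : ℝ) ≤ Real.log q := Nat.floor_le (by linarith)
  have f2 : Real.log q < ⌊Real.log q⌋₊ + 1 := Nat.lt_floor_add_one _
  have e1 : Real.exp ⌊Real.log q⌋₊ ≤ q := by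
    rw [← Real.le_log_iff_exp_le hq0]; exact f1
  have e2 : (q : ℝ) ^ (-ν) ≤ Real.exp (-(ν * ⌊Real.log q⌋₊)) := by
    rw [Real.rpow_def_of_pos hq0]
    apply Real.exp_le_exp.mpr
    nlinarith
  refine ⟨p, q, ⌊Real.log q⌋₊, ?_, ?_, e1, ?_, hpq.le.trans e2, by linarith⟩
  · rintro rfl
    have : Real.exp (-(ν * ⌊Real.log q⌋₊)) ≤ 1 := by
      rw [Real.exp_le_one_iff]
      have : (0 : ℝ) ≤ ⌊Real.log q⌋₊ := Nat.cast_nonneg _
      nlinarith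
    have h3 := Real.pi_gt_three
    simp only [Int.cast_zero, zero_div, sub_zero] at hpq
    rw [abs_of_pos Real.pi_pos] at hpq
    linarith
  · have : (0 : ℝ) < ⌊Real.log q⌋₊ := by linarith
    exact_mod_cast this
  · rw [← Real.log_le_iff_le_exp hq0]; exact f2.le

lemma lcm_le_exp (n : ℕ) : (Nat.lcmUpto n : ℝ) ≤ Real.exp (6 * n) := by
  have hpos : (0 : ℝ) < Nat.lcmUpto n := by exact_mod_cast Nat.lcmUpto_pos n
  rw [← Real.log_le_iff_le_exp hpos, ← Chebyshev.psi_eq_log_lcmUpto]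
  refine (Chebyshev.psi_le_const_mul_self (Nat.cast_nonneg n)).trans ?_
  apply mul_le_mul_of_nonneg_right _ (Nat.cast_nonneg n)
  have : Real.log 4 = 2 * Real.log 2 := by
    rw [show (4 : ℝ) = 2 ^ 2 by norm_num, Real.log_pow]; norm_num
  have := Real.log_two_lt_d9
  linarith

lemma hB_aux {δ K : ℝ} {l0 q lam : ℕ} (hδ : 0 < δ) (hl0 : 14 / δ ≤ l0) (hK : 0 ≤ K)
    (hq : (q : ℝ) ≤ Real.exp (lam + 1)) (hlam : 2 * (Real.exp 1 * (K + 1)) / δ ≤ lam) :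
    (q : ℝ) * (Nat.lcmUpto (lam / l0) : ℝ) * (K + (lam / l0 : ℕ) + 1) ≤
      Real.exp ((1 + δ) * lam) := by
  set ρ := lam / l0 with hρ
  have hl0pos : (0 : ℝ) < l0 := lt_of_lt_of_le (by positivity) hl0
  have hρ0 : (0 : ℝ) ≤ ρ := Nat.cast_nonneg _
  have hρ1 : (ρ : ℝ) ≤ lam / l0 := Nat.cast_div_le
  have hρ2 : 7 * (ρ : ℝ) ≤ δ * lam / 2 := by
    rw [le_div_iff₀ hl0pos] at hρ1
    rw [div_le_iff₀ hδ] at hl0
    nlinarith
  have h1 : K + ρ + 1 ≤ (K + 1) * Real.exp ρ := by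
    have := Real.add_one_le_exp (ρ : ℝ)
    nlinarith
  have h2 : Real.exp 1 * (K + 1) ≤ Real.exp (δ * lam / 2) := by
    have := Real.add_one_le_exp (δ * lam / 2)
    rw [div_le_iff₀ hδ] at hlam
    linarith
  calc (q : ℝ) * (Nat.lcmUpto ρ : ℝ) * (K + ρ + 1)
      ≤ Real.exp (lam + 1) * Real.exp (6 * ρ) * ((K + 1) * Real.exp ρ) := by
        gcongr
        exact lcm_le_exp ρ
    _ = Real.exp lam * (Real.exp 1 * (K + 1)) * Real.exp (7 * ρ) := by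
        rw [Real.exp_add, show (7 : ℝ) * ρ = 6 * ρ + ρ by ring, Real.exp_add]; ring
    _ ≤ Real.exp lam * Real.exp (δ * lam / 2) * Real.exp (δ * lam / 2) := by
        gcongr
    _ = Real.exp ((1 + δ) * lam) := by
        rw [← Real.exp_add, ← Real.exp_add]; congr 1; ring

lemma ev_exp (c δ : ℝ) (hδ : 0 < δ) (n : ℕ) :
    ∀ᶠ Y : ℕ in atTop, c * (Y : ℝ) ^ n ≤ Real.exp (δ * Y) := by
  have h1 : Tendsto (fun Y : ℕ => δ * (Y : ℝ)) atTop atTop :=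
    tendsto_natCast_atTop_atTop.const_mul_atTop hδ
  have h2 := (Real.tendsto_exp_div_pow_atTop n).comp h1
  filter_upwards [h2.eventually_ge_atTop (c / δ ^ n), eventually_ge_atTop 1] with Y hY hY1
  have hY0 : (0 : ℝ) < Y := by exact_mod_cast hY1
  simp only [Function.comp] at hY
  rw [le_div_iff₀ (by positivity)] at hY
  refine le_trans (le_of_eq ?_) hY
  rw [mul_pow]; field_simp

lemma ev_lin (c a : ℝ) (ha : 0 < a) : ∀ᶠ Y : ℕ in atTop, c ≤ a * (Y : ℝ) :=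
  (tendsto_natCast_atTop_atTop.const_mul_atTop ha).eventually_ge_atTop c

lemma approx_seq (ν : ℝ) (hν : 2 < ν)
    (h : ∀ B : ℕ, ∃ (p : ℤ) (q : ℕ), B < q ∧ |Real.pi - p / q| < (q : ℝ) ^ (-ν)) (L0 G : ℝ)
    (hL0 : 0 ≤ L0) (hG : 0 ≤ G) :
    ∃ (p : ℕ → ℤ) (q lam : ℕ → ℕ), (∀ j, p j ≠ 0 ∧ 0 < lam j ∧ Real.exp (lam j) ≤ q j ∧
      (q j : ℝ) ≤ Real.exp (lam j + 1) ∧ |Real.pi - p j / q j| ≤ Real.exp (-(ν * lam j)) ∧
      L0 < lam j) ∧ ∀ l i, l < i → G * lam l < lam i := by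
  choose P Q Λ hΛ using approx_step ν hν h
  let L : ℕ → ℝ := fun n => Nat.rec L0 (fun _ Ln => L0 + (G + 1) * Λ Ln) n
  have hL : ∀ n, L (n + 1) = L0 + (G + 1) * Λ (L n) := fun n => rfl
  have hL0' : ∀ n, L0 ≤ L n := by
    intro n
    cases n with
    | zero => exact le_rfl
    | succ n => rw [hL]; have : (0 : ℝ) ≤ (G + 1) * Λ (L n) := by positivity
                linarith
  have hstep : ∀ n, (G + 1) * Λ (L n) < Λ (L (n + 1)) := by
    intro n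
    have := (hΛ (L (n + 1))).2.2.2.2.2
    rw [hL] at this ⊢
    linarith
  have hmono : Monotone fun n => (Λ (L n) : ℝ) := by
    apply monotone_nat_of_le_succ
    intro n
    have := hstep n
    have h0 : (0 : ℝ) ≤ Λ (L n) := Nat.cast_nonneg _
    nlinarith
  refine ⟨fun n => P (L n), fun n => Q (L n), fun n => Λ (L n), fun j => ?_, fun l i hli => ?_⟩
  · obtain ⟨a1, a2, a3, a4, a5, a6⟩ := hΛ (L j)
    exact ⟨a1, a2, a3, a4, a5, (hL0' j).trans_lt a6⟩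
  · have a := hstep l
    have b : (Λ (L (l + 1)) : ℝ) ≤ Λ (L i) := hmono hli
    have h0 : (0 : ℝ) ≤ Λ (L l) := Nat.cast_nonneg _
    nlinarith

lemma gap_aux {m Y E a b : ℕ} {e : ℝ} (he : 0 < e) (hY : 0 < Y) (hE : e * Y ≤ E)
    (h : ((m + 1)! : ℝ) / e ^ (m + 1) * a < b) :
    (m + 1)! * Y ^ (m + 1) * a < E ^ (m + 1) * b := by
  have hY0 : (0 : ℝ) < Y := by exact_mod_cast hY
  have h1 : ((m + 1)! : ℝ) * a < e ^ (m + 1) * b := by
    rw [div_mul_eq_mul_div, div_lt_iff₀ (by positivity)] at h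
    linarith
  have h2 : (((m + 1)! : ℕ) : ℝ) * (Y : ℝ) ^ (m + 1) * a < (E : ℝ) ^ (m + 1) * b := by
    calc (((m + 1)! : ℕ) : ℝ) * (Y : ℝ) ^ (m + 1) * a
        = (((m + 1)! : ℕ) : ℝ) * a * (Y : ℝ) ^ (m + 1) := by ring
      _ < e ^ (m + 1) * b * (Y : ℝ) ^ (m + 1) := by gcongr
      _ = (e * Y) ^ (m + 1) * b := by rw [mul_pow]; ring
      _ ≤ (E : ℝ) ^ (m + 1) * b := by gcongr
  exact_mod_cast h2

theorem no_good_approx (ν : ℝ) (hν : 2 < ν)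
    (h : ∀ B : ℕ, ∃ (p : ℤ) (q : ℕ), B < q ∧ |Real.pi - p / q| < (q : ℝ) ^ (-ν)) : False := by
  obtain ⟨s, s1, θ, v, δ, hs0, hs1, hs11, hθ, hθv, hv1, hδ0, hδ1, hkey⟩ := params_exist ν hν
  have hs10 : 0 < s1 := hs0.trans hs1
  have hθ0 : 0 < θ := lt_of_le_of_lt (sq_nonneg _) hθ
  obtain ⟨l0, hl0⟩ := exists_nat_ge (14 / δ)
  have hl0r : (0 : ℝ) < l0 := lt_of_lt_of_le (by positivity) hl0
  have hl0n : 0 < l0 := by exact_mod_cast hl0r
  obtain ⟨A, hA⟩ : ∃ A, A = Real.exp (ν * l0) := ⟨_, rfl⟩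
  have hA0 : 0 < A := by rw [hA]; positivity
  have hvθ : 0 < v - θ := by linarith only [hθv]
  obtain ⟨m, hma, hmb, hmc⟩ :=
    ((ev_small hs10.le hs11 (c := δ ^ 2 / (128 * A)) (by positivity)).and
    ((ev_small hs10.le hs11 (c := δ * (v - θ) / (64 * l0)) (by positivity)).and
    (ev_small (r := s1 ^ 2 / θ) (by positivity) ((div_lt_one hθ0).mpr hθ)
      (c := δ ^ 3 * θ / (8192 * l0 * A)) (by positivity)))).exists
  have hsm : 0 < s1 ^ m := by positivity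
  have hm0 : (0 : ℝ) ≤ m := Nat.cast_nonneg _
  obtain ⟨d, hd⟩ : ∃ d, d = 8 * s1 ^ m / δ := ⟨_, rfl⟩
  have hd0 : 0 < d := by rw [hd]; positivity
  have hdδ : δ * d = 8 * s1 ^ m := by rw [hd]; field_simp
  obtain ⟨y, hy⟩ : ∃ y, y = δ / (16 * d * A) := ⟨_, rfl⟩
  have hyd : 16 * d * A * y = δ := by rw [hy]; field_simp
  have hy1 : 1 ≤ y := by
    rw [hy, le_div_iff₀ (by positivity), hd]
    rw [lt_div_iff₀ (by positivity)] at hma
    rw [one_mul, show 16 * (8 * s1 ^ m / δ) * A = (128 * s1 ^ m * A) / δ by ring,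
      div_le_iff₀ hδ0]
    linarith only [hma, mul_nonneg hm0 (mul_pos hsm hA0).le]
  obtain ⟨e, he⟩ : ∃ e, e = (v - θ) / (2 * (m + 1)) := ⟨_, rfl⟩
  have he0 : 0 < e := by rw [he]; positivity
  have hem : ((m : ℝ) + 1) * e = (v - θ) / 2 := by rw [he]; field_simp
  have he1 : e ≤ 1 := by linarith only [mul_nonneg hm0 he0.le, hem, hv1, hθ0]
  have hde : 4 * l0 * d < e := by
    rw [lt_div_iff₀ (by positivity)] at hmb
    rw [he, lt_div_iff₀ (by positivity), hd,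
      show 4 * (l0 : ℝ) * (8 * s1 ^ m / δ) * (2 * (m + 1)) =
        (((m : ℝ) + 1) * s1 ^ m * (64 * l0)) / δ by ring, div_lt_iff₀ hδ0]
    linarith only [hmb]
  obtain ⟨N, hN⟩ : ∃ N, N = ⌊y⌋₊ := ⟨_, rfl⟩
  have hN1 : (N : ℝ) ≤ y := by rw [hN]; exact Nat.floor_le (by linarith only [hy1])
  have hN0 : 0 < N := by rw [hN]; exact Nat.floor_pos.mpr hy1
  have hN2 : y ≤ 2 * N := by
    have a : y < N + 1 := by rw [hN]; exact Nat.lt_floor_add_one _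
    have b : (1 : ℝ) ≤ N := by exact_mod_cast hN0
    linarith only [a, b]
  obtain ⟨K, hK⟩ : ∃ K : ℝ, K = 8 * N * A + (2 * N + 3) := ⟨_, rfl⟩
  have hK0 : 0 ≤ K := by rw [hK]; positivity
  obtain ⟨G, hG⟩ : ∃ G : ℝ, G = ((m + 1)! : ℝ) / e ^ (m + 1) := ⟨_, rfl⟩
  have hG0 : 0 ≤ G := by rw [hG]; positivity
  obtain ⟨p, q, lam, hpq, hgap⟩ := approx_seq ν hν h
    (2 * (Real.exp 1 * (K + 1)) / δ + G * (2 * l0)) G (by positivity) hG0
  obtain ⟨S, hS⟩ : ∃ S : ℕ, S = ∑ j : Fin m, lam j := ⟨_, rfl⟩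
  obtain ⟨Y, hY1, hY2, hY3, hY4, hY5, hY6⟩ :=
    ((ev_exp ((2 * d + 1) * 2 ^ m) δ hδ0 (m + 1)).and
    ((ev_lin 1 d hd0).and ((ev_lin (1 + l0 + S) (s1 - s) (by linarith only [hs1])).and
    ((ev_lin (m + 2) ((v - θ) / 2) (by linarith only [hvθ])).and
    ((eventually_ge_atTop (2 * l0)).and (eventually_ge_atTop S)))))).exists
  have hY0 : 0 < Y := by omega
  have hYr : (1 : ℝ) ≤ Y := by exact_mod_cast hY0
  have hYp : (0 : ℝ) < Y := by linarith only [hYr]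
  have hD1 : d * Y ≤ ⌈d * Y⌉₊ := Nat.le_ceil _
  have hD2 : (⌈d * Y⌉₊ : ℝ) ≤ 2 * d * Y := by
    have := Nat.ceil_lt_add_one (show 0 ≤ d * Y by positivity)
    linarith only [this, hY2]
  have hσ1 : s * Y ≤ ⌈s * Y⌉₊ := Nat.le_ceil _
  have hσ2 := Nat.ceil_lt_add_one (show 0 ≤ s * Y by positivity)
  have hΘ1 : θ * Y ≤ ⌈θ * Y⌉₊ := Nat.le_ceil _
  have hΘ2 := Nat.ceil_lt_add_one (show 0 ≤ θ * Y by positivity)
  have hE1 : e * Y ≤ ⌈e * Y⌉₊ := Nat.le_ceil _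
  have hE2 := Nat.ceil_lt_add_one (show 0 ≤ e * Y by positivity)
  have hV1 : (⌊v * Y⌋₊ : ℝ) ≤ v * Y := Nat.floor_le (mul_pos (hθ0.trans hθv) hYp).le
  have hlamS : ∀ j : Fin m, lam j ≤ S := fun j => by
    rw [hS]
    exact Finset.single_le_sum (f := fun j : Fin m => lam j) (fun _ _ => Nat.zero_le _)
      (Finset.mem_univ j)
  have hcore := core (m := m) N ν δ hν.le hδ0 hδ1 hN0 l0 hl0n (fun j => p j) (fun j => q j)
    (fun j => lam j) (fun j => (hpq j).1) (fun j => (hpq j).2.1) (fun j => (hpq j).2.2.1)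
    (fun j => (hpq j).2.2.2.2.1)
    (fun j => by
      rw [← hA, ← hK]
      refine hB_aux hδ0 hl0 hK0 (hpq j).2.2.2.1 ?_
      have a := (hpq j).2.2.2.2.2
      have b : 0 ≤ G * (2 * l0) := by positivity
      linarith only [a, b])
    Y ⌈d * Y⌉₊ ⌈s * Y⌉₊ ⌊v * Y⌋₊ ⌈θ * Y⌉₊ ⌈e * Y⌉₊
    (Nat.ceil_pos.mpr (by positivity)) hY0
    (by
      have a : (ν - 1) * (⌊v * Y⌋₊ : ℝ) ≤ (ν - 1) * (v * Y) :=
        mul_le_mul_of_nonneg_left hV1 (by linarith only [hν])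
      have b : ν * (s * Y) ≤ ν * ⌈s * Y⌉₊ := mul_le_mul_of_nonneg_left hσ1 (by linarith only [hν])
      have c := mul_le_mul_of_nonneg_right hkey hYp.le
      linarith only [a, b, c])
    (by
      have a := cnt_upper (fun j : Fin m => lam j) (fun j => (hpq j).2.1) Y
      rw [Fintype.card_fin, ← hS] at a
      have b : 0 < m ! * ∏ j : Fin m, lam j :=
        Nat.mul_pos (Nat.factorial_pos m) (Finset.prod_pos fun j _ => (hpq j).2.1)
      have c : cntLe (fun j : Fin m => lam j) Y ≤ (2 * Y) ^ m :=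
        (Nat.le_mul_of_pos_left _ b).trans (a.trans (Nat.pow_le_pow_left (by omega) m))
      have c' : (cntLe (fun j : Fin m => lam j) Y : ℝ) ≤ (2 * Y) ^ m := by exact_mod_cast c
      refine le_trans ?_ hY1
      push_cast
      calc ((⌈d * Y⌉₊ : ℝ) + 1) * (cntLe (fun j : Fin m => lam j) Y : ℝ)
          ≤ ((2 * d + 1) * Y) * (2 * Y) ^ m := by
            gcongr
            linarith only [hD2, hYr]
        _ = (2 * d + 1) * 2 ^ m * (Y : ℝ) ^ (m + 1) := by rw [mul_pow]; ring)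
    (by
      rw [← hA]
      calc (⌈d * Y⌉₊ : ℝ) * (8 * N * A) ≤ (2 * d * Y) * (8 * y * A) := by gcongr
        _ = (16 * d * A * y) * Y := by ring
        _ = δ * Y := by rw [hyd])
    (by
      rw [← hS]
      have a : ((⌈s * Y⌉₊ + l0 + S : ℕ) : ℝ) ≤ s1 * Y := by
        push_cast
        linarith only [hσ2, hY3]
      calc 8 * ((⌈s * Y⌉₊ + l0 + S : ℕ) : ℝ) ^ (m + 1) ≤ 8 * (s1 * Y) ^ (m + 1) := by gcongr
        _ = (8 * s1 ^ m) * (s1 * Y) * (Y : ℝ) ^ m := by rw [pow_succ, mul_pow]; ring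
        _ ≤ (8 * s1 ^ m) * (1 * Y) * (Y : ℝ) ^ m := by gcongr
        _ = δ * (d * Y) * (Y : ℝ) ^ m := by rw [← hdδ]; ring
        _ ≤ δ * ⌈d * Y⌉₊ * (Y : ℝ) ^ m := by gcongr)
    (Nat.ceil_pos.mpr (by positivity)) hY5 (fun j => (hlamS j).trans hY6)
    (Nat.ceil_le.mpr (mul_le_of_le_one_left hYp.le he1))
    (by
      have a : ((2 * l0 * ⌈d * Y⌉₊ : ℕ) : ℝ) < ⌈e * Y⌉₊ := by
        push_cast
        calc 2 * (l0 : ℝ) * ⌈d * Y⌉₊ ≤ 2 * l0 * (2 * d * Y) := by gcongr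
          _ = (4 * l0 * d) * Y := by ring
          _ < e * Y := by gcongr
          _ ≤ _ := hE1
      exact_mod_cast a)
    (fun j => gap_aux he0 hY0 hE1 (by
      rw [← hG]
      have a := (hpq j).2.2.2.2.2
      have b : 0 ≤ 2 * (Real.exp 1 * (K + 1)) / δ := by positivity
      push_cast
      linarith only [a, b]))
    (fun l i hli => gap_aux he0 hY0 hE1 (by rw [← hG]; exact hgap l i hli))
    (Nat.ceil_le.mpr (mul_le_of_le_one_left hYp.le (hθv.trans hv1).le))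
    (by
      apply Nat.le_floor
      push_cast
      have a : ((m : ℝ) + 1) * ⌈e * Y⌉₊ ≤ (m + 1) * (e * Y + 1) := by gcongr
      have b : ((m : ℝ) + 1) * (e * Y + 1) = (v - θ) / 2 * Y + (m + 1) := by
        rw [← hem]; ring
      linarith only [a, b, hΘ2, hY4])
  have hcr : (N : ℝ) * (⌈θ * Y⌉₊ : ℝ) ^ (m + 1) ≤
      (m + 1) * (2 * l0) * ⌈d * Y⌉₊ * (Y : ℝ) ^ m := by exact_mod_cast hcore
  have h1 : y / 2 * θ ^ (m + 1) * (Y : ℝ) ^ (m + 1) ≤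
      4 * (m + 1) * l0 * d * (Y : ℝ) ^ (m + 1) := by
    calc y / 2 * θ ^ (m + 1) * (Y : ℝ) ^ (m + 1) = y / 2 * (θ * Y) ^ (m + 1) := by
          rw [mul_pow]; ring
      _ ≤ (N : ℝ) * (⌈θ * Y⌉₊ : ℝ) ^ (m + 1) := by
          gcongr
          linarith only [hN2]
      _ ≤ (m + 1) * (2 * l0) * ⌈d * Y⌉₊ * (Y : ℝ) ^ m := hcr
      _ ≤ (m + 1) * (2 * l0) * (2 * d * Y) * (Y : ℝ) ^ m := by gcongr
      _ = 4 * (m + 1) * l0 * d * (Y : ℝ) ^ (m + 1) := by ring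
  have h2 : y / 2 * θ ^ (m + 1) ≤ 4 * (m + 1) * l0 * d :=
    le_of_mul_le_mul_right h1 (by positivity)
  have h3 : δ ^ 3 * θ ^ (m + 1) ≤ 8192 * (m + 1) * l0 * A * (s1 ^ m) ^ 2 := by
    have a := mul_le_mul_of_nonneg_left h2 (show 0 ≤ 32 * d * A * δ ^ 2 by positivity)
    calc δ ^ 3 * θ ^ (m + 1) = (16 * d * A * y) * δ ^ 2 * θ ^ (m + 1) := by rw [hyd]; ring
      _ = 32 * d * A * δ ^ 2 * (y / 2 * θ ^ (m + 1)) := by ring
      _ ≤ 32 * d * A * δ ^ 2 * (4 * (m + 1) * l0 * d) := a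
      _ = 128 * (m + 1) * l0 * A * (δ * d) ^ 2 := by ring
      _ = 8192 * (m + 1) * l0 * A * (s1 ^ m) ^ 2 := by rw [hdδ]; ring
  rw [div_pow, ← mul_div_assoc, div_lt_div_iff₀ (by positivity) (by positivity)] at hmc
  have h4 : (s1 ^ 2) ^ m = (s1 ^ m) ^ 2 := by rw [← pow_mul, ← pow_mul, mul_comm]
  rw [h4] at hmc
  rw [pow_succ θ m] at h3
  linarith only [h3, hmc]

end Vale.Agent.P021
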