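import Vale.Agent.P021.Bezout

/-! The product-theorem step of the zero estimate. -/

namespace Vale.Agent.P021

open MvPolynomial Nat

section MinElem

variable {n : ℕ}

/-- `g` has the least leading monomial among the nonzero elements of `q` supported on `S` -/
def IsMin (q : Ideal (MvPolynomial (Fin n) ℂ)) (S : Set (Fin n)) (g : MvPolynomial (Fin n) ℂ) :
    Prop :=
  g ∈ q ∧ g ∈ supported ℂ S ∧ g ≠ 0 ∧ ∀ h ∈ q, h ∈ supported ℂ S →
    (∀ s ∈ h.support, MonomialOrder.lex.toSyn s <
      MonomialOrder.lex.toSyn (MonomialOrder.lex.degree g)) → h = 0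

lemma exists_isMin {q : Ideal (MvPolynomial (Fin n) ℂ)} {S : Set (Fin n)} (h : ¬ Indep q S) :
    ∃ g, IsMin q S g := by
  unfold Indep at h
  push Not at h
  obtain ⟨g0, h1, h2, h3⟩ := h
  obtain ⟨g, hg, hmin⟩ := (InvImage.wf (fun g : MvPolynomial (Fin n) ℂ =>
    MonomialOrder.lex.toSyn (MonomialOrder.lex.degree g)) wellFounded_lt).has_min
    {g | g ∈ q ∧ g ∈ supported ℂ S ∧ g ≠ 0} ⟨g0, h1, h2, h3⟩
  refine ⟨g, hg.1, hg.2.1, hg.2.2, fun h hq hS hlt => ?_⟩
  by_contra hne
  exact hmin h ⟨hq, hS, hne⟩ (hlt _ (MonomialOrder.degree_mem_support hne))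

lemma mem_support_of_pderiv {i : Fin n} {g : MvPolynomial (Fin n) ℂ} {s : Fin n →₀ ℕ}
    (hs : s ∈ (pderiv i g).support) : s + Finsupp.single i 1 ∈ g.support := by
  rw [mem_support_iff, coeff_pderiv] at hs
  exact mem_support_iff.2 (left_ne_zero_of_mul hs)

lemma supp_of_add_single {S : Set (Fin n)} {g : MvPolynomial (Fin n) ℂ} (hg : g ∈ supported ℂ S)
    {s : Fin n →₀ ℕ} {i : Fin n} (hs : s + Finsupp.single i 1 ∈ g.support) (j : Fin n)
    (hj : s j ≠ 0) : j ∈ S := by
  refine mem_supported_iff.1 hg _ hs j ?_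
  rw [Finsupp.add_apply]
  omega

lemma lt_of_add_single {g : MvPolynomial (Fin n) ℂ} {s : Fin n →₀ ℕ} {i : Fin n}
    (hs : s + Finsupp.single i 1 ∈ g.support) :
    MonomialOrder.lex.toSyn s < MonomialOrder.lex.toSyn (MonomialOrder.lex.degree g) := by
  refine lt_of_lt_of_le (MonomialOrder.lex.toSyn_strictMono ?_) (MonomialOrder.le_degree hs)
  refine lt_add_of_pos_right _ ?_
  rw [pos_iff_ne_zero]
  simp

lemma IsMin.pderiv_eq_zero {q : Ideal (MvPolynomial (Fin n) ℂ)} {S : Set (Fin n)}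
    {g : MvPolynomial (Fin n) ℂ} (hg : IsMin q S g) {i : Fin n} (h : pderiv i g ∈ q) :
    pderiv i g = 0 :=
  hg.2.2.2 _ h (mem_supported_iff.2 fun _ hs j hj =>
    supp_of_add_single hg.2.1 (mem_support_of_pderiv hs) j hj)
    fun _ hs => lt_of_add_single (mem_support_of_pderiv hs)

lemma exp_eq_zero_of_pderiv {i : Fin n} {g : MvPolynomial (Fin n) ℂ} (h : pderiv i g = 0)
    {s : Fin n →₀ ℕ} (hs : s ∈ g.support) : s i = 0 := by
  by_contra hne
  have h1 : s - Finsupp.single i 1 + Finsupp.single i 1 = s := by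
    refine tsub_add_cancel_of_le ?_
    rw [Finsupp.single_le_iff]
    omega
  have h2 := coeff_pderiv (i := i) g (s - Finsupp.single i 1)
  rw [h, h1, coeff_zero] at h2
  rcases mul_eq_zero.1 h2.symm with h3 | h3
  · exact mem_support_iff.1 hs h3
  · exact Nat.cast_add_one_ne_zero _ h3

lemma pderiv_eq_zero_of_supported {S : Set (Fin n)} {g : MvPolynomial (Fin n) ℂ}
    (hg : g ∈ supported ℂ S) {i : Fin n} (hi : i ∉ S) : pderiv i g = 0 :=
  pderiv_eq_zero_of_notMem_vars fun h => hi (mem_supported.1 hg (Finset.mem_coe.2 h))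

lemma IsMin.pderiv_notMem {q : Ideal (MvPolynomial (Fin n) ℂ)} {S : Set (Fin n)} {i : Fin n}
    {g : MvPolynomial (Fin n) ℂ} (hg : IsMin q (insert i S) g) (hS : Indep q S) :
    pderiv i g ∉ q := by
  intro h
  have h0 := hg.pderiv_eq_zero h
  refine hg.2.2.1 (hS g hg.1 (mem_supported_iff.2 fun s hs j hj => ?_))
  rcases mem_supported_iff.1 hg.2.1 s hs j hj with rfl | h1
  · exact absurd (exp_eq_zero_of_pderiv h0 hs) hj
  · exact h1

lemma coeff_X_mul_pderiv (i : Fin n) (g : MvPolynomial (Fin n) ℂ) (s : Fin n →₀ ℕ) :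
    coeff s (X i * pderiv i g) = (s i : ℂ) * coeff s g := by
  classical
  rw [coeff_X_mul']
  split_ifs with h
  · have hne := Finsupp.mem_support_iff.1 h
    have h1 : s - Finsupp.single i 1 + Finsupp.single i 1 = s := by
      refine tsub_add_cancel_of_le ?_
      rw [Finsupp.single_le_iff]
      omega
    rw [coeff_pderiv, h1, mul_comm]
    congr 1
    have : (s - Finsupp.single i 1 : Fin n →₀ ℕ) i + 1 = s i := by
      simp only [Finsupp.coe_tsub, Pi.sub_apply, Finsupp.single_eq_same]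
      omega
    exact_mod_cast this
  · have : s i = 0 := by simpa using h
    simp [this]

lemma X_sub_mem_of_univariate {q : Ideal (MvPolynomial (Fin n) ℂ)} (hq : q.IsPrime)
    (pt : Fin n → ℂ) (hpt : ∀ f ∈ q, eval pt f = 0) {i : Fin n} (h : ¬ Indep q {i}) :
    (X i - C (pt i) : MvPolynomial (Fin n) ℂ) ∈ q := by
  unfold Indep at h
  push Not at h
  obtain ⟨g, hgq, hgs, hg0⟩ := h
  rw [supported_eq_adjoin_X, Set.image_singleton, Algebra.adjoin_singleton_eq_range_aeval] at hgs
  obtain ⟨p, hp⟩ := hgs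
  have hp' : Polynomial.aeval (X i) p = g := hp
  have hp0 : p ≠ 0 := by
    rintro rfl
    exact hg0 (by simpa using hp'.symm)
  obtain ⟨p1, h1, h2⟩ := p.exists_eq_pow_rootMultiplicity_mul_and_not_dvd hp0 (pt i)
  rw [h1, map_mul, map_pow, map_sub, Polynomial.aeval_X, Polynomial.aeval_C, algebraMap_eq] at hp'
  rw [← hp'] at hgq
  rcases hq.mem_or_mem hgq with h3 | h3
  · exact hq.mem_of_pow_mem _ h3
  · have := hpt _ h3
    rw [eval_aeval_poly, eval_X] at this
    exact absurd (Polynomial.dvd_iff_isRoot.2 this) h2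

end MinElem

variable {m : ℕ}

lemma euler_contra (κ : Fin m → ℂ) (hκ : ∀ j, κ j ≠ 0) {q : Ideal (PR m)}
    {S : Set (Fin (m + 1))} {g : PR m} (hg : IsMin q S g) (j0 : Fin m)
    (h1 : pderiv j0.succ g ≠ 0) (h2 : ∀ j : Fin m, j ≠ j0 → pderiv j.succ g = 0)
    (h3 : dd κ 0 g ∈ q) : False := by
  classical
  set c : ℕ := MonomialOrder.lex.degree g 0 with hc
  have hco : ∀ s, coeff s (dd κ 0 g - C (c : ℂ) * g) = ((s 0 : ℂ) - c) * coeff s g +
      κ j0 * (coeff (s + Finsupp.single j0.succ 1) g * (s j0.succ + 1)) := by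
    intro s
    rw [dd_zero, Finset.sum_eq_single j0 (fun j _ hj => by simp [h2 j hj]) (by simp),
      coeff_sub, coeff_add, coeff_X_mul_pderiv, coeff_C_mul, coeff_C_mul, coeff_pderiv]
    ring
  have hsupp : ∀ s ∈ (dd κ 0 g - C (c : ℂ) * g).support,
      (s ∈ g.support ∧ s 0 ≠ c) ∨ s + Finsupp.single j0.succ 1 ∈ g.support := by
    intro s hs
    rw [mem_support_iff, hco] at hs
    by_contra hcon
    push Not at hcon
    apply hs
    rw [notMem_support_iff.1 hcon.2]
    by_cases h4 : s ∈ g.support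
    · simp [hcon.1 h4]
    · simp [notMem_support_iff.1 h4]
  have h0 : dd κ 0 g - C (c : ℂ) * g = 0 := by
    refine hg.2.2.2 _ (q.sub_mem h3 (q.mul_mem_left _ hg.1))
      (mem_supported_iff.2 fun s hs j hj => ?_) fun s hs => ?_
    · rcases hsupp s hs with h | h
      · exact mem_supported_iff.1 hg.2.1 s h.1 j hj
      · exact supp_of_add_single hg.2.1 h j hj
    · rcases hsupp s hs with h | h
      · refine lt_of_le_of_ne (MonomialOrder.le_degree h.1) fun h4 => h.2 ?_
        rw [MonomialOrder.lex.toSyn.injective h4]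
      · exact lt_of_add_single h
  obtain ⟨s1, hs1⟩ := support_nonempty.2 h1
  obtain ⟨μ, hμ, hmax⟩ := g.support.exists_max_image (fun s => s j0.succ)
    ⟨_, mem_support_of_pderiv hs1⟩
  have hb : μ j0.succ ≠ 0 := by
    have := hmax _ (mem_support_of_pderiv hs1)
    simp only [Finsupp.coe_add, Pi.add_apply, Finsupp.single_eq_same] at this
    omega
  have hμ0 : coeff μ g ≠ 0 := mem_support_iff.1 hμ
  have e1 := hco μ
  have hz : coeff (μ + Finsupp.single j0.succ 1) g = 0 := by
    by_contra h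
    have := hmax _ (mem_support_iff.2 h)
    simp only [Finsupp.coe_add, Pi.add_apply, Finsupp.single_eq_same] at this
    omega
  rw [h0, hz, coeff_zero, zero_mul, mul_zero, add_zero] at e1
  have e2 : (μ 0 : ℂ) - c = 0 := (mul_eq_zero.1 e1.symm).resolve_right hμ0
  have h4 : μ - Finsupp.single j0.succ 1 + Finsupp.single j0.succ 1 = μ := by
    refine tsub_add_cancel_of_le ?_
    rw [Finsupp.single_le_iff]
    omega
  have e3 := hco (μ - Finsupp.single j0.succ 1)
  have h5 : (μ - Finsupp.single j0.succ 1 : Fin (m + 1) →₀ ℕ) 0 = μ 0 := by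
    simp [Fin.succ_ne_zero]
  rw [h0, h4, h5, e2, coeff_zero, zero_mul, zero_add] at e3
  rcases mul_eq_zero.1 e3.symm with h | h
  · exact hκ j0 h
  rcases mul_eq_zero.1 h with h | h
  · exact hμ0 h
  · exact Nat.cast_add_one_ne_zero _ h

/-- a transversal family for the complement of a maximal independent set -/
lemma exists_family (κ : Fin m → ℂ) {q : Ideal (PR m)} (hq : q.IsPrime) {I : Set (Fin (m + 1))}
    (h0 : 0 ∉ I → (X 0 - 1 : PR m) ∈ q) (g : Fin (m + 1) → PR m)
    (hg : ∀ i, i ∉ I → i ≠ 0 → g i ∈ q ∧ g i ∈ supported ℂ (insert i I)) :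
    ∃ f : Fin (m + 1) → PR m, (∀ i, i ∉ I → f i ∈ q) ∧
      (∀ i j, i ∉ I → j ∉ I → j ≠ i → dd κ j (f i) ∈ q) ∧
      (∀ i l, i ∉ I → i ≠ 0 → (l ∈ I ∨ l = i) → dd κ l (f i) - dd κ l (g i) ∈ q) ∧
      (0 ∉ I → dd κ 0 (f 0) ∉ q) := by
  classical
  have hz : ∀ i j, i ∉ I → i ≠ 0 → j ∉ I → j ≠ i → j ≠ 0 → dd κ j (g i) = 0 := by
    intro i j hi hi0 hj hji hj0
    obtain ⟨j, rfl⟩ := Fin.exists_succ_eq.2 hj0
    rw [dd_succ]
    refine pderiv_eq_zero_of_supported (hg i hi hi0).2 ?_
    rintro (h | h)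
    · exact hji h
    · exact hj h
  by_cases hI : (0 : Fin (m + 1)) ∈ I
  · have hne : ∀ i, i ∉ I → i ≠ 0 := fun i hi h => hi (h ▸ hI)
    refine ⟨g, fun i hi => (hg i hi (hne i hi)).1, fun i j hi hj hji => ?_,
      fun i l _ _ _ => by simp, fun h => absurd hI h⟩
    rw [hz i j hi (hne i hi) hj hji (hne j hj)]
    exact q.zero_mem
  · have ht := h0 hI
    have hd : ∀ i (l : Fin m), dd κ l.succ (g i - dd κ 0 (g i) * (X 0 - 1)) -
        dd κ l.succ (g i) ∈ q := by
      intro i l
      rw [map_sub, Derivation.leibniz, map_sub, dd_succ_X_zero, Derivation.map_one_eq_zero]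
      simp only [sub_self, smul_eq_mul, mul_zero, zero_add, sub_sub_cancel_left, neg_mem_iff]
      exact q.mul_mem_right _ ht
    refine ⟨fun i => if i = 0 then X 0 - 1 else g i - dd κ 0 (g i) * (X 0 - 1),
      fun i hi => ?_, fun i j hi hj hji => ?_, fun i l hi hi0 hl => ?_, fun _ => ?_⟩
    · by_cases hi0 : i = 0
      · simpa [hi0] using ht
      · simp only [hi0, if_false]
        exact q.sub_mem (hg i hi hi0).1 (q.mul_mem_left _ ht)
    · by_cases hi0 : i = 0
      · subst hi0
        obtain ⟨j, rfl⟩ := Fin.exists_succ_eq.2 hji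
        simp [dd_succ_X_zero]
      · simp only [hi0, if_false]
        by_cases hj0 : j = 0
        · subst hj0
          rw [map_sub, Derivation.leibniz, map_sub, dd_zero_X_zero, Derivation.map_one_eq_zero]
          have : dd κ 0 (g i) - (dd κ 0 (g i) • (X 0 - 0 : PR m) +
              (X 0 - 1 : PR m) • dd κ 0 (dd κ 0 (g i))) =
              (X 0 - 1) * (-(dd κ 0 (g i)) - dd κ 0 (dd κ 0 (g i))) := by
            simp only [smul_eq_mul]
            ring
          rw [this]
          exact q.mul_mem_right _ ht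
        · have h1 := hz i j hi hi0 hj hji hj0
          obtain ⟨j, rfl⟩ := Fin.exists_succ_eq.2 hj0
          have h2 := hd i j
          rwa [h1, sub_zero] at h2
    · simp only [hi0, if_false]
      have hl0 : l ≠ 0 := by
        rcases hl with hl | hl
        · exact fun h => hI (h ▸ hl)
        · exact hl ▸ hi0
      obtain ⟨l, rfl⟩ := Fin.exists_succ_eq.2 hl0
      exact hd i l
    · simp only [if_true, map_sub, dd_zero_X_zero, Derivation.map_one_eq_zero, sub_zero]
      intro h
      refine hq.ne_top ((Ideal.eq_top_iff_one q).2 ?_)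
      simpa using q.sub_mem h ht

theorem product_lemma (κ : Fin m → ℂ) (hκ : ∀ j, κ j ≠ 0)
    (ω : Fin (m + 1) → ℕ) (hω : ∀ i, 0 < ω i) (Y D E : ℕ) (hD : 0 < D) (hωY : ∀ i, ω i ≤ Y)
    (hEY : E ≤ Y) (hDE : ω 0 * D < E)
    (hgap : ∀ l i, l < i → (m + 1)! * Y ^ (m + 1) * ω l < E ^ (m + 1) * ω i)
    (q : Ideal (PR m)) (hq : q.IsPrime) (c : Fin m → ℂ) (hqc : q ≤ ptIdeal c) (hne : q ≠ ⊥)
    (G : Set (PR m))
    (hGdeg : ∀ g ∈ G, degreeOf 0 g ≤ D ∧ ∀ j : Fin m, ω j.succ * degreeOf j.succ g ≤ Y)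
    (hGvan : ∀ g ∈ G, g ∈ dfil (dd κ) ω q E)
    (hmin : ∀ p : Ideal (PR m), p.IsPrime → p < q → ∃ g ∈ G, g ∉ p) :
    (X 0 - 1 : PR m) ∈ q ∧ ∃ j : Fin m, (X j.succ - C (c j) : PR m) ∈ q := by
  classical
  have hE : 0 < E := lt_of_le_of_lt (Nat.zero_le _) hDE
  set T : Fin (m + 1) → ℕ := Fin.cons D fun j => Y / ω j.succ with hTdef
  have hT : ∀ i, 0 < T i := by
    intro i
    refine Fin.cases ?_ (fun j => ?_) i
    · simpa [hTdef] using hD
    · simpa [hTdef] using Nat.div_pos (hωY j.succ) (hω j.succ)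
  have hωT : ∀ i, ω i * T i ≤ Y := by
    intro i
    refine Fin.cases ?_ (fun j => ?_) i
    · simpa [hTdef] using hDE.le.trans hEY
    · simpa [hTdef] using Nat.mul_div_le Y (ω j.succ)
  have hGT : ∀ g ∈ G, ∀ i, degreeOf i g ≤ T i := by
    intro g hg i
    refine Fin.cases ?_ (fun j => ?_) i
    · simpa [hTdef] using (hGdeg g hg).1
    · have := (hGdeg g hg).2 j
      simp only [hTdef, Fin.cons_succ]
      rw [Nat.le_div_iff_mul_le (hω j.succ), mul_comm]
      exact this
  have hpt : ∀ f ∈ q, eval (Fin.cons 1 c : Fin (m + 1) → ℂ) f = 0 :=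
    fun f hf => (mem_ptIdeal c f).1 (hqc hf)
  have ht0 : (X 0 - 1 : PR m) ≠ 0 := by
    intro h
    have := congrArg (eval (fun _ => (0 : ℂ))) h
    simp at this
  have hts : (X 0 - 1 : PR m) ∈ supported ℂ ({0} : Set (Fin (m + 1))) :=
    Subalgebra.sub_mem _ (X_mem_supported.2 rfl) (Subalgebra.one_mem _)
  -- generic choice of the minimal relations
  have hrel : ∀ I : Set (Fin (m + 1)), Indep q I → (∀ i, i ∉ I → ¬ Indep q (insert i I)) →
      ∃ g : Fin (m + 1) → PR m, ∀ i, i ∉ I → i ≠ 0 →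
        (g i ∈ q ∧ g i ∈ supported ℂ (insert i I)) ∧ dd κ i (g i) ∉ q := by
    intro I hI hmax
    have : ∀ i, ∃ g : PR m, i ∉ I → i ≠ 0 →
        (g ∈ q ∧ g ∈ supported ℂ (insert i I)) ∧ dd κ i g ∉ q := by
      intro i
      by_cases hi : i ∈ I
      · exact ⟨0, fun h => absurd hi h⟩
      obtain ⟨g, hg⟩ := exists_isMin (hmax i hi)
      refine ⟨g, fun _ hi0 => ⟨⟨hg.1, hg.2.1⟩, ?_⟩⟩
      obtain ⟨j, rfl⟩ := Fin.exists_succ_eq.2 hi0
      rw [dd_succ]
      exact hg.pderiv_notMem hI
    choose g hg using this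
    exact ⟨g, hg⟩
  -- the exchange argument
  have hswap : ∀ I : Set (Fin (m + 1)), Indep q I → (∀ i, i ∉ I → ¬ Indep q (insert i I)) →
      (0 ∉ I → (X 0 - 1 : PR m) ∈ q) → ∀ i0 l, i0 ∉ I → l ∈ I → l < i0 →
      ∀ g0 ∈ q, g0 ∈ supported ℂ (insert i0 I) → dd κ l g0 ∉ q → False := by
    intro I hI hmax h0 i0 l hi0 hl hlt g0 hg0q hg0s hg0d
    have hi00 : i0 ≠ 0 := (lt_of_le_of_lt (Fin.zero_le l) hlt).ne'
    obtain ⟨g, hg⟩ := hrel I hI hmax
    obtain ⟨f, hf1, hf2, hf3, hf4⟩ := exists_family κ hq h0 (Function.update g i0 g0) (by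
      intro i hi hi0'
      by_cases h : i = i0
      · subst h
        simpa using ⟨hg0q, hg0s⟩
      · rw [Function.update_of_ne h]
        exact (hg i hi hi0').1)
    have hfl : dd κ l (f i0) ∉ q := by
      intro h
      have h1 := hf3 i0 l hi0 hi00 (Or.inl hl)
      rw [Function.update_self] at h1
      exact hg0d (by simpa using q.sub_mem h h1)
    have hfd : ∀ i, i ∉ I → i ≠ i0 → dd κ i (f i) ∉ q := by
      intro i hi hne h
      by_cases hi0' : i = 0
      · subst hi0'
        exact hf4 hi h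
      · have h1 := hf3 i i hi hi0' (Or.inr rfl)
        rw [Function.update_of_ne hne] at h1
        exact (hg i hi hi0').2 (by simpa using q.sub_mem h h1)
    have hlin : ∀ (j : Fin (m + 1)) (i : Fin (m + 1)), i ∉ I →
        dd κ j (dd κ l (f i0) * f i - dd κ l (f i) * f i0) -
          (dd κ l (f i0) * dd κ j (f i) - dd κ l (f i) * dd κ j (f i0)) ∈ q := by
      intro j i hi
      rw [map_sub, Derivation.leibniz, Derivation.leibniz]
      have : dd κ l (f i0) • dd κ j (f i) + f i • dd κ j (dd κ l (f i0)) -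
          (dd κ l (f i) • dd κ j (f i0) + f i0 • dd κ j (dd κ l (f i))) -
          (dd κ l (f i0) * dd κ j (f i) - dd κ l (f i) * dd κ j (f i0)) =
          f i * dd κ j (dd κ l (f i0)) - f i0 * dd κ j (dd κ l (f i)) := by
        simp only [smul_eq_mul]
        ring
      rw [this]
      exact q.sub_mem (q.mul_mem_right _ (hf1 i hi)) (q.mul_mem_right _ (hf1 i0 hi0))
    have hb := bezout (dd κ) ω hω q hq I hI hmax T hT E hE G hGT hGvan hmin
      (fun i => if i.1 = i0 then l else i.1)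
      (fun i => if i.1 = i0 then f i0 else dd κ l (f i0) * f i.1 - dd κ l (f i.1) * f i0)
      (fun j => by
        split_ifs with h
        · exact hf1 i0 hi0
        · exact q.sub_mem (q.mul_mem_left _ (hf1 _ j.2)) (q.mul_mem_left _ (hf1 i0 hi0)))
      (fun i j hij => by
        have hij' : i.1 ≠ j.1 := fun h => hij (Subtype.ext h)
        by_cases hj : j.1 = i0
        · have hi : i.1 ≠ i0 := fun h => hij' (h.trans hj.symm)
          simp only [hj, hi, if_true, if_false]
          exact hf2 i0 i.1 hi0 i.2 hi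
        · by_cases hi : i.1 = i0
          · simp only [hj, hi, if_true, if_false]
            have := hlin l j.1 j.2
            rwa [mul_comm (dd κ l (f j.1)) (dd κ l (f i0)), sub_self, sub_zero] at this
          · simp only [hj, hi, if_false]
            have h1 := hlin i.1 j.1 j.2
            have h2 := q.sub_mem (q.mul_mem_left (dd κ l (f i0)) (hf2 j.1 i.1 j.2 i.2 hij'))
              (q.mul_mem_left (dd κ l (f j.1)) (hf2 i0 i.1 hi0 i.2 hi))
            simpa using q.add_mem h1 h2)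
      (fun j => by
        by_cases hj : j.1 = i0
        · simpa only [hj, if_true] using hfl
        · simp only [hj, if_false]
          intro h
          have h1 := q.sub_mem h (hlin j.1 j.1 j.2)
          rw [sub_sub_cancel] at h1
          have h2 := q.add_mem h1 (q.mul_mem_left (dd κ l (f j.1)) (hf2 i0 j.1 hi0 j.2 hj))
          rw [sub_add_cancel] at h2
          rcases hq.mem_or_mem h2 with h3 | h3
          · exact hfl h3
          · exact hfd j.1 j.2 hj h3)
    set r := Fintype.card {i // i ∉ I} with hr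
    have hrle : r ≤ m + 1 := by
      have := Fintype.card_subtype_le fun i : Fin (m + 1) => i ∉ I
      rwa [Fintype.card_fin] at this
    have hprod : (∏ j : {i // i ∉ I}, ω (if j.1 = i0 then l else j.1)) * ω i0 =
        ω l * ∏ j : {i // i ∉ I}, ω j.1 := by
      rw [← Finset.mul_prod_erase Finset.univ _ (Finset.mem_univ (⟨i0, hi0⟩ : {i // i ∉ I})),
        ← Finset.mul_prod_erase Finset.univ (fun j : {i // i ∉ I} => ω j.1)
          (Finset.mem_univ (⟨i0, hi0⟩ : {i // i ∉ I}))]
      have : ∏ j ∈ Finset.univ.erase (⟨i0, hi0⟩ : {i // i ∉ I}), ω (if j.1 = i0 then l else j.1) =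
          ∏ j ∈ Finset.univ.erase (⟨i0, hi0⟩ : {i // i ∉ I}), ω j.1 := by
        refine Finset.prod_congr rfl fun j hj => ?_
        have : j.1 ≠ i0 := fun h => Finset.ne_of_mem_erase hj (Subtype.ext h)
        simp [this]
      rw [this]
      simp only [if_true]
      ring
    have hY : (∏ j : {i // i ∉ I}, ω j.1) * ∏ j : {i // i ∉ I}, T j.1 ≤ Y ^ r := by
      rw [hr, ← Finset.card_univ, ← Finset.prod_const, ← Finset.prod_mul_distrib]
      exact Finset.prod_le_prod' fun j _ => hωT j.1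
    have h1 : E ^ r * ω i0 ≤ r ! * (ω l * Y ^ r) := by
      calc E ^ r * ω i0
          ≤ (r ! * (∏ j : {i // i ∉ I}, ω (if j.1 = i0 then l else j.1)) *
              ∏ i : {i // i ∉ I}, T i) * ω i0 := Nat.mul_le_mul_right _ hb
        _ = r ! * (((∏ j : {i // i ∉ I}, ω (if j.1 = i0 then l else j.1)) * ω i0) *
              ∏ i : {i // i ∉ I}, T i) := by ring
        _ = r ! * (ω l * ((∏ j : {i // i ∉ I}, ω j.1) * ∏ i : {i // i ∉ I}, T i)) := by
              rw [hprod]; ring
        _ ≤ r ! * (ω l * Y ^ r) := Nat.mul_le_mul_left _ (Nat.mul_le_mul_left _ hY)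
    have h2 := hgap l i0 hlt
    obtain ⟨t, ht⟩ := Nat.exists_eq_add_of_le hrle
    have h3 : E ^ t ≤ Y ^ t := Nat.pow_le_pow_left hEY t
    have h4 : r ! ≤ (m + 1)! := Nat.factorial_le hrle
    have h5 : E ^ (m + 1) * ω i0 ≤ (m + 1)! * Y ^ (m + 1) * ω l := by
      calc E ^ (m + 1) * ω i0 = E ^ t * (E ^ r * ω i0) := by rw [ht]; ring
        _ ≤ Y ^ t * ((m + 1)! * (ω l * Y ^ r)) :=
          Nat.mul_le_mul h3 (h1.trans (Nat.mul_le_mul_right _ h4))
        _ = (m + 1)! * Y ^ (r + t) * ω l := by ring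
        _ = (m + 1)! * Y ^ (m + 1) * ω l := by rw [← ht]
    omega
  -- initial segments
  let seg : ℕ → Set (Fin (m + 1)) := fun k => {i | i.1 < k ∧ (i ≠ 0 ∨ (X 0 - 1 : PR m) ∉ q)}
  have hseg1 : Indep q (seg 1) := by
    by_cases ht : (X 0 - 1 : PR m) ∈ q
    · intro f hf hs
      have : seg 1 = ∅ := by
        ext i
        simp only [seg, Set.mem_ofPred_eq, Set.mem_empty_iff_false, iff_false, not_and, not_or,
          not_not]
        intro hi
        exact ⟨Fin.ext (by simpa using hi), ht⟩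
      rw [this, supported_empty, Algebra.mem_bot] at hs
      obtain ⟨a, rfl⟩ := hs
      have := hpt _ hf
      simp only [algebraMap_eq, eval_C] at this
      simp [this]
    · have h1 : Indep q {0} := by
        by_contra h
        exact ht (by simpa using X_sub_mem_of_univariate hq _ hpt h)
      refine h1.mono fun i hi => ?_
      exact Fin.ext (by simpa using hi.1)
  have hsegtop : ¬ Indep q (seg (m + 1)) := by
    intro hI
    by_cases ht : (X 0 - 1 : PR m) ∈ q
    · have hmem : ∀ i, i ∉ seg (m + 1) ↔ i = 0 := by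
        intro i
        simp [seg, ht, Nat.le_of_lt_succ i.2]
      have hmax : ∀ i, i ∉ seg (m + 1) → ¬ Indep q (insert i (seg (m + 1))) := by
        intro i hi h
        rw [(hmem i).1 hi] at h
        exact ht0 (h _ ht (supported_mono (by simp) hts))
      let _ : Unique {i // i ∉ seg (m + 1)} :=
        ⟨⟨⟨0, (hmem 0).2 rfl⟩⟩, fun i => Subtype.ext ((hmem i.1).1 i.2)⟩
      have hb := bezout (dd κ) ω hω q hq _ hI hmax T hT E hE G hGT hGvan hmin
        (fun _ => 0) (fun _ => X 0 - 1) (fun _ => ht)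
        (fun i j hij => absurd (Subsingleton.elim i j) hij)
        (fun _ => by
          simp only [map_sub, dd_zero_X_zero, Derivation.map_one_eq_zero, sub_zero]
          intro h
          refine hq.ne_top ((Ideal.eq_top_iff_one q).2 ?_)
          simpa using q.sub_mem h ht)
      rw [Fintype.card_unique, Fintype.prod_unique, Fintype.prod_unique] at hb
      have h0 : T (default : {i // i ∉ seg (m + 1)}).1 = D := rfl
      rw [h0] at hb
      simp only [pow_one, factorial_one, one_mul] at hb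
      omega
    · refine hne (eq_bot_iff.2 fun f hf => hI f hf ?_)
      have : seg (m + 1) = Set.univ := by
        ext i
        simp [seg, ht, Nat.le_of_lt_succ i.2]
      rw [this, supported_univ]
      trivial
  have hex : ∃ k, ¬ Indep q (seg (k + 1)) := ⟨m, hsegtop⟩
  set k := Nat.find hex with hk
  have hk1 : ¬ Indep q (seg (k + 1)) := Nat.find_spec hex
  have hkm : k ≤ m := Nat.find_min' hex hsegtop
  have hk0 : k ≠ 0 := fun h => hk1 (h ▸ hseg1)
  have hk2 : Indep q (seg k) := by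
    have := Nat.find_min hex (m := k - 1) (by omega)
    rw [not_not, Nat.sub_add_cancel (by omega)] at this
    exact this
  let j0 : Fin m := ⟨k - 1, by omega⟩
  have hj0 : (j0.succ : Fin (m + 1)).1 = k := by
    simp only [j0, Fin.val_succ]
    omega
  have hins : seg (k + 1) = insert j0.succ (seg k) := by
    ext i
    simp only [seg, Set.mem_ofPred_eq, Set.mem_insert_iff]
    constructor
    · rintro ⟨h1, h2⟩
      by_cases h : i.1 = k
      · exact Or.inl (Fin.ext (h.trans hj0.symm))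
      · exact Or.inr ⟨by omega, h2⟩
    · rintro (rfl | ⟨h1, h2⟩)
      · exact ⟨by omega, Or.inl (Fin.succ_ne_zero _)⟩
      · exact ⟨by omega, h2⟩
  rw [hins] at hk1
  obtain ⟨I, hsI, hImax⟩ := Finite.exists_le_maximal (p := Indep q) hk2
  have hI : Indep q I := hImax.prop
  have hmax : ∀ i, i ∉ I → ¬ Indep q (insert i I) := fun i hi h =>
    hi (hImax.le_of_ge h (Set.subset_insert _ _) (Set.mem_insert _ _))
  have h0 : 0 ∉ I → (X 0 - 1 : PR m) ∈ q := by
    intro h
    by_contra ht
    exact h (hsI ⟨by simpa using Nat.pos_of_ne_zero hk0, Or.inr ht⟩)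
  have hi0 : j0.succ ∉ I := fun h => hk1 (hI.mono (Set.insert_subset h hsI))
  obtain ⟨g0, hg0⟩ := exists_isMin hk1
  have hall : ∀ l ∈ seg k, dd κ l g0 ∈ q := by
    intro l hl
    by_contra h
    exact hswap I hI hmax h0 j0.succ l hi0 (hsI hl) (by rw [Fin.lt_def, hj0]; exact hl.1) g0 hg0.1
      (supported_mono (Set.insert_subset_insert hsI) hg0.2.1) h
  have hzero : ∀ j : Fin m, j ≠ j0 → pderiv j.succ g0 = 0 := by
    intro j hj
    by_cases h : j.succ ∈ seg k
    · have := hall _ h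
      rw [dd_succ] at this
      exact hg0.pderiv_eq_zero this
    · refine pderiv_eq_zero_of_supported hg0.2.1 ?_
      rintro (h1 | h1)
      · exact hj (Fin.succ_injective _ h1)
      · exact h h1
  by_cases ht : (X 0 - 1 : PR m) ∈ q
  · refine ⟨ht, j0, ?_⟩
    have h1 : ¬ Indep q {j0.succ} := by
      intro h
      refine hg0.2.2.1 (h g0 hg0.1 (mem_supported_iff.2 fun s hs i hi => ?_))
      rcases mem_supported_iff.1 hg0.2.1 s hs i hi with h1 | h1
      · exact h1
      · have hi0' : i ≠ 0 := h1.2.resolve_right (not_not.2 ht)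
        obtain ⟨j, rfl⟩ := Fin.exists_succ_eq.2 hi0'
        by_cases hj : j = j0
        · rw [hj]; rfl
        · exact absurd (exp_eq_zero_of_pderiv (hzero j hj) hs) hi
    simpa using X_sub_mem_of_univariate hq _ hpt h1
  · exfalso
    refine euler_contra κ hκ hg0 j0 (fun h => hg0.pderiv_notMem hk2 (h ▸ q.zero_mem)) hzero ?_
    exact hall 0 ⟨by simpa using Nat.pos_of_ne_zero hk0, Or.inr ht⟩

end Vale.Agent.P021
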