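import Vale.Agent.P021.Product
import Vale.Agent.P021.DegSet

/-! The zero estimate. -/

namespace Vale.Agent.P021

open MvPolynomial Nat

section General

variable {A : Type} [CommRing A] [Algebra ℂ A]

lemma sup_dfil_eq_top {ι : Type} (d : ι → Derivation ℂ A A) {ω : ι → ℕ} (hω : ∀ i, 0 < ω i)
    {p q : Ideal A} (h : p ⊔ q = ⊤) (σ : ℕ) : p ⊔ dfil d ω q σ = ⊤ := by
  rw [Ideal.eq_top_iff_one] at h ⊢
  obtain ⟨a, ha, b, hb, hab⟩ := Submodule.mem_sup.1 h
  refine Submodule.mem_sup.2 ⟨1 - b ^ σ, ?_, b ^ σ, pow_mem_dfil_of_mem hω hb σ, by ring⟩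
  obtain ⟨t, ht⟩ := sub_dvd_pow_sub_pow (1 : A) b σ
  rw [one_pow] at ht
  rw [ht, ← hab, add_sub_cancel_right]
  exact p.mul_mem_right _ ha

omit [Algebra ℂ A] in
lemma prod_mem_iInf_sup {α : Type} [Fintype α] (J : α → Ideal A) (p : Ideal A) (t : α → A)
    (h : ∀ i, t i ∈ J i ⊔ p) : ∏ i, t i ∈ (⨅ i, J i) ⊔ p := by
  classical
  choose a ha b hb hab using fun i => Submodule.mem_sup.1 (h i)
  refine Submodule.mem_sup.2 ⟨∏ i, a i, ?_, ∏ i, t i - ∏ i, a i, ?_, by ring⟩
  · rw [Ideal.mem_iInf]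
    intro i
    rw [← Finset.mul_prod_erase Finset.univ _ (Finset.mem_univ i)]
    exact (J i).mul_mem_right _ (ha i)
  · rw [← Ideal.Quotient.eq, map_prod, map_prod]
    refine Finset.prod_congr rfl fun i _ => ?_
    rw [← hab i, map_add, Ideal.Quotient.eq_zero_iff_mem.2 (hb i), add_zero]

lemma rank_iInf_ge {N : ℕ} (J : Fin N → Ideal A) (hJ : Pairwise (Function.onFun IsCoprime J))
    (a : ℕ) (ha : ∀ i, (a : Cardinal) ≤ Module.rank ℂ (A ⧸ J i)) :
    ((N * a : ℕ) : Cardinal) ≤ Module.rank ℂ (A ⧸ ⨅ i, J i) := by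
  let ψ : (A ⧸ ⨅ i, J i) →ₐ[ℂ] ∀ i, A ⧸ J i :=
    Ideal.Quotient.liftₐ _ (AlgHom.pi fun i => Ideal.Quotient.mkₐ ℂ (J i)) (by
      intro f hf
      funext i
      exact Ideal.Quotient.eq_zero_iff_mem.2 (Ideal.mem_iInf.1 hf i))
  have hψ : Function.Surjective ψ.toLinearMap := by
    intro x
    obtain ⟨r, hr⟩ := Ideal.pi_quotient_surjective hJ x
    exact ⟨Ideal.Quotient.mk _ r, funext hr⟩
  refine le_trans ?_ (LinearMap.rank_le_of_surjective _ hψ)
  rw [rank_pi]
  refine le_trans ?_ (Cardinal.sum_le_sum (fun _ => (a : Cardinal)) _ ha)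
  simp

end General

variable {m : ℕ}

/-- polynomials with bounded degrees as a subspace -/
def degF (lam : Fin m → ℕ) (D Y : ℕ) : Submodule ℂ (PR m) where
  carrier := {f | DegLe lam D Y f}
  add_mem' := fun {f g} hf hg s hs => by
    classical
    rcases Finset.mem_union.1 (support_add hs) with h | h
    · exact hf s h
    · exact hg s h
  zero_mem' := fun s hs => by simp at hs
  smul_mem' := fun a f hf s hs => hf s (support_smul hs)

lemma DegLe.mul {lam : Fin m → ℕ} {D Y D' Y' : ℕ} {f g : PR m} (hf : DegLe lam D Y f)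
    (hg : DegLe lam D' Y' g) : DegLe lam (D + D') (Y + Y') (f * g) := by
  classical
  intro s hs
  obtain ⟨a, ha, b, hb, rfl⟩ := Finset.mem_add.1 (support_mul f g hs)
  refine ⟨Nat.add_le_add (hf a ha).1 (hg b hb).1, ?_⟩
  simp only [Finsupp.coe_add, Pi.add_apply, mul_add, Finset.sum_add_distrib]
  exact Nat.add_le_add (hf a ha).2 (hg b hb).2

lemma DegLe.mono {lam : Fin m → ℕ} {D Y D' Y' : ℕ} {f : PR m} (hf : DegLe lam D Y f)
    (h1 : D ≤ D') (h2 : Y ≤ Y') : DegLe lam D' Y' f :=
  fun s hs => ⟨(hf s hs).1.trans h1, (hf s hs).2.trans h2⟩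

lemma DegLe.pow {lam : Fin m → ℕ} {D Y : ℕ} {f : PR m} (hf : DegLe lam D Y f) (n : ℕ) :
    DegLe lam (n * D) (n * Y) (f ^ n) := by
  induction n with
  | zero =>
    intro s hs
    rw [pow_zero] at hs
    have : s = 0 := by simpa [support_one] using hs
    simp [this]
  | succ n ih =>
    rw [pow_succ, add_mul, add_mul, one_mul, one_mul]
    exact ih.mul hf

lemma degLe_C (lam : Fin m → ℕ) (D Y : ℕ) (a : ℂ) : DegLe lam D Y (C a) := by
  classical
  intro s hs
  have : s = 0 := by
    by_contra h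
    rw [mem_support_iff, coeff_C, if_neg (Ne.symm h)] at hs
    exact hs rfl
  simp [this]

lemma degLe_X_succ (lam : Fin m → ℕ) (j : Fin m) : DegLe lam 0 (lam j) (X j.succ) := by
  classical
  intro s hs
  rw [support_X, Finset.mem_singleton] at hs
  subst hs
  refine ⟨by simp [Fin.succ_ne_zero], ?_⟩
  rw [Finset.sum_eq_single j]
  · simp
  · intro b _ hb
    simp [hb]
  · simp

lemma DegLe.pderiv {lam : Fin m → ℕ} {D Y : ℕ} {f : PR m} (hf : DegLe lam D Y f)
    (i : Fin (m + 1)) : DegLe lam D Y (pderiv i f) := by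
  intro s hs
  have h := hf _ (mem_support_of_pderiv hs)
  refine ⟨le_trans (by simp) h.1, le_trans (Finset.sum_le_sum fun j _ => ?_) h.2⟩
  exact Nat.mul_le_mul_left _ (by simp)

lemma DegLe.dd {lam : Fin m → ℕ} {D Y : ℕ} {f : PR m} (hf : DegLe lam D Y f) (κ : Fin m → ℂ)
    (i : Fin (m + 1)) : DegLe lam D Y (dd κ i f) := by
  refine Fin.cases ?_ (fun j => ?_) i
  · rw [dd_zero]
    refine (degF lam D Y).add_mem (fun s hs => hf s ?_) ((degF lam D Y).sum_mem fun j _ => ?_)
    · rw [mem_support_iff, coeff_X_mul_pderiv] at hs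
      exact mem_support_iff.2 (right_ne_zero_of_mul hs)
    · rw [C_mul']
      exact (degF lam D Y).smul_mem _ (hf.pderiv _)
  · rw [dd_succ]
    exact hf.pderiv _

lemma DegLe.word {lam : Fin m → ℕ} {D Y : ℕ} (κ : Fin m → ℂ) (w : List (Fin (m + 1))) :
    ∀ {f : PR m}, DegLe lam D Y f → DegLe lam D Y (word (P021.dd κ) w f) := by
  induction w with
  | nil => exact fun h => h
  | cons j w ih => exact fun h => ih (h.dd κ j)

lemma DegLe.degreeOf_le {lam : Fin m → ℕ} (hlam : ∀ j, 0 < lam j) {D Y : ℕ} {f : PR m}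
    (hf : DegLe lam D Y f) : degreeOf 0 f ≤ D ∧ ∀ j : Fin m, lam j * degreeOf j.succ f ≤ Y := by
  refine ⟨degreeOf_le_iff.2 fun s hs => (hf s hs).1, fun j => ?_⟩
  have : degreeOf j.succ f ≤ Y / lam j := by
    refine degreeOf_le_iff.2 fun s hs => ?_
    rw [Nat.le_div_iff_mul_le (hlam j), mul_comm]
    exact le_trans (Finset.single_le_sum (f := fun j => lam j * s j.succ)
      (fun _ _ => Nat.zero_le _) (Finset.mem_univ j)) (hf s hs).2
  exact (Nat.mul_le_mul_left _ this).trans (Nat.mul_div_le Y (lam j))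

lemma rank_degF_le (lam : Fin m → ℕ) (hlam : ∀ j, 0 < lam j) (D Y : ℕ) :
    Module.rank ℂ (degF lam D Y) ≤ (((D + 1) * cntLe lam Y : ℕ) : Cardinal) := by
  have hle : degF lam D Y ≤ Submodule.span ℂ
      ((fun s => (monomial s (1 : ℂ) : PR m)) '' degSet lam D Y) := by
    intro f hf
    rw [f.as_sum]
    refine Submodule.sum_mem _ fun s hs => ?_
    have : monomial s (coeff s f) = coeff s f • (monomial s (1 : ℂ) : PR m) := by
      simp [smul_monomial]
    rw [this]
    exact Submodule.smul_mem _ _ (Submodule.subset_span ⟨s, hf s hs, rfl⟩)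
  refine (Submodule.rank_mono hle).trans ((rank_span_le _).trans (Cardinal.mk_image_le.trans ?_))
  rw [← ncard_degSet, Set.cast_ncard (degSet_finite lam hlam D Y)]

lemma chain_lemma (κ : Fin m → ℂ) (hκ : ∀ j, κ j ≠ 0)
    (ω : Fin (m + 1) → ℕ) (hω : ∀ i, 0 < ω i) (Y D E : ℕ) (hD : 0 < D) (hωY : ∀ i, ω i ≤ Y)
    (hEY : E ≤ Y) (hDE : ω 0 * D < E)
    (hgap : ∀ l i, l < i → (m + 1)! * Y ^ (m + 1) * ω l < E ^ (m + 1) * ω i)
    (P : PR m) (hP : P ≠ 0) (hPdeg : DegLe (fun j => ω j.succ) D Y P)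
    (p : Ideal (PR m)) (hp : p.IsPrime) (c : Fin m → ℂ) (hpc : p ≤ ptIdeal c)
    (hall : ∀ w, wt ω w ≤ (m + 1) * E → word (dd κ) w P ∈ p) :
    (X 0 - 1 : PR m) ∈ p ∧ ∃ j : Fin m, (X j.succ - C (c j) : PR m) ∈ p := by
  by_contra hcon
  let G : ℕ → Set (PR m) := fun i => {g | ∃ w, wt ω w ≤ i * E ∧ g = word (dd κ) w P}
  have key : ∀ i : ℕ, ∀ p' : Ideal (PR m), p'.IsPrime → p' ≤ p → G i ⊆ p' →
      ((i + 1 : ℕ) : ℕ∞) ≤ p'.height := by
    intro i
    induction i with
    | zero =>
      intro p' _ _ hG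
      have hne : p' ≠ ⊥ := fun h => hP (by
        have : P ∈ p' := hG ⟨[], by simp, rfl⟩
        simpa [h] using this)
      rw [zero_add, Nat.cast_one, Order.one_le_iff_ne_zero]
      exact fun h => hne (Ideal.height_eq_zero_iff_eq_bot.1 h)
    | succ i ih =>
      intro p' hp' hle hG
      have hGi : G i ⊆ p' := by
        rintro g ⟨w, hw, rfl⟩
        exact hG ⟨w, hw.trans (Nat.mul_le_mul_right _ (Nat.le_succ i)), rfl⟩
      obtain ⟨q, hqmin, hqp⟩ := Ideal.exists_minimalPrimes_le (Ideal.span_le.2 hGi)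
      have hq : q.IsPrime := hqmin.1.1
      have hGq : G i ⊆ q := Ideal.span_le.1 hqmin.1.2
      rcases hqp.eq_or_lt with rfl | hlt
      · exfalso
        apply hcon
        have hne : q ≠ ⊥ := fun h => hP (by
          have : P ∈ q := hG ⟨[], by simp, rfl⟩
          simpa [h] using this)
        obtain ⟨h1, j, h2⟩ := product_lemma κ hκ ω hω Y D E hD hωY hEY hDE hgap q hq c
          (hle.trans hpc) hne (G i)
          (by
            rintro g ⟨w, _, rfl⟩
            exact (hPdeg.word κ w).degreeOf_le fun j => hω _)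
          (by
            rintro g ⟨w, hw, rfl⟩ u hu
            rw [← word_append]
            refine hG ⟨_, ?_, rfl⟩
            rw [wt_append, add_mul, one_mul]
            omega)
          (by
            intro r hr hlt
            by_contra h
            push Not at h
            exact hlt.not_ge (hqmin.2 ⟨hr, Ideal.span_le.2 h⟩ hlt.le))
        exact ⟨hle h1, j, hle h2⟩
      · have h1 := ih q hq (hqp.trans hle) hGq
        have h2 := Ideal.height_add_one_le_of_lt_of_isPrime hlt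
        refine le_trans ?_ h2
        push_cast at h1 ⊢
        gcongr
  have h1 := key (m + 1) p hp le_rfl (by rintro g ⟨w, hw, rfl⟩; exact hall w hw)
  have h2 : (p.height : WithBot ℕ∞) ≤ ringKrullDim (PR m) := Ideal.height_le_ringKrullDim_of_isPrime
  rw [MvPolynomial.ringKrullDim_of_isNoetherianRing, ringKrullDim_eq_zero_of_field, zero_add,
    Nat.card_eq_fintype_card, Fintype.card_fin] at h2
  have h3 : p.height ≤ ((m + 1 : ℕ) : ℕ∞) := by exact_mod_cast h2
  have h4 := h1.trans h3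
  norm_cast at h4
  omega

theorem zero_estimate (N : ℕ) (κ c : Fin m → ℂ) (hκ : ∀ j, κ j ≠ 0) (hc : ∀ j, c j ≠ 0)
    (ω : Fin (m + 1) → ℕ) (hω : ∀ i, 0 < ω i) (Y D E Θ V : ℕ) (hD : 0 < D)
    (hωY : ∀ i, ω i ≤ Y) (hEY : E ≤ Y) (hDE : ω 0 * D < E)
    (hgap : ∀ l i, l < i → (m + 1)! * Y ^ (m + 1) * ω l < E ^ (m + 1) * ω i)
    (hΘY : Θ ≤ Y) (hV : Θ + (m + 1) * E ≤ V)
    (P : PR m) (hP : P ≠ 0) (hPdeg : DegLe (fun j => ω j.succ) D Y P)
    (hPvan : ∀ k : ℕ, k < N → P ∈ dfil (dd κ) ω (ptIdeal fun j => (k : ℂ) * c j) V) :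
    N * Θ ^ (m + 1) ≤ (m + 1) * ω 0 * D * Y ^ m := by
  classical
  rcases Nat.eq_zero_or_pos Θ with rfl | hΘ
  · simp
  rcases Nat.eq_zero_or_pos N with rfl | hN
  · simp
  have hY : 0 < Y := lt_of_lt_of_le (hω 0) (hωY 0)
  set lam : Fin m → ℕ := fun j => ω j.succ with hlamdef
  have hlam : ∀ j, 0 < lam j := fun j => hω _
  let pt : Fin N → Ideal (PR m) := fun k => ptIdeal fun j => ((k : ℕ) : ℂ) * c j
  have hptmax : ∀ k, (pt k).IsMaximal := fun k => ptIdeal_isMaximal _
  have hXmem : ∀ (k : Fin N) (j : Fin m), (X j.succ - C (((k : ℕ) : ℂ) * c j) : PR m) ∈ pt k := by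
    intro k j
    simp [pt, mem_ptIdeal]
  have hcop : ∀ (p : Ideal (PR m)) (k k' : Fin N) (j : Fin m), k' ≠ k →
      (X j.succ - C (((k : ℕ) : ℂ) * c j) : PR m) ∈ p → p ⊔ pt k' = ⊤ := by
    intro p k k' j hne hmem
    have h1 := Ideal.sub_mem _ (Ideal.mem_sup_left (T := pt k') hmem)
      (Ideal.mem_sup_right (S := p) (hXmem k' j))
    rw [sub_sub_sub_cancel_left, ← C_sub, ← sub_mul] at h1
    refine Ideal.eq_top_of_isUnit_mem _ h1 (IsUnit.map C (IsUnit.mk0 _ (mul_ne_zero ?_ (hc j))))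
    rw [sub_ne_zero]
    exact fun h => hne (Fin.ext (Nat.cast_injective h))
  obtain ⟨-, j0, -⟩ := chain_lemma κ hκ ω hω Y D E hD hωY hEY hDE hgap P hP hPdeg (pt ⟨0, hN⟩)
    (hptmax _).isPrime _ le_rfl (fun w hw => hPvan 0 hN w (by omega))
  obtain ⟨c0, hc0⟩ := lemmaK (R := ℂ) (fun k => degF lam (k * D) (k * Y))
    (fun n => ⨅ k : Fin N, dfil (dd κ) ω (pt k) (n * Θ))
    (fun a b hab f hf => DegLe.mono hf (Nat.mul_le_mul_right _ hab) (Nat.mul_le_mul_right _ hab))
    (fun a b f g hf hg => by rw [add_mul, add_mul]; exact DegLe.mul hf hg)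
    (fun f => ⟨f.totalDegree * (1 + ∑ j, lam j), fun s hs => by
      have h1 : ∀ i, s i ≤ f.totalDegree := fun i =>
        (monomial_le_degreeOf i hs).trans (degreeOf_le_totalDegree f i)
      refine ⟨(h1 0).trans ?_, ?_⟩
      · rw [mul_assoc]
        exact Nat.le_mul_of_pos_right _ (Nat.mul_pos (by omega) hD)
      · refine le_trans (Finset.sum_le_sum fun j _ => Nat.mul_le_mul_left _ (h1 j.succ)) ?_
        rw [← Finset.sum_mul]
        refine le_trans ?_ (Nat.le_mul_of_pos_right _ hY)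
        rw [mul_comm]
        exact Nat.mul_le_mul_left _ (by omega)⟩)
    (by simp [dfil_zero])
    (fun a b hab => iInf_mono fun k => dfil_anti (Nat.mul_le_mul_right _ hab))
    (fun a b f g hf hg => by
      rw [Ideal.mem_iInf] at hf hg ⊢
      intro k
      rw [add_mul]
      exact mul_mem_dfil (hf k) (hg k))
    (by
      intro p hp
      by_cases hpk : ∃ k, p ≤ pt k
      swap
      · push Not at hpk
        left
        intro n
        refine ⟨1, one_ne_zero, ?_⟩
        have := prod_mem_iInf_sup (fun k : Fin N => dfil (dd κ) ω (pt k) (n * Θ)) p (fun _ => 1)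
          (fun k => by
            have h1 : p ⊔ pt k = ⊤ := by
              by_contra h
              have h2 := (hptmax k).eq_of_le h le_sup_right
              exact hpk k (h2 ▸ le_sup_left)
            rw [sup_comm, sup_dfil_eq_top _ hω h1]
            trivial)
        rw [sup_comm]
        simpa using this
      obtain ⟨k, hk⟩ := hpk
      right
      by_cases hall : ∀ w, wt ω w ≤ (m + 1) * E → word (dd κ) w P ∈ p
      swap
      · push Not at hall
        obtain ⟨w, hw, hwp⟩ := hall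
        refine Or.inr ⟨1, one_pos, _, ?_, Ideal.mem_sup_left ?_, hwp⟩
        · have := hPdeg.word κ w
          rw [one_mul, one_mul]
          exact this
        · rw [Ideal.mem_iInf]
          intro k'
          exact word_mem_dfil (hPvan k' k'.2) w (by omega)
      obtain ⟨ht, i, hi⟩ := chain_lemma κ hκ ω hω Y D E hD hωY hEY hDE hgap P hP hPdeg p hp _ hk hall
      by_cases hX : ∀ j : Fin m, (X j.succ - C (((k : ℕ) : ℂ) * c j) : PR m) ∈ p
      · left
        have hsurj : Function.Surjective (Algebra.linearMap ℂ (PR m ⧸ p)) := by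
          intro y
          obtain ⟨f, rfl⟩ := Ideal.Quotient.mk_surjective y
          induction f using MvPolynomial.induction_on with
          | C a => exact ⟨a, rfl⟩
          | add f g hf hg =>
            obtain ⟨a, ha⟩ := hf
            obtain ⟨b, hb⟩ := hg
            exact ⟨a + b, by rw [map_add, map_add, ha, hb]⟩
          | mul_X f l hf =>
            obtain ⟨a, ha⟩ := hf
            have : ∃ b, Algebra.linearMap ℂ (PR m ⧸ p) b = Ideal.Quotient.mk p (X l) := by
              refine Fin.cases ?_ (fun j => ?_) l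
              · refine ⟨1, ?_⟩
                have := (Ideal.Quotient.eq.2 ht).symm
                simpa using this
              · exact ⟨_, (Ideal.Quotient.eq.2 (hX j)).symm⟩
            obtain ⟨b, hb⟩ := this
            refine ⟨a * b, ?_⟩
            rw [map_mul (Ideal.Quotient.mk p), ← ha, ← hb]
            simp
        refine lt_of_le_of_lt (LinearMap.rank_le_of_surjective _ hsurj) ?_
        simp
      · right
        push Not at hX
        obtain ⟨j, hj⟩ := hX
        refine ⟨ω j.succ, hω _, (X j.succ - C (((k : ℕ) : ℂ) * c j)) ^ Y, ?_, ?_,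
          fun h => hj (hp.mem_of_pow_mem _ h)⟩
        · have h1 : DegLe lam 0 (lam j) (X j.succ - C (((k : ℕ) : ℂ) * c j)) :=
            (degF lam 0 (lam j)).sub_mem (degLe_X_succ lam j) (degLe_C _ _ _ _)
          exact (h1.pow Y).mono (by simp) (by rw [mul_comm])
        · have := prod_mem_iInf_sup
            (fun k' : Fin N => dfil (dd κ) ω (pt k') (ω j.succ * Θ)) p
            (fun k' => if k' = k then (X j.succ - C (((k : ℕ) : ℂ) * c j)) ^ Y else 1)
            (fun k' => by
              split_ifs with h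
              · subst h
                have hu := u_mem_dfil κ (fun j => ((k' : ℕ) : ℂ) * c j) ω j (ω j.succ)
                  (by have := hω 0; nlinarith)
                have hu2 := dfil_anti (σ := ω j.succ * Θ)
                  (by rw [mul_comm]; exact Nat.mul_le_mul_right _ hΘY) (pow_mem_dfil hu Y)
                refine Submodule.mem_sup.2 ⟨_, hu2, _, ?_, add_sub_cancel _ _⟩
                refine Ideal.mem_of_dvd _ (sub_dvd_pow_sub_pow _ _ Y) ?_
                rw [sub_sub_cancel]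
                refine p.mul_mem_left _ ?_
                obtain ⟨r, hr⟩ : Polynomial.X ∣ ell (ω j.succ) := by
                  rw [Polynomial.X_dvd_iff, Polynomial.coeff_zero_eq_eval_zero, ell_eval_zero]
                rw [hr, map_mul, Polynomial.aeval_X]
                exact p.mul_mem_right _ ht
              · rw [sup_comm, sup_dfil_eq_top _ hω (hcop p k k' i h hi)]
                trivial)
          simpa using this)
  have hpair : ∀ σ, Pairwise (Function.onFun IsCoprime
      fun k : Fin N => dfil (dd κ) ω (pt k) σ) := by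
    intro σ k k' hne
    have h1 := hcop (pt k) k k' j0 hne.symm (hXmem k j0)
    have h2 := sup_dfil_eq_top (dd κ) hω h1 σ
    rw [sup_comm] at h2
    have h3 := sup_dfil_eq_top (dd κ) hω h2 σ
    rw [sup_comm] at h3
    exact Ideal.isCoprime_iff_sup_eq.2 h3
  have htr : ∀ (k : Fin N) σ,
      (cntLt ω σ : Cardinal) ≤ Module.rank ℂ (PR m ⧸ dfil (dd κ) ω (pt k) σ) := by
    intro k σ
    refine transversal (dd κ) ω hω (pt k) (hptmax k).isPrime
      (fun ρ h => by simpa [pt, mem_ptIdeal] using h)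
      (Fin.cons (X 0 - 1) fun j => X j.succ - C (((k : ℕ) : ℂ) * c j) - C (κ j) * (X 0 - 1))
      (fun i => ?_) (fun i l hil => ?_) (fun i => ?_) σ
    · refine Fin.cases ?_ (fun j => ?_) i <;> simp [pt, mem_ptIdeal]
    · revert hil
      refine Fin.cases ?_ (fun i => ?_) i <;> refine Fin.cases ?_ (fun l => ?_) l <;> intro hil
      · exact absurd rfl hil
      · simp [pt, mem_ptIdeal, dd_zero_X_zero, dd_zero_X_succ]
      · simp [dd_succ_X_zero]
      · have : l ≠ i := fun h => hil (by rw [h])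
        simp [dd_succ_X_zero, dd_succ_X_succ, this]
    · refine Fin.cases ?_ (fun j => ?_) i
      · simp [pt, mem_ptIdeal, dd_zero_X_zero]
      · simp [pt, mem_ptIdeal, dd_succ_X_zero, dd_succ_X_succ]
  refine asym _ _ (m + 1) (c0 + m + 1) fun n hn => ?_
  have h1 := (rank_iInf_ge _ (hpair (n * Θ)) _ (fun k => htr k (n * Θ))).trans
    ((hc0 n).trans (rank_degF_le lam hlam _ _))
  have h2 : N * cntLt ω (n * Θ) ≤ ((n + c0) * D + 1) * cntLe lam ((n + c0) * Y) := by
    exact_mod_cast h1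
  have h3 := cnt_lower ω hω (n * Θ) (Nat.mul_pos hn hΘ)
  have h4 := cnt_upper lam hlam ((n + c0) * Y)
  rw [Fintype.card_fin] at h3 h4
  rw [Fin.prod_univ_succ, factorial_succ] at h3
  have h5 : ∑ j, lam j ≤ m * Y := by
    refine (Finset.sum_le_card_nsmul _ _ Y fun j _ => hωY _).trans ?_
    simp
  have h6 : ((n + c0) * Y + ∑ j, lam j) ^ m ≤ (n + (c0 + m + 1)) ^ m * Y ^ m := by
    rw [← mul_pow]
    refine Nat.pow_le_pow_left ?_ _
    nlinarith
  have h7 : (n + c0) * D + 1 ≤ (n + (c0 + m + 1)) * D := by nlinarith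
  calc N * Θ ^ (m + 1) * n ^ (m + 1) = N * (n * Θ) ^ (m + 1) := by ring
    _ ≤ N * ((m + 1) * m ! * (ω 0 * ∏ j, lam j) * cntLt ω (n * Θ)) := Nat.mul_le_mul_left _ h3
    _ = (m + 1) * ω 0 * (m ! * ∏ j, lam j) * (N * cntLt ω (n * Θ)) := by ring
    _ ≤ (m + 1) * ω 0 * (m ! * ∏ j, lam j) *
        (((n + c0) * D + 1) * cntLe lam ((n + c0) * Y)) := Nat.mul_le_mul_left _ h2
    _ = (m + 1) * ω 0 * (((n + c0) * D + 1) *
        (m ! * (∏ j, lam j) * cntLe lam ((n + c0) * Y))) := by ring
    _ ≤ (m + 1) * ω 0 * (((n + (c0 + m + 1)) * D) * ((n + (c0 + m + 1)) ^ m * Y ^ m)) :=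
        Nat.mul_le_mul_left _ (Nat.mul_le_mul h7 (h4.trans h6))
    _ = (m + 1) * ω 0 * D * Y ^ m * (n + (c0 + m + 1)) ^ (m + 1) := by ring

end Vale.Agent.P021
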